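/-
Row 56 (S0077, S0078).  Biased Fourier analysis on `E → Bool`, averaging operators.
-/
import Mathlib

set_option autoImplicit false

namespace Crest.Agent.VN

open Finset

variable {E : Type*} [Fintype E] [DecidableEq E]

/-- weight of an outcome (same as `Crest.FinProb.bernoulliWeight`). -/
noncomputable def wt (p : ℝ) (x : E → Bool) : ℝ := ∏ e, if x e then p else 1 - p

/-- expectation -/
noncomputable def ex (p : ℝ) (F : (E → Bool) → ℝ) : ℝ := ∑ x, wt p x * F x

/-- normalised coordinate -/
noncomputable def chi (p : ℝ) (b : Bool) : ℝ :=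
  if b then Real.sqrt ((1 - p) / p) else - Real.sqrt (p / (1 - p))

/-- character -/
noncomputable def chiS (p : ℝ) (S : Finset E) (x : E → Bool) : ℝ := ∏ e ∈ S, chi p (x e)

/-- Fourier coefficient -/
noncomputable def fc (p : ℝ) (F : (E → Bool) → ℝ) (S : Finset E) : ℝ :=
  ex p (fun x => F x * chiS p S x)

/-- replace the coordinates in `A` of `x` by those of `y` -/
def mix (A : Finset E) (x y : E → Bool) : E → Bool := fun e => if e ∈ A then y e else x e

/-- average over the coordinates in `A` -/
noncomputable def av (p : ℝ) (A : Finset E) (F : (E → Bool) → ℝ) (x : E → Bool) : ℝ :=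
  ex p (fun y => F (mix A x y))

/-- Fourier total influence -/
noncomputable def infl (p : ℝ) (F : (E → Bool) → ℝ) : ℝ :=
  ∑ S : Finset E, (S.card : ℝ) * fc p F S ^ 2

end Crest.Agent.VN
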