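/-
Row 56 (S0077, S0078).  Biased Fourier analysis on `E → Bool`.
-/
import Crest.Agent.VN.Basic

set_option autoImplicit false

namespace Crest.Agent.VN

open Finset

variable {E : Type*} [Fintype E] [DecidableEq E] {p : ℝ}

/-- product formula for expectations -/
theorem ex_prod (p : ℝ) (g : E → Bool → ℝ) :
    ex p (fun x => ∏ e, g e (x e)) = ∏ e, (p * g e true + (1 - p) * g e false) := by
  unfold ex wt
  have h := Finset.prod_univ_sum (fun _ : E => (Finset.univ : Finset Bool))
    (fun e b => (if b then p else 1 - p) * g e b)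
  simp only [Fintype.piFinset_univ, Fintype.sum_bool] at h
  simp only [if_true, Bool.false_eq_true, if_false] at h
  rw [h]
  refine Finset.sum_congr rfl fun x _ => ?_
  rw [← Finset.prod_mul_distrib]

theorem ex_const (c : ℝ) : ex p (fun _ : E → Bool => c) = c := by
  have h := ex_prod (E := E) p (fun _ _ => 1)
  simp only [Finset.prod_const_one, mul_one] at h
  have h2 : ex p (fun _ : E → Bool => (1:ℝ)) = 1 := by
    rw [h]; simp
  have h3 : ex p (fun _ : E → Bool => c) = c * ex p (fun _ : E → Bool => (1:ℝ)) := by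
    unfold ex; rw [Finset.mul_sum]; refine Finset.sum_congr rfl fun x _ => by ring
  rw [h3, h2, mul_one]

theorem ex_add (F G : (E → Bool) → ℝ) : ex p (fun x => F x + G x) = ex p F + ex p G := by
  unfold ex; rw [← Finset.sum_add_distrib]; refine Finset.sum_congr rfl fun x _ => by ring

theorem ex_sub (F G : (E → Bool) → ℝ) : ex p (fun x => F x - G x) = ex p F - ex p G := by
  unfold ex; rw [← Finset.sum_sub_distrib]; refine Finset.sum_congr rfl fun x _ => by ring

theorem ex_mul_const (c : ℝ) (F : (E → Bool) → ℝ) : ex p (fun x => c * F x) = c * ex p F := by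
  unfold ex; rw [Finset.mul_sum]; refine Finset.sum_congr rfl fun x _ => by ring

theorem ex_sum {ι : Type*} (s : Finset ι) (F : ι → (E → Bool) → ℝ) :
    ex p (fun x => ∑ i ∈ s, F i x) = ∑ i ∈ s, ex p (F i) := by
  unfold ex
  rw [Finset.sum_comm]
  refine Finset.sum_congr rfl fun x _ => by rw [Finset.mul_sum]

theorem wt_nonneg (hp0 : 0 ≤ p) (hp1 : p ≤ 1) (x : E → Bool) : 0 ≤ wt p x :=
  Finset.prod_nonneg fun e _ => by split_ifs <;> linarith

theorem wt_pos (hp0 : 0 < p) (hp1 : p < 1) (x : E → Bool) : 0 < wt p x :=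
  Finset.prod_pos fun e _ => by split_ifs <;> linarith

theorem ex_mono (hp0 : 0 ≤ p) (hp1 : p ≤ 1) {F G : (E → Bool) → ℝ} (h : ∀ x, F x ≤ G x) :
    ex p F ≤ ex p G :=
  Finset.sum_le_sum fun x _ => mul_le_mul_of_nonneg_left (h x) (wt_nonneg hp0 hp1 x)

theorem ex_nonneg (hp0 : 0 ≤ p) (hp1 : p ≤ 1) {F : (E → Bool) → ℝ} (h : ∀ x, 0 ≤ F x) :
    0 ≤ ex p F :=
  Finset.sum_nonneg fun x _ => mul_nonneg (wt_nonneg hp0 hp1 x) (h x)

/-- Cauchy–Schwarz -/
theorem ex_cs (hp0 : 0 ≤ p) (hp1 : p ≤ 1) (F G : (E → Bool) → ℝ) :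
    ex p (fun x => F x * G x) ^ 2 ≤ ex p (fun x => F x ^ 2) * ex p (fun x => G x ^ 2) := by
  have h := Finset.sum_mul_sq_le_sq_mul_sq (Finset.univ : Finset (E → Bool))
    (fun x => Real.sqrt (wt p x) * F x) (fun x => Real.sqrt (wt p x) * G x)
  have h1 : ∀ x : E → Bool, Real.sqrt (wt p x) * Real.sqrt (wt p x) = wt p x := fun x =>
    Real.mul_self_sqrt (wt_nonneg hp0 hp1 x)
  unfold ex
  calc (∑ x, wt p x * (F x * G x)) ^ 2
      = (∑ x, (Real.sqrt (wt p x) * F x) * (Real.sqrt (wt p x) * G x)) ^ 2 := by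
        congr 1; refine Finset.sum_congr rfl fun x _ => ?_
        calc wt p x * (F x * G x) = (Real.sqrt (wt p x) * Real.sqrt (wt p x)) * (F x * G x) := by
              rw [h1]
          _ = _ := by ring
    _ ≤ _ := h
    _ = _ := by
        congr 1
        · refine Finset.sum_congr rfl fun x _ => ?_
          rw [mul_pow, sq (Real.sqrt (wt p x)), h1]
        · refine Finset.sum_congr rfl fun x _ => ?_
          rw [mul_pow, sq (Real.sqrt (wt p x)), h1]

/-! ### characters -/

theorem chi_true_sq (hp0 : 0 < p) (hp1 : p < 1) : chi p true * chi p true = (1 - p) / p := by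
  simp only [chi, if_true]
  exact Real.mul_self_sqrt (div_nonneg (by linarith) hp0.le)

theorem chi_false_sq (hp0 : 0 < p) (hp1 : p < 1) : chi p false * chi p false = p / (1 - p) := by
  simp only [chi, Bool.false_eq_true, if_false]
  rw [neg_mul_neg]
  exact Real.mul_self_sqrt (div_nonneg hp0.le (by linarith))

theorem chi_mixed (hp0 : 0 < p) (hp1 : p < 1) : chi p true * chi p false = -1 := by
  simp only [chi, if_true, Bool.false_eq_true, if_false]
  have h1 : (0:ℝ) < 1 - p := by linarith
  rw [mul_neg, ← Real.sqrt_mul (div_nonneg h1.le hp0.le)]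
  have : (1 - p) / p * (p / (1 - p)) = 1 := by field_simp
  rw [this, Real.sqrt_one]

theorem chi_mean (hp0 : 0 < p) (hp1 : p < 1) : p * chi p true + (1 - p) * chi p false = 0 := by
  have h1 : (0:ℝ) < 1 - p := by linarith
  have hne : chi p true ≠ 0 := by
    intro h
    have := chi_mixed hp0 hp1
    rw [h, zero_mul] at this; norm_num at this
  have h2 : chi p true * (p * chi p true + (1 - p) * chi p false) = 0 := by
    have e1 := chi_true_sq hp0 hp1
    have e2 := chi_mixed hp0 hp1
    calc chi p true * (p * chi p true + (1 - p) * chi p false)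
        = p * (chi p true * chi p true) + (1 - p) * (chi p true * chi p false) := by ring
      _ = 0 := by rw [e1, e2]; field_simp; ring
  exact (mul_eq_zero.mp h2).resolve_left hne

theorem chi_var (hp0 : 0 < p) (hp1 : p < 1) :
    p * (chi p true * chi p true) + (1 - p) * (chi p false * chi p false) = 1 := by
  rw [chi_true_sq hp0 hp1, chi_false_sq hp0 hp1]
  have h1 : (1 - p) ≠ 0 := by linarith
  have h2 : p ≠ 0 := by linarith
  field_simp
  ring

/-- kernel identity -/
theorem sum_chiS_mul (hp0 : 0 < p) (hp1 : p < 1) (x y : E → Bool) :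
    ∑ S : Finset E, chiS p S x * chiS p S y = if x = y then (wt p x)⁻¹ else 0 := by
  have h1 : ∑ S : Finset E, chiS p S x * chiS p S y
      = ∏ e, (1 + chi p (x e) * chi p (y e)) := by
    rw [Finset.prod_one_add, Finset.powerset_univ]
    refine Finset.sum_congr rfl fun S _ => ?_
    unfold chiS; rw [Finset.prod_mul_distrib]
  rw [h1]
  split_ifs with hxy
  · subst hxy
    unfold wt
    rw [← Finset.prod_inv_distrib]
    refine Finset.prod_congr rfl fun e _ => ?_
    have h1 : (1 - p) ≠ 0 := by linarith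
    have h2 : p ≠ 0 := by linarith
    cases hx : x e
    · rw [chi_false_sq hp0 hp1]; simp only [Bool.false_eq_true, if_false]; field_simp; ring
    · rw [chi_true_sq hp0 hp1]; simp only [if_true]; field_simp; ring
  · obtain ⟨e, he⟩ := Function.ne_iff.mp hxy
    refine Finset.prod_eq_zero (Finset.mem_univ e) ?_
    cases hx : x e <;> cases hy : y e
    · rw [hx, hy] at he; exact absurd rfl he
    · rw [mul_comm, chi_mixed hp0 hp1]; ring
    · rw [chi_mixed hp0 hp1]; ring
    · rw [hx, hy] at he; exact absurd rfl he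

/-- Fourier inversion -/
theorem inversion (hp0 : 0 < p) (hp1 : p < 1) (F : (E → Bool) → ℝ) (x : E → Bool) :
    F x = ∑ S, fc p F S * chiS p S x := by
  unfold fc ex
  simp_rw [Finset.sum_mul]
  rw [Finset.sum_comm]
  have h : ∀ y : E → Bool, ∑ S : Finset E, wt p y * (F y * chiS p S y) * chiS p S x
      = if y = x then F y else 0 := by
    intro y
    have e1 : ∑ S : Finset E, wt p y * (F y * chiS p S y) * chiS p S x
        = wt p y * F y * ∑ S : Finset E, chiS p S y * chiS p S x := by
      rw [Finset.mul_sum]; refine Finset.sum_congr rfl fun S _ => by ring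
    rw [e1, sum_chiS_mul hp0 hp1]
    split_ifs
    · have := (wt_pos hp0 hp1 y).ne'
      field_simp
    · ring
  rw [Finset.sum_congr rfl fun y _ => h y]
  simp

/-- Parseval -/
theorem ex_mul_eq (hp0 : 0 < p) (hp1 : p < 1) (F G : (E → Bool) → ℝ) :
    ex p (fun x => F x * G x) = ∑ S, fc p F S * fc p G S := by
  have h : ∀ x : E → Bool, F x * G x = ∑ S : Finset E, fc p G S * (F x * chiS p S x) := by
    intro x
    conv_lhs => rw [inversion hp0 hp1 G x]
    rw [Finset.mul_sum]; refine Finset.sum_congr rfl fun S _ => by ring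
  calc ex p (fun x => F x * G x)
      = ex p (fun x => ∑ S : Finset E, fc p G S * (F x * chiS p S x)) := by
        congr 1; ext x; exact h x
    _ = ∑ S : Finset E, ex p (fun x => fc p G S * (F x * chiS p S x)) := ex_sum _ _
    _ = _ := by
        refine Finset.sum_congr rfl fun S _ => ?_
        rw [ex_mul_const, mul_comm]; rfl

theorem ex_sq_eq (hp0 : 0 < p) (hp1 : p < 1) (F : (E → Bool) → ℝ) :
    ex p (fun x => F x ^ 2) = ∑ S, fc p F S ^ 2 := by
  simp_rw [sq]; exact ex_mul_eq hp0 hp1 F F

theorem ex_chiS_mul (hp0 : 0 < p) (hp1 : p < 1) (S T : Finset E) :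
    ex p (fun x => chiS p S x * chiS p T x) = if S = T then 1 else 0 := by
  have h : (fun x : E → Bool => chiS p S x * chiS p T x)
      = fun x => ∏ e, ((if e ∈ S then chi p (x e) else 1) * (if e ∈ T then chi p (x e) else 1)) := by
    ext x
    unfold chiS
    rw [Finset.prod_mul_distrib, Finset.prod_ite_mem, Finset.prod_ite_mem,
      Finset.univ_inter, Finset.univ_inter]
  rw [h, ex_prod p (fun e b => (if e ∈ S then chi p b else 1) * (if e ∈ T then chi p b else 1))]
  split_ifs with hST
  · subst hST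
    refine Finset.prod_eq_one fun e _ => ?_
    split_ifs
    · exact chi_var hp0 hp1
    · ring
  · have : ∃ e, ¬ (e ∈ S ↔ e ∈ T) := by
      by_contra hcon
      push Not at hcon
      exact hST (Finset.ext hcon)
    obtain ⟨e, he⟩ := this
    refine Finset.prod_eq_zero (Finset.mem_univ e) ?_
    have hm := chi_mean hp0 hp1
    by_cases h1 : e ∈ S <;> by_cases h2 : e ∈ T
    · exact absurd (by simp [h1, h2]) he
    · simp only [h1, h2, if_true, if_false, mul_one]; exact hm
    · simp only [h1, h2, if_true, if_false, one_mul]; exact hm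
    · exact absurd (by simp [h1, h2]) he

theorem fc_sum_chiS (hp0 : 0 < p) (hp1 : p < 1) (c : Finset E → ℝ) (S : Finset E) :
    fc p (fun x => ∑ T, c T * chiS p T x) S = c S := by
  unfold fc
  have h : (fun x : E → Bool => (∑ T : Finset E, c T * chiS p T x) * chiS p S x)
      = fun x => ∑ T : Finset E, c T * (chiS p T x * chiS p S x) := by
    ext x; rw [Finset.sum_mul]; refine Finset.sum_congr rfl fun T _ => by ring
  rw [h, ex_sum]
  simp_rw [ex_mul_const, ex_chiS_mul hp0 hp1]
  simp

theorem ext_fc (hp0 : 0 < p) (hp1 : p < 1) {F G : (E → Bool) → ℝ}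
    (h : ∀ S, fc p F S = fc p G S) : F = G := by
  ext x
  rw [inversion hp0 hp1 F x, inversion hp0 hp1 G x]
  exact Finset.sum_congr rfl fun S _ => by rw [h S]

theorem chiS_empty (x : E → Bool) : chiS p (∅ : Finset E) x = 1 := by simp [chiS]

theorem fc_empty (F : (E → Bool) → ℝ) : fc p F ∅ = ex p F := by
  unfold fc; simp [chiS_empty]

theorem fc_add (F G : (E → Bool) → ℝ) (S : Finset E) :
    fc p (fun x => F x + G x) S = fc p F S + fc p G S := by
  unfold fc; rw [← ex_add]; congr 1; ext x; ring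

theorem fc_sub (F G : (E → Bool) → ℝ) (S : Finset E) :
    fc p (fun x => F x - G x) S = fc p F S - fc p G S := by
  unfold fc; rw [← ex_sub]; congr 1; ext x; ring

theorem fc_smul (c : ℝ) (F : (E → Bool) → ℝ) (S : Finset E) :
    fc p (fun x => c * F x) S = c * fc p F S := by
  unfold fc; rw [← ex_mul_const]; congr 1; ext x; ring

theorem fc_sum {ι : Type*} (s : Finset ι) (F : ι → (E → Bool) → ℝ) (S : Finset E) :
    fc p (fun x => ∑ i ∈ s, F i x) S = ∑ i ∈ s, fc p (F i) S := by
  unfold fc; rw [← ex_sum]; congr 1; ext x; rw [Finset.sum_mul]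

/-! ### averaging -/

theorem mix_mix (A : Finset E) (x y z : E → Bool) : mix A (mix A x y) z = mix A x z := by
  ext e; simp only [mix]; split_ifs <;> rfl

theorem av_mix (A : Finset E) (F : (E → Bool) → ℝ) (x y : E → Bool) :
    av p A F (mix A x y) = av p A F x := by
  unfold av; simp_rw [mix_mix]

theorem av_of_inv {A : Finset E} {F : (E → Bool) → ℝ} (h : ∀ x y, F (mix A x y) = F x)
    (x : E → Bool) : av p A F x = F x := by
  unfold av; simp_rw [h]; exact ex_const _

theorem av_mono (hp0 : 0 ≤ p) (hp1 : p ≤ 1) {A : Finset E} {F G : (E → Bool) → ℝ}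
    (h : ∀ x, F x ≤ G x) (x : E → Bool) : av p A F x ≤ av p A G x :=
  ex_mono hp0 hp1 fun y => h _

theorem av_nonneg (hp0 : 0 ≤ p) (hp1 : p ≤ 1) {A : Finset E} {F : (E → Bool) → ℝ}
    (h : ∀ x, 0 ≤ F x) (x : E → Bool) : 0 ≤ av p A F x :=
  ex_nonneg hp0 hp1 fun y => h _

theorem av_const (A : Finset E) (c : ℝ) (x : E → Bool) : av p A (fun _ => c) x = c := ex_const c

theorem av_add (A : Finset E) (F G : (E → Bool) → ℝ) (x : E → Bool) :
    av p A (fun y => F y + G y) x = av p A F x + av p A G x := ex_add _ _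

theorem av_sub (A : Finset E) (F G : (E → Bool) → ℝ) (x : E → Bool) :
    av p A (fun y => F y - G y) x = av p A F x - av p A G x := ex_sub _ _

theorem av_smul (A : Finset E) (c : ℝ) (F : (E → Bool) → ℝ) (x : E → Bool) :
    av p A (fun y => c * F y) x = c * av p A F x := ex_mul_const _ _

theorem av_sum {ι : Type*} (s : Finset ι) (A : Finset E) (F : ι → (E → Bool) → ℝ)
    (x : E → Bool) : av p A (fun y => ∑ i ∈ s, F i y) x = ∑ i ∈ s, av p A (F i) x := ex_sum _ _

/-- pull out a factor not depending on the coordinates in `A` -/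
theorem av_mul_inv {A : Finset E} {G : (E → Bool) → ℝ} (hG : ∀ x y, G (mix A x y) = G x)
    (F : (E → Bool) → ℝ) (x : E → Bool) :
    av p A (fun y => G y * F y) x = G x * av p A F x := by
  unfold av; simp_rw [hG]; exact ex_mul_const _ _

theorem av_cs (hp0 : 0 ≤ p) (hp1 : p ≤ 1) (A : Finset E) (F G : (E → Bool) → ℝ) (x : E → Bool) :
    av p A (fun y => F y * G y) x ^ 2 ≤ av p A (fun y => F y ^ 2) x * av p A (fun y => G y ^ 2) x :=
  ex_cs hp0 hp1 _ _

theorem av_chiS (hp0 : 0 < p) (hp1 : p < 1) (A S : Finset E) (x : E → Bool) :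
    av p A (chiS p S) x = if Disjoint S A then chiS p S x else 0 := by
  have h : (fun y : E → Bool => chiS p S (mix A x y))
      = fun y => ∏ e, (if e ∈ S then (if e ∈ A then chi p (y e) else chi p (x e)) else 1) := by
    ext y
    unfold chiS mix
    rw [Finset.prod_ite_mem, Finset.univ_inter]
    refine Finset.prod_congr rfl fun e _ => ?_
    split_ifs <;> rfl
  unfold av
  rw [h, ex_prod p (fun e b => (if e ∈ S then (if e ∈ A then chi p b else chi p (x e)) else 1))]
  split_ifs with hd
  · have h3 : chiS p S x = ∏ e, (if e ∈ S then chi p (x e) else 1) := by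
      rw [Finset.prod_ite_mem, Finset.univ_inter]; rfl
    rw [h3]
    refine Finset.prod_congr rfl fun e _ => ?_
    by_cases h1 : e ∈ S
    · have h2 : e ∉ A := Finset.disjoint_left.mp hd h1
      simp only [h1, h2, if_true, if_false]; ring
    · simp only [h1, if_false]; ring
  · rw [Finset.not_disjoint_iff] at hd
    obtain ⟨e, h1, h2⟩ := hd
    refine Finset.prod_eq_zero (Finset.mem_univ e) ?_
    simp only [h1, h2, if_true]
    exact chi_mean hp0 hp1

theorem av_eq_sum (hp0 : 0 < p) (hp1 : p < 1) (A : Finset E) (F : (E → Bool) → ℝ) (x : E → Bool) :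
    av p A F x = ∑ S, (if Disjoint S A then fc p F S else 0) * chiS p S x := by
  have h : F = fun y => ∑ S, fc p F S * chiS p S y := by
    ext y; exact inversion hp0 hp1 F y
  conv_lhs => rw [h]
  rw [av_sum]
  refine Finset.sum_congr rfl fun S _ => ?_
  rw [av_smul, show av p A (fun y => chiS p S y) x = av p A (chiS p S) x from rfl,
    av_chiS hp0 hp1]
  split_ifs <;> ring

theorem fc_av (hp0 : 0 < p) (hp1 : p < 1) (A : Finset E) (F : (E → Bool) → ℝ) (S : Finset E) :
    fc p (av p A F) S = if Disjoint S A then fc p F S else 0 := by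
  have h : av p A F = fun x => ∑ S, (if Disjoint S A then fc p F S else 0) * chiS p S x := by
    ext x; exact av_eq_sum hp0 hp1 A F x
  rw [h, fc_sum_chiS hp0 hp1]

theorem av_av (hp0 : 0 < p) (hp1 : p < 1) (A B : Finset E) (F : (E → Bool) → ℝ) :
    av p A (av p B F) = av p (A ∪ B) F := by
  refine ext_fc hp0 hp1 fun S => ?_
  rw [fc_av hp0 hp1, fc_av hp0 hp1, fc_av hp0 hp1]
  simp only [Finset.disjoint_union_right]
  split_ifs <;> tauto

theorem av_comm (hp0 : 0 < p) (hp1 : p < 1) (A B : Finset E) (F : (E → Bool) → ℝ) :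
    av p A (av p B F) = av p B (av p A F) := by
  rw [av_av hp0 hp1, av_av hp0 hp1, Finset.union_comm]

theorem ex_av (hp0 : 0 < p) (hp1 : p < 1) (A : Finset E) (F : (E → Bool) → ℝ) :
    ex p (av p A F) = ex p F := by
  rw [← fc_empty, fc_av hp0 hp1, ← fc_empty]
  simp

/-- a function with no Fourier mass on sets meeting `A` does not depend on `A`. -/
theorem inv_of_av_eq {A : Finset E} {F : (E → Bool) → ℝ} (h : av p A F = F) (x y : E → Bool) :
    F (mix A x y) = F x := by
  rw [← h]; exact av_mix A F x y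

/-- mass lost by averaging -/
theorem ex_sub_av_sq (hp0 : 0 < p) (hp1 : p < 1) (A : Finset E) (F : (E → Bool) → ℝ) :
    ex p (fun x => (F x - av p A F x) ^ 2) = ∑ S, if Disjoint S A then 0 else fc p F S ^ 2 := by
  rw [ex_sq_eq hp0 hp1]
  refine Finset.sum_congr rfl fun S _ => ?_
  rw [fc_sub, show fc p (fun x => av p A F x) S = fc p (av p A F) S from rfl, fc_av hp0 hp1]
  split_ifs <;> ring

theorem fc_sq_eq_ex_av_sq (hp0 : 0 < p) (hp1 : p < 1) (A : Finset E) (F : (E → Bool) → ℝ) :
    ex p (fun x => av p A F x ^ 2) = ∑ S, if Disjoint S A then fc p F S ^ 2 else 0 := by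
  rw [ex_sq_eq hp0 hp1]
  refine Finset.sum_congr rfl fun S _ => ?_
  rw [show fc p (fun x => av p A F x) S = fc p (av p A F) S from rfl, fc_av hp0 hp1]
  split_ifs <;> ring

/-- variance and Fourier -/
theorem var_eq (hp0 : 0 < p) (hp1 : p < 1) (F : (E → Bool) → ℝ) :
    ex p (fun x => F x ^ 2) - ex p F ^ 2 = ∑ S ∈ Finset.univ.erase (∅ : Finset E), fc p F S ^ 2 := by
  rw [ex_sq_eq hp0 hp1, ← fc_empty, ← Finset.add_sum_erase _ _ (Finset.mem_univ (∅ : Finset E))]
  ring

end Crest.Agent.VN
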