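/-
Row 56 (S0077, S0078).  4-norm hypercontractive lemma (module M2).
-/
import Crest.Agent.VN.Fourier

set_option autoImplicit false

namespace Crest.Agent.VN

open Finset

variable {E : Type*} [Fintype E] [DecidableEq E]

namespace M2

variable {p : ℝ}

theorem ex_coord (e : E) (φ : Bool → ℝ) :
    ex p (fun y : E → Bool => φ (y e)) = p * φ true + (1 - p) * φ false := by
  have h := ex_prod (E := E) p (fun e' b => if e' = e then φ b else 1)
  have h1 : (fun y : E → Bool => ∏ e', (if e' = e then φ (y e') else 1)) = fun y => φ (y e) := by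
    ext y
    simp
  have h2 : (∏ e' : E, (p * (if e' = e then φ true else 1) + (1 - p) * (if e' = e then φ false else 1)))
      = ∏ e' : E, (if e' = e then (p * φ true + (1 - p) * φ false) else 1) := by
    refine Finset.prod_congr rfl fun e' _ => ?_
    split_ifs
    · rfl
    · ring
  rw [h1, h2] at h
  rw [h]; simp

theorem moments (hp0 : 0 < p) (hp1 : p < 1) (a b : ℝ) :
    p * (a + chi p true * b) ^ 4 + (1 - p) * (a + chi p false * b) ^ 4
      ≤ a ^ 4 + 8 * (a ^ 2 * b ^ 2) + 3 * (1 / (p * (1 - p))) * b ^ 4 := by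
  have e1 := chi_true_sq hp0 hp1
  have e2 := chi_false_sq hp0 hp1
  have e3 := chi_mixed hp0 hp1
  have e4 := chi_mean hp0 hp1
  have e5 := chi_var hp0 hp1
  set u := chi p true with hu
  set v := chi p false with hv
  have hq : 0 < 1 - p := by linarith
  have hB : 0 < p * (1 - p) := mul_pos hp0 hq
  set m := p * u ^ 3 + (1 - p) * v ^ 3 with hm
  have hm1 : m = (1 - p) * u + p * v := by
    have h1 : p * u ^ 3 = (1 - p) * u := by
      calc p * u ^ 3 = p * (u * u) * u := by ring
        _ = (1 - p) * u := by rw [e1]; field_simp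
    have h2 : (1 - p) * v ^ 3 = p * v := by
      calc (1 - p) * v ^ 3 = (1 - p) * (v * v) * v := by ring
        _ = p * v := by rw [e2]; field_simp
    rw [hm, h1, h2]
  have hm2 : m ^ 2 ≤ 1 / (p * (1 - p)) := by
    have : m ^ 2 = (1 - p) ^ 2 * (u * u) + p ^ 2 * (v * v) + 2 * (p * (1 - p)) * (u * v) := by
      rw [hm1]; ring
    rw [this, e1, e2, e3]
    have : (1 - p) ^ 2 * ((1 - p) / p) + p ^ 2 * (p / (1 - p)) + 2 * (p * (1 - p)) * (-1)
        = (1 - 2 * p) ^ 2 / (p * (1 - p)) := by
      field_simp; ring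
    rw [this]
    apply div_le_div_of_nonneg_right _ hB.le
    nlinarith
  set m4 := p * u ^ 4 + (1 - p) * v ^ 4 with hm4
  have hm4' : m4 ≤ 1 / (p * (1 - p)) := by
    have : m4 = p * ((u * u) * (u * u)) + (1 - p) * ((v * v) * (v * v)) := by rw [hm4]; ring
    rw [this, e1, e2]
    have : p * ((1 - p) / p * ((1 - p) / p)) + (1 - p) * (p / (1 - p) * (p / (1 - p)))
        = ((1 - p) ^ 3 + p ^ 3) / (p * (1 - p)) := by
      field_simp
    rw [this]
    apply div_le_div_of_nonneg_right _ hB.le
    nlinarith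
  have key : p * (a + u * b) ^ 4 + (1 - p) * (a + v * b) ^ 4
      = a ^ 4 + 4 * a ^ 3 * b * (p * u + (1 - p) * v)
        + 6 * a ^ 2 * b ^ 2 * (p * (u * u) + (1 - p) * (v * v)) + 4 * a * b ^ 3 * m + b ^ 4 * m4 := by
    rw [hm, hm4]; ring
  rw [key, e4, e5]
  have h3 : 0 ≤ (a * b - m * b ^ 2) ^ 2 := sq_nonneg _
  have h4 : 0 ≤ b ^ 4 := by positivity
  have h5 : b ^ 4 * m ^ 2 ≤ b ^ 4 * (1 / (p * (1 - p))) := mul_le_mul_of_nonneg_left hm2 h4
  have h6 : b ^ 4 * m4 ≤ b ^ 4 * (1 / (p * (1 - p))) := mul_le_mul_of_nonneg_left hm4' h4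
  nlinarith [h3, h5, h6]

theorem second (hp0 : 0 < p) (hp1 : p < 1) (a b : ℝ) :
    p * (a + chi p true * b) ^ 2 + (1 - p) * (a + chi p false * b) ^ 2 = a ^ 2 + b ^ 2 := by
  have e4 := chi_mean hp0 hp1
  have e5 := chi_var hp0 hp1
  linear_combination (2 * a * b) * e4 + b ^ 2 * e5

/-- polynomial of degree `≤ k` on the coordinates in `A` -/
noncomputable def P (p : ℝ) (A : Finset E) (k : ℕ) (c : Finset E → ℝ) (x : E → Bool) : ℝ :=
  ∑ T ∈ A.powerset.filter (fun T => T.card ≤ k), c T * chiS p T x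

theorem P_eq (A : Finset E) (k : ℕ) (c : Finset E → ℝ) (x : E → Bool) :
    P p A k c x = ∑ T ∈ A.powerset, if T.card ≤ k then c T * chiS p T x else 0 := by
  unfold P; rw [Finset.sum_filter]

theorem chiS_insert {e : E} {T : Finset E} (h : e ∉ T) (x : E → Bool) :
    chiS p (insert e T) x = chi p (x e) * chiS p T x := by
  unfold chiS; rw [Finset.prod_insert h]

theorem P_insert {e : E} {A : Finset E} (he : e ∉ A) (k : ℕ) (c : Finset E → ℝ) (x : E → Bool) :
    P p (insert e A) (k + 1) c x =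
      P p A (k + 1) c x + chi p (x e) * P p A k (fun T => c (insert e T)) x := by
  rw [P_eq, P_eq, P_eq, Finset.sum_powerset_insert he, Finset.mul_sum]
  congr 1
  refine Finset.sum_congr rfl fun T hT => ?_
  have hT' : e ∉ T := fun h => he (Finset.mem_powerset.1 hT h)
  rw [Finset.card_insert_of_notMem hT', chiS_insert hT']
  by_cases h : T.card ≤ k
  · rw [if_pos (by omega), if_pos h]; ring
  · rw [if_neg (by omega), if_neg h]; ring

theorem chiS_mix {e : E} {T : Finset E} (h : e ∉ T) (x y : E → Bool) :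
    chiS p T (mix {e} x y) = chiS p T x := by
  unfold chiS mix
  refine Finset.prod_congr rfl fun e' he' => ?_
  have : e' ∉ ({e} : Finset E) := by
    rw [Finset.mem_singleton]; rintro rfl; exact h he'
  simp [this]

theorem P_mix {e : E} {A : Finset E} (he : e ∉ A) (k : ℕ) (c : Finset E → ℝ) (x y : E → Bool) :
    P p A k c (mix {e} x y) = P p A k c x := by
  unfold P
  refine Finset.sum_congr rfl fun T hT => ?_
  rw [Finset.mem_filter, Finset.mem_powerset] at hT
  rw [chiS_mix (fun h => he (hT.1 h))]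

theorem ex_split (hp0 : 0 < p) (hp1 : p < 1) {e : E} {G0 G1 : (E → Bool) → ℝ}
    (h0 : ∀ x y, G0 (mix {e} x y) = G0 x) (h1 : ∀ x y, G1 (mix {e} x y) = G1 x) (j : ℕ) :
    ex p (fun x => (G0 x + chi p (x e) * G1 x) ^ j) =
      ex p (fun x => p * (G0 x + chi p true * G1 x) ^ j + (1 - p) * (G0 x + chi p false * G1 x) ^ j) := by
  rw [← ex_av hp0 hp1 {e}]
  congr 1
  ext x
  unfold av
  have : (fun y => (G0 (mix {e} x y) + chi p (mix {e} x y e) * G1 (mix {e} x y)) ^ j)
      = fun y : E → Bool => (fun b => (G0 x + chi p b * G1 x) ^ j) (y e) := by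
    ext y
    rw [h0, h1]
    simp [mix]
  rw [this]
  exact ex_coord e (fun b => (G0 x + chi p b * G1 x) ^ j)

theorem main (hp0 : 0 < p) (hp1 : p < 1) (A : Finset E) : ∀ (k : ℕ) (c : Finset E → ℝ),
    ex p (fun x => P p A k c x ^ 4) ≤ (4 / (p * (1 - p))) ^ k * (ex p (fun x => P p A k c x ^ 2)) ^ 2 := by
  have hq : 0 < 1 - p := by linarith
  have hB : 0 < p * (1 - p) := mul_pos hp0 hq
  have hB4 : p * (1 - p) ≤ 1 / 4 := by nlinarith [sq_nonneg (1 - 2 * p)]
  set K := 4 / (p * (1 - p)) with hK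
  have hK16 : 16 ≤ K := by
    rw [hK, le_div_iff₀ hB]; nlinarith
  have hKB : 3 * (1 / (p * (1 - p))) = 3 / 4 * K := by rw [hK]; ring
  have hconst : ∀ (A : Finset E) (c : Finset E → ℝ) (x : E → Bool), P p A 0 c x = c ∅ := by
    intro A c x
    unfold P
    have : A.powerset.filter (fun T => T.card ≤ 0) = {∅} := by
      ext T
      simp only [Finset.mem_filter, Finset.mem_powerset, Nat.le_zero, Finset.card_eq_zero,
        Finset.mem_singleton]
      constructor
      · exact fun h => h.2
      · rintro rfl; exact ⟨Finset.empty_subset _, rfl⟩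
    rw [this, Finset.sum_singleton, chiS_empty, mul_one]
  induction A using Finset.induction_on with
  | empty =>
    intro k c
    have h : ∀ x, P p (∅ : Finset E) k c x = c ∅ := by
      intro x
      unfold P
      have : (∅ : Finset E).powerset.filter (fun T => T.card ≤ k) = {∅} := by
        rw [Finset.powerset_empty]
        ext T
        simp only [Finset.mem_filter, Finset.mem_singleton]
        constructor
        · exact fun h => h.1
        · rintro rfl; simp
      rw [this, Finset.sum_singleton, chiS_empty, mul_one]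
    simp_rw [h]
    rw [ex_const, ex_const]
    have h1 : (1 : ℝ) ≤ K ^ k := one_le_pow₀ (by linarith)
    have h2 : 0 ≤ (c ∅) ^ 4 := by positivity
    nlinarith
  | insert e A he ih =>
    intro k c
    cases k with
    | zero =>
      simp_rw [hconst]
      rw [ex_const, ex_const, pow_zero, one_mul]
      apply le_of_eq; ring
    | succ k =>
      set G0 := P p A (k + 1) c with hG0
      set G1 := P p A k (fun T => c (insert e T)) with hG1
      have hs : ∀ j : ℕ, ex p (fun x => P p (insert e A) (k + 1) c x ^ j) =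
          ex p (fun x => p * (G0 x + chi p true * G1 x) ^ j +
            (1 - p) * (G0 x + chi p false * G1 x) ^ j) := by
        intro j
        simp_rw [P_insert he]
        exact ex_split hp0 hp1 (fun x y => P_mix he _ _ x y) (fun x y => P_mix he _ _ x y) j
      have h2 : ex p (fun x => P p (insert e A) (k + 1) c x ^ 2) =
          ex p (fun x => G0 x ^ 2) + ex p (fun x => G1 x ^ 2) := by
        rw [hs 2, ← ex_add]
        congr 1
        ext x
        exact second hp0 hp1 _ _
      have h4 : ex p (fun x => P p (insert e A) (k + 1) c x ^ 4) ≤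
          ex p (fun x => G0 x ^ 4) + 8 * ex p (fun x => G0 x ^ 2 * G1 x ^ 2)
            + 3 / 4 * K * ex p (fun x => G1 x ^ 4) := by
        rw [hs 4, ← ex_mul_const, ← ex_mul_const, ← ex_add, ← ex_add]
        refine ex_mono hp0.le hp1.le fun x => ?_
        rw [← hKB]
        exact moments hp0 hp1 _ _
      have i0 := ih (k + 1) c
      have i1 := ih k (fun T => c (insert e T))
      rw [← hG0] at i0
      rw [← hG1] at i1
      set a := ex p (fun x => G0 x ^ 2) with ha
      set b := ex p (fun x => G1 x ^ 2) with hb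
      have ha0 : 0 ≤ a := ex_nonneg hp0.le hp1.le fun x => sq_nonneg _
      have hb0 : 0 ≤ b := ex_nonneg hp0.le hp1.le fun x => sq_nonneg _
      have hKk : 0 < K ^ k := pow_pos (by linarith) k
      have hcs : ex p (fun x => G0 x ^ 2 * G1 x ^ 2) ^ 2 ≤
          ex p (fun x => (G0 x ^ 2) ^ 2) * ex p (fun x => (G1 x ^ 2) ^ 2) :=
        ex_cs hp0.le hp1.le (fun x => G0 x ^ 2) (fun x => G1 x ^ 2)
      have e0 : (fun x => (G0 x ^ 2) ^ 2) = fun x => G0 x ^ 4 := by ext x; ring
      have e1 : (fun x => (G1 x ^ 2) ^ 2) = fun x => G1 x ^ 4 := by ext x; ring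
      rw [e0, e1] at hcs
      set X := ex p (fun x => G0 x ^ 2 * G1 x ^ 2) with hX
      have hX0 : 0 ≤ X := ex_nonneg hp0.le hp1.le fun x => by positivity
      have h40 : 0 ≤ ex p (fun x => G0 x ^ 4) := ex_nonneg hp0.le hp1.le fun x => by positivity
      have h41 : 0 ≤ ex p (fun x => G1 x ^ 4) := ex_nonneg hp0.le hp1.le fun x => by positivity
      have hX2 : X ^ 2 ≤ (K ^ (k + 1) * a ^ 2) * (K ^ k * b ^ 2) :=
        hcs.trans (mul_le_mul i0 i1 h41 (by positivity))
      have hX4 : 4 * X ≤ K ^ (k + 1) * (a * b) := by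
        have hR : 0 ≤ K ^ (k + 1) * (a * b) := by positivity
        refine abs_le_of_sq_le_sq' ?_ hR |>.2
        calc (4 * X) ^ 2 = 16 * X ^ 2 := by ring
          _ ≤ 16 * ((K ^ (k + 1) * a ^ 2) * (K ^ k * b ^ 2)) := by linarith
          _ ≤ K * ((K ^ (k + 1) * a ^ 2) * (K ^ k * b ^ 2)) :=
              mul_le_mul_of_nonneg_right hK16 (by positivity)
          _ = (K ^ (k + 1) * (a * b)) ^ 2 := by ring
      rw [h2]
      calc _ ≤ _ := h4
        _ ≤ K ^ (k + 1) * a ^ 2 + 2 * (K ^ (k + 1) * (a * b)) + 3 / 4 * K * (K ^ k * b ^ 2) := by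
            have : 3 / 4 * K * ex p (fun x => G1 x ^ 4) ≤ 3 / 4 * K * (K ^ k * b ^ 2) :=
              mul_le_mul_of_nonneg_left i1 (by linarith)
            linarith
        _ ≤ K ^ (k + 1) * (a + b) ^ 2 := by
            have : 0 ≤ K ^ (k + 1) * b ^ 2 := by positivity
            have h3 : 3 / 4 * K * (K ^ k * b ^ 2) = 3 / 4 * (K ^ (k + 1) * b ^ 2) := by ring
            rw [h3]; nlinarith

end M2

/-- 4-norm lemma -/
theorem bonami (p : ℝ) (hp0 : 0 < p) (hp1 : p < 1) (A : Finset E) (k : ℕ) (c : Finset E → ℝ) :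
    ex p (fun x => (∑ T ∈ A.powerset.filter (fun T => T.card ≤ k), c T * chiS p T x) ^ 4)
      ≤ (4 / (p * (1 - p))) ^ k *
        (ex p (fun x => (∑ T ∈ A.powerset.filter (fun T => T.card ≤ k), c T * chiS p T x) ^ 2)) ^ 2 :=
  M2.main hp0 hp1 A k c

/-- conditional version: fix the coordinates outside `A`. -/
theorem bonami_av (p : ℝ) (hp0 : 0 < p) (hp1 : p < 1) (A : Finset E) (k : ℕ) (c : Finset E → ℝ)
    (T : Finset (Finset E)) (hT : ∀ S ∈ T, (S ∩ A).card ≤ k) (x : E → Bool) :
    av p A (fun y => (∑ S ∈ T, c S * chiS p S y) ^ 4) x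
      ≤ (4 / (p * (1 - p))) ^ k * (av p A (fun y => (∑ S ∈ T, c S * chiS p S y) ^ 2) x) ^ 2 := by
  have hchi : ∀ (S : Finset E) (y : E → Bool),
      chiS p S (mix A x y) = chiS p (S \ A) x * chiS p (S ∩ A) y := by
    intro S y
    unfold chiS
    have h1 : ∏ e ∈ S \ A, chi p (mix A x y e) = ∏ e ∈ S \ A, chi p (x e) := by
      refine Finset.prod_congr rfl fun e he => ?_
      rw [Finset.mem_sdiff] at he
      simp [mix, he.2]
    have h2 : ∏ e ∈ S ∩ A, chi p (mix A x y e) = ∏ e ∈ S ∩ A, chi p (y e) := by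
      refine Finset.prod_congr rfl fun e he => ?_
      rw [Finset.mem_inter] at he
      simp [mix, he.2]
    rw [← h1, ← h2, ← Finset.prod_union (by
      rw [Finset.disjoint_left]; intro e h3 h4
      exact (Finset.mem_sdiff.1 h3).2 (Finset.mem_inter.1 h4).2)]
    congr 1
    ext e; simp only [Finset.mem_union, Finset.mem_sdiff, Finset.mem_inter]; tauto
  have hsum : ∀ y : E → Bool, ∑ S ∈ T, c S * chiS p S (mix A x y) =
      ∑ U ∈ A.powerset.filter (fun U => U.card ≤ k),
        (∑ S ∈ T.filter (fun S => S ∩ A = U), c S * chiS p (S \ A) x) * chiS p U y := by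
    intro y
    have hmaps : ∀ S ∈ T, S ∩ A ∈ A.powerset.filter (fun U => U.card ≤ k) := by
      intro S hS
      rw [Finset.mem_filter, Finset.mem_powerset]
      exact ⟨Finset.inter_subset_right, hT S hS⟩
    rw [← Finset.sum_fiberwise_of_maps_to hmaps]
    refine Finset.sum_congr rfl fun U _ => ?_
    rw [Finset.sum_mul]
    refine Finset.sum_congr rfl fun S hS => ?_
    rw [Finset.mem_filter] at hS
    rw [hchi, hS.2]; ring
  unfold av
  simp_rw [hsum]
  exact bonami p hp0 hp1 A k _

end Crest.Agent.VN
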