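/-
Row 56 (S0077, S0078).  Vertex noise.
-/
import Crest.Agent.VN.Fourier

set_option autoImplicit false

namespace Crest.Agent.VN

open Finset

variable {E : Type*} [Fintype E] [DecidableEq E] {V : Type*} [DecidableEq V] {p : ℝ}

/-- vertex noise on the vertex set `W`: every vertex of `W` is resampled with probability `τ`. -/
noncomputable def tn (p : ℝ) (st : V → Finset E) (τ : ℝ) (W : Finset V) (F : (E → Bool) → ℝ)
    (x : E → Bool) : ℝ :=
  ∑ U ∈ W.powerset, τ ^ U.card * (1 - τ) ^ (W.card - U.card) * av p (U.biUnion st) F x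

theorem disjoint_biUnion (st : V → Finset E) (S : Finset E) (U : Finset V) :
    Disjoint S (U.biUnion st) ↔ ∀ u ∈ U, Disjoint S (st u) := by
  rw [Finset.disjoint_biUnion_right]

theorem fc_tn (hp0 : 0 < p) (hp1 : p < 1) (st : V → Finset E) (τ : ℝ) (W : Finset V)
    (F : (E → Bool) → ℝ) (S : Finset E) :
    fc p (tn p st τ W F) S
      = (1 - τ) ^ (W.filter (fun u => ¬ Disjoint S (st u))).card * fc p F S := by
  have h0 : tn p st τ W F = fun x => ∑ U ∈ W.powerset,
      (τ ^ U.card * (1 - τ) ^ (W.card - U.card)) * av p (U.biUnion st) F x := rfl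
  rw [h0, fc_sum]
  have h1 : ∀ U ∈ W.powerset, fc p (fun x => (τ ^ U.card * (1 - τ) ^ (W.card - U.card)) *
      av p (U.biUnion st) F x) S
      = if U ⊆ W.filter (fun u => Disjoint S (st u)) then
          (τ ^ U.card * (1 - τ) ^ (W.card - U.card)) * fc p F S else 0 := by
    intro U hU
    rw [fc_smul, show fc p (fun x => av p (U.biUnion st) F x) S
      = fc p (av p (U.biUnion st) F) S from rfl, fc_av hp0 hp1]
    have h2 : Disjoint S (U.biUnion st) ↔ U ⊆ W.filter (fun u => Disjoint S (st u)) := by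
      rw [disjoint_biUnion]
      constructor
      · intro h u hu
        exact Finset.mem_filter.mpr ⟨Finset.mem_powerset.mp hU hu, h u hu⟩
      · intro h u hu
        exact (Finset.mem_filter.mp (h hu)).2
    by_cases h3 : Disjoint S (U.biUnion st)
    · rw [if_pos h3, if_pos (h2.mp h3)]
    · rw [if_neg h3, if_neg (fun h => h3 (h2.mpr h)), mul_zero]
  rw [Finset.sum_congr rfl h1, ← Finset.sum_filter]
  set W' := W.filter (fun u => Disjoint S (st u)) with hW'
  set W'' := W.filter (fun u => ¬ Disjoint S (st u)) with hW''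
  have hcard : W.card = W'.card + W''.card := by
    rw [hW', hW'', Finset.card_filter_add_card_filter_not]
  have hfil : W.powerset.filter (fun U => U ⊆ W') = W'.powerset := by
    ext U
    rw [Finset.mem_filter, Finset.mem_powerset, Finset.mem_powerset]
    exact ⟨fun h => h.2, fun h => ⟨h.trans (Finset.filter_subset _ _), h⟩⟩
  rw [hfil, ← Finset.sum_mul]
  congr 1
  have h4 : ∀ U ∈ W'.powerset, τ ^ U.card * (1 - τ) ^ (W.card - U.card)
      = (1 - τ) ^ W''.card * (τ ^ U.card * (1 - τ) ^ (W'.card - U.card)) := by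
    intro U hU
    have hle : U.card ≤ W'.card := Finset.card_le_card (Finset.mem_powerset.mp hU)
    have : W.card - U.card = W''.card + (W'.card - U.card) := by omega
    rw [this, pow_add]; ring
  rw [Finset.sum_congr rfl h4, ← Finset.mul_sum, Finset.sum_pow_mul_eq_add_pow]
  simp

theorem tn_mono (hp0 : 0 ≤ p) (hp1 : p ≤ 1) {τ : ℝ} (h0 : 0 ≤ τ) (h1 : τ ≤ 1)
    (st : V → Finset E) (W : Finset V) {F G : (E → Bool) → ℝ} (h : ∀ x, F x ≤ G x)
    (x : E → Bool) : tn p st τ W F x ≤ tn p st τ W G x := by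
  refine Finset.sum_le_sum fun U _ => ?_
  refine mul_le_mul_of_nonneg_left (av_mono hp0 hp1 h x) ?_
  exact mul_nonneg (pow_nonneg h0 _) (pow_nonneg (by linarith) _)

theorem tn_nonneg (hp0 : 0 ≤ p) (hp1 : p ≤ 1) {τ : ℝ} (h0 : 0 ≤ τ) (h1 : τ ≤ 1)
    (st : V → Finset E) (W : Finset V) {F : (E → Bool) → ℝ} (h : ∀ x, 0 ≤ F x)
    (x : E → Bool) : 0 ≤ tn p st τ W F x := by
  refine Finset.sum_nonneg fun U _ => ?_
  refine mul_nonneg ?_ (av_nonneg hp0 hp1 h x)
  exact mul_nonneg (pow_nonneg h0 _) (pow_nonneg (by linarith) _)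

theorem tn_sum {ι : Type*} (s : Finset ι) (st : V → Finset E) (τ : ℝ) (W : Finset V)
    (F : ι → (E → Bool) → ℝ) (x : E → Bool) :
    tn p st τ W (fun y => ∑ i ∈ s, F i y) x = ∑ i ∈ s, tn p st τ W (F i) x := by
  unfold tn
  rw [Finset.sum_comm]
  refine Finset.sum_congr rfl fun U _ => ?_
  rw [av_sum, Finset.mul_sum]

theorem av_tn (hp0 : 0 < p) (hp1 : p < 1) (st : V → Finset E) (τ : ℝ) (W : Finset V)
    (A : Finset E) (F : (E → Bool) → ℝ) :
    av p A (tn p st τ W F) = tn p st τ W (av p A F) := by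
  refine ext_fc hp0 hp1 fun S => ?_
  rw [fc_av hp0 hp1, fc_tn hp0 hp1, fc_tn hp0 hp1, fc_av hp0 hp1]
  split_ifs <;> ring

/-- `T_W F = T_{W∖w} F` when `F` does not depend on the star of `w`. -/
theorem tn_erase_of_inv (hp0 : 0 < p) (hp1 : p < 1) (st : V → Finset E) (τ : ℝ) (W : Finset V)
    (w : V) {F : (E → Bool) → ℝ} (hF : av p (st w) F = F) :
    tn p st τ W F = tn p st τ (W.erase w) F := by
  refine ext_fc hp0 hp1 fun S => ?_
  rw [fc_tn hp0 hp1, fc_tn hp0 hp1]
  by_cases hS : Disjoint S (st w)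
  · have : W.filter (fun u => ¬ Disjoint S (st u))
        = (W.erase w).filter (fun u => ¬ Disjoint S (st u)) := by
      ext u
      simp only [Finset.mem_filter, Finset.mem_erase]
      constructor
      · rintro ⟨h1, h2⟩
        exact ⟨⟨fun h => h2 (h ▸ hS), h1⟩, h2⟩
      · rintro ⟨⟨_, h1⟩, h2⟩
        exact ⟨h1, h2⟩
    rw [this]
  · have : fc p F S = 0 := by
      rw [← hF, fc_av hp0 hp1, if_neg hS]
    rw [this]; ring

theorem av_tn_erase (hp0 : 0 < p) (hp1 : p < 1) (st : V → Finset E) (τ : ℝ) (W : Finset V)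
    (w : V) (F : (E → Bool) → ℝ) :
    av p (st w) (tn p st τ W F) = av p (st w) (tn p st τ (W.erase w) F) := by
  rw [av_tn hp0 hp1, av_tn hp0 hp1]
  refine tn_erase_of_inv hp0 hp1 st τ W w ?_
  rw [av_av hp0 hp1, Finset.union_self]

/-- splitting off the noise at `w` -/
theorem tn_split (hp0 : 0 < p) (hp1 : p < 1) (st : V → Finset E) (τ : ℝ) (W : Finset V)
    (w : V) (hw : w ∈ W) (F : (E → Bool) → ℝ) (x : E → Bool) :
    tn p st τ W F x = (1 - τ) * tn p st τ (W.erase w) F x
      + τ * av p (st w) (tn p st τ (W.erase w) F) x := by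
  have h : tn p st τ W F = fun x => (1 - τ) * tn p st τ (W.erase w) F x
      + τ * av p (st w) (tn p st τ (W.erase w) F) x := by
    refine ext_fc hp0 hp1 fun S => ?_
    rw [fc_add, fc_smul, fc_smul, show fc p (fun x => tn p st τ (W.erase w) F x) S
      = fc p (tn p st τ (W.erase w) F) S from rfl,
      show fc p (fun x => av p (st w) (tn p st τ (W.erase w) F) x) S
      = fc p (av p (st w) (tn p st τ (W.erase w) F)) S from rfl,
      fc_av hp0 hp1, fc_tn hp0 hp1, fc_tn hp0 hp1]
    by_cases hS : Disjoint S (st w)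
    · have : W.filter (fun u => ¬ Disjoint S (st u))
          = (W.erase w).filter (fun u => ¬ Disjoint S (st u)) := by
        ext u
        simp only [Finset.mem_filter, Finset.mem_erase]
        constructor
        · rintro ⟨h1, h2⟩
          exact ⟨⟨fun h => h2 (h ▸ hS), h1⟩, h2⟩
        · rintro ⟨⟨_, h1⟩, h2⟩
          exact ⟨h1, h2⟩
      rw [this, if_pos hS]; ring
    · have : (W.filter (fun u => ¬ Disjoint S (st u))).card
          = ((W.erase w).filter (fun u => ¬ Disjoint S (st u))).card + 1 := by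
        have h2 : W.filter (fun u => ¬ Disjoint S (st u))
            = insert w ((W.erase w).filter (fun u => ¬ Disjoint S (st u))) := by
          ext u
          simp only [Finset.mem_filter, Finset.mem_insert, Finset.mem_erase]
          constructor
          · rintro ⟨h1, h2⟩
            by_cases hu : u = w
            · exact Or.inl hu
            · exact Or.inr ⟨⟨hu, h1⟩, h2⟩
          · rintro (h1 | ⟨⟨_, h1⟩, h2⟩)
            · rw [h1]; exact ⟨hw, hS⟩
            · exact ⟨h1, h2⟩
        rw [h2, Finset.card_insert_of_notMem]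
        simp
      rw [this, if_neg hS, pow_succ]; ring
  exact congrFun h x

theorem tn_ge_av (hp0 : 0 < p) (hp1 : p < 1) {τ : ℝ} (h0 : 0 ≤ τ) (h1 : τ ≤ 1)
    (st : V → Finset E) (W : Finset V) (w : V) (hw : w ∈ W) {F : (E → Bool) → ℝ}
    (hF : ∀ x, 0 ≤ F x) (x : E → Bool) :
    τ * av p (st w) (tn p st τ W F) x ≤ tn p st τ W F x := by
  rw [av_tn_erase hp0 hp1, tn_split hp0 hp1 st τ W w hw F x]
  have := mul_nonneg (sub_nonneg.mpr h1)
    (tn_nonneg hp0.le hp1.le h0 h1 st (W.erase w) hF x)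
  linarith

/-- the counting lower bound -/
theorem sum_av_tn_ge (hp0 : 0 < p) (hp1 : p < 1) {τ : ℝ} (h0 : 0 ≤ τ) (h1 : τ ≤ 1)
    (st : V → Finset E) (W : Finset V) {F : (E → Bool) → ℝ}
    (hF : ∀ x, 0 ≤ F x) (hF1 : ∀ x, F x ≤ 1) (x : E → Bool) (m0 : ℝ) (hm0 : 0 ≤ m0) :
    m0 * (tn p st τ W F x - Real.exp (m0 * Real.log 2) * (1 - τ / 2) ^ W.card)
      ≤ ∑ u ∈ W, av p (st u) (tn p st τ W F) x := by
  have hπ : ∀ U : Finset V, 0 ≤ τ ^ U.card * (1 - τ) ^ (W.card - U.card) := fun U =>
    mul_nonneg (pow_nonneg h0 _) (pow_nonneg (by linarith) _)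
  have hY : ∀ A : Finset E, 0 ≤ av p A F x := fun A => av_nonneg hp0.le hp1.le hF x
  have hY1 : ∀ A : Finset E, av p A F x ≤ 1 := fun A => by
    have := av_mono hp0.le hp1.le (A := A) (F := F) (G := fun _ => 1) hF1 x
    rwa [av_const] at this
  -- step 1
  have hs1 : ∑ U ∈ W.powerset, τ ^ U.card * (1 - τ) ^ (W.card - U.card) *
      ((U.card : ℝ) * av p (U.biUnion st) F x) ≤ ∑ u ∈ W, av p (st u) (tn p st τ W F) x := by
    have e1 : ∀ u ∈ W, ∑ U ∈ W.powerset, τ ^ U.card * (1 - τ) ^ (W.card - U.card) *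
        (if u ∈ U then av p (U.biUnion st) F x else 0) ≤ av p (st u) (tn p st τ W F) x := by
      intro u hu
      have e2 : av p (st u) (tn p st τ W F) x = ∑ U ∈ W.powerset,
          τ ^ U.card * (1 - τ) ^ (W.card - U.card) * av p (st u ∪ U.biUnion st) F x := by
        have : tn p st τ W F = fun y => ∑ U ∈ W.powerset,
            (τ ^ U.card * (1 - τ) ^ (W.card - U.card)) * av p (U.biUnion st) F y := rfl
        rw [this, av_sum]
        refine Finset.sum_congr rfl fun U _ => ?_
        rw [av_smul, ← av_av hp0 hp1]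
      rw [e2]
      refine Finset.sum_le_sum fun U _ => mul_le_mul_of_nonneg_left ?_ (hπ U)
      split_ifs with huU
      · have : st u ∪ U.biUnion st = U.biUnion st := by
          rw [Finset.union_eq_right]
          exact Finset.subset_biUnion_of_mem st huU
        rw [this]
      · exact hY _
    refine le_trans (le_of_eq ?_) (Finset.sum_le_sum e1)
    rw [Finset.sum_comm]
    refine Finset.sum_congr rfl fun U hU => ?_
    rw [← Finset.mul_sum, Finset.sum_ite_mem, Finset.inter_eq_right.mpr (Finset.mem_powerset.mp hU),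
      Finset.sum_const, nsmul_eq_mul]
  refine le_trans ?_ hs1
  -- step 2
  have hkey : ∀ s : ℕ, m0 * (1 - Real.exp (m0 * Real.log 2) * (1 / 2 : ℝ) ^ s) ≤ (s : ℝ) := by
    intro s
    have hpos : 0 < Real.exp (m0 * Real.log 2) * (1 / 2 : ℝ) ^ s := by positivity
    by_cases hs : m0 ≤ (s : ℝ)
    · have : m0 * (1 - Real.exp (m0 * Real.log 2) * (1 / 2 : ℝ) ^ s) ≤ m0 * 1 :=
        mul_le_mul_of_nonneg_left (by linarith) hm0
      linarith
    · push Not at hs
      have h2 : (1:ℝ) ≤ Real.exp (m0 * Real.log 2) * (1 / 2 : ℝ) ^ s := by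
        have e3 : (1 / 2 : ℝ) ^ s = Real.exp (-(s * Real.log 2)) := by
          rw [Real.exp_neg, mul_comm, Real.exp_mul, Real.exp_log (by norm_num)]
          rw [Real.rpow_natCast, one_div, inv_pow]
        rw [e3, ← Real.exp_add]
        apply Real.one_le_exp
        have := Real.log_pos (by norm_num : (1:ℝ) < 2)
        nlinarith
      have h3 : m0 * (1 - Real.exp (m0 * Real.log 2) * (1 / 2 : ℝ) ^ s) ≤ 0 :=
        mul_nonpos_of_nonneg_of_nonpos hm0 (by linarith)
      exact h3.trans (Nat.cast_nonneg s)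
  have hsum : ∑ U ∈ W.powerset, τ ^ U.card * (1 - τ) ^ (W.card - U.card) * (1 / 2 : ℝ) ^ U.card
      = (1 - τ / 2) ^ W.card := by
    have := Finset.sum_pow_mul_eq_add_pow (τ / 2) (1 - τ) W
    rw [show τ / 2 + (1 - τ) = 1 - τ / 2 by ring] at this
    rw [← this]
    refine Finset.sum_congr rfl fun U _ => ?_
    rw [show τ / 2 = τ * (1 / 2) by ring, mul_pow]; ring
  calc m0 * (tn p st τ W F x - Real.exp (m0 * Real.log 2) * (1 - τ / 2) ^ W.card)
      = ∑ U ∈ W.powerset, τ ^ U.card * (1 - τ) ^ (W.card - U.card) *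
          (m0 * (av p (U.biUnion st) F x - Real.exp (m0 * Real.log 2) * (1 / 2 : ℝ) ^ U.card)) := by
        rw [← hsum]
        unfold tn
        rw [Finset.mul_sum, ← Finset.sum_sub_distrib, Finset.mul_sum]
        refine Finset.sum_congr rfl fun U _ => by ring
    _ ≤ _ := by
        refine Finset.sum_le_sum fun U _ => mul_le_mul_of_nonneg_left ?_ (hπ U)
        have k1 := hkey U.card
        have y0 := hY (U.biUnion st)
        have y1 := hY1 (U.biUnion st)
        set Y := av p (U.biUnion st) F x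
        set c := Real.exp (m0 * Real.log 2) * (1 / 2 : ℝ) ^ U.card with hc
        have hcpos : 0 ≤ c := by rw [hc]; positivity
        have k2 : m0 * (1 - c) * Y ≤ (U.card : ℝ) * Y := mul_le_mul_of_nonneg_right k1 y0
        have k3 : m0 * (Y - c) ≤ m0 * (1 - c) * Y := by
          have : 0 ≤ m0 * c * (1 - Y) := mul_nonneg (mul_nonneg hm0 hcpos) (by linarith)
          nlinarith
        linarith

end Crest.Agent.VN
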