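/-
Row 56 (S0077, S0078).  Core, part 1: spectral facts, exchangeability.
-/
import Crest.Agent.VN.Noise

set_option autoImplicit false

namespace Crest.Agent.VN

open Finset

variable {E : Type*} [Fintype E] [DecidableEq E] {V : Type*} [Fintype V] [DecidableEq V] {p : ℝ}

/-- vertices touched by `S` -/
def vs (st : V → Finset E) (S : Finset E) : Finset V :=
  Finset.univ.filter (fun u => ¬ Disjoint S (st u))

theorem pow_bound {τ : ℝ} (h0 : 0 < τ) (h1 : τ ≤ 1) (v : ℕ) :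
    (v : ℝ) * ((1 - τ) ^ v) ^ 2 ≤ 1 / τ := by
  have ha : (1 - τ) ^ v * (1 + τ * v) ≤ 1 := by
    have hb : 1 + (v : ℝ) * τ ≤ (1 + τ) ^ v := one_add_mul_le_pow (by linarith) v
    have hc : 0 ≤ (1 - τ) ^ v := pow_nonneg (by linarith) v
    calc (1 - τ) ^ v * (1 + τ * v) ≤ (1 - τ) ^ v * (1 + τ) ^ v :=
          mul_le_mul_of_nonneg_left (by linarith) hc
      _ = (1 - τ ^ 2) ^ v := by rw [← mul_pow]; ring_nf
      _ ≤ 1 := pow_le_one₀ (by nlinarith) (by nlinarith)
  have hc : 0 ≤ (1 - τ) ^ v := pow_nonneg (by linarith) v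
  have hd : (1 - τ) ^ v ≤ 1 := pow_le_one₀ (by linarith) (by linarith)
  have hv : (0:ℝ) ≤ v := Nat.cast_nonneg v
  rw [le_div_iff₀ h0]
  have : ((1 - τ) ^ v) ^ 2 ≤ (1 - τ) ^ v := by nlinarith
  have h3 : (v : ℝ) * ((1 - τ) ^ v) ^ 2 ≤ v * (1 - τ) ^ v := mul_le_mul_of_nonneg_left this hv
  nlinarith

/-- (L4) -/
theorem sum_vertex_var (hp0 : 0 < p) (hp1 : p < 1) (st : V → Finset E) {τ : ℝ} (h0 : 0 < τ)
    (h1 : τ ≤ 1) (F : (E → Bool) → ℝ) :
    ∑ w : V, ex p (fun x => (tn p st τ Finset.univ F x - av p (st w) (tn p st τ Finset.univ F) x) ^ 2)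
      ≤ 1 / τ * ex p (fun x => F x ^ 2) := by
  simp_rw [ex_sub_av_sq hp0 hp1]
  rw [Finset.sum_comm, ex_sq_eq hp0 hp1, Finset.mul_sum]
  refine Finset.sum_le_sum fun S _ => ?_
  simp_rw [fc_tn hp0 hp1]
  have e1 : ∑ w : V, (if Disjoint S (st w) then (0:ℝ) else
      ((1 - τ) ^ (Finset.univ.filter (fun u => ¬ Disjoint S (st u))).card * fc p F S) ^ 2)
      = ((vs st S).card : ℝ) * ((1 - τ) ^ (vs st S).card) ^ 2 * fc p F S ^ 2 := by
    have : ∀ w : V, (if Disjoint S (st w) then (0:ℝ) else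
      ((1 - τ) ^ (Finset.univ.filter (fun u => ¬ Disjoint S (st u))).card * fc p F S) ^ 2)
      = if ¬ Disjoint S (st w) then ((1 - τ) ^ (vs st S).card * fc p F S) ^ 2 else 0 := by
      intro w
      by_cases hd : Disjoint S (st w)
      · rw [if_pos hd, if_neg (not_not.mpr hd)]
      · rw [if_neg hd, if_pos hd]; rfl
    rw [Finset.sum_congr rfl fun w _ => this w, ← Finset.sum_filter, Finset.sum_const, nsmul_eq_mul]
    unfold vs; ring
  rw [e1]
  exact mul_le_mul_of_nonneg_right (pow_bound h0 h1 _) (sq_nonneg _)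

/-- (N9) spectral Cauchy–Schwarz. -/
theorem ex_mul_le_tn (hp0 : 0 < p) (hp1 : p < 1) (st : V → Finset E) {τ : ℝ} (h0 : 0 ≤ τ)
    (h1 : τ ≤ 1) (W : Finset V) (ζ h : (E → Bool) → ℝ)
    (hh : ∀ S, fc p h S ≠ 0 → τ * ((vs st S).card : ℝ) ≤ 1 / 2) :
    ex p (fun x => ζ x * h x) ^ 2
      ≤ ex p (fun x => ζ x * tn p st τ W ζ x) * (2 * ex p (fun x => h x ^ 2)) := by
  rw [ex_mul_eq hp0 hp1, ex_mul_eq hp0 hp1, ex_sq_eq hp0 hp1]
  set lam : Finset E → ℝ := fun S => (1 - τ) ^ (W.filter (fun u => ¬ Disjoint S (st u))).card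
    with hlam
  have hl0 : ∀ S, 0 ≤ lam S := fun S => pow_nonneg (by linarith) _
  have hl1 : ∀ S, fc p h S ≠ 0 → 1 / 2 ≤ lam S := by
    intro S hS
    have k1 := hh S hS
    have k2 : (W.filter (fun u => ¬ Disjoint S (st u))).card ≤ (vs st S).card :=
      Finset.card_le_card (Finset.filter_subset_filter _ (Finset.subset_univ W))
    have k3 : 1 + ((W.filter (fun u => ¬ Disjoint S (st u))).card : ℝ) * (-τ) ≤ (1 + -τ) ^
        (W.filter (fun u => ¬ Disjoint S (st u))).card := one_add_mul_le_pow (by linarith) _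
    have k4 : ((W.filter (fun u => ¬ Disjoint S (st u))).card : ℝ) ≤ (vs st S).card := by
      exact_mod_cast k2
    have k5 : τ * ((W.filter (fun u => ¬ Disjoint S (st u))).card : ℝ) ≤ 1 / 2 :=
      (mul_le_mul_of_nonneg_left k4 h0).trans k1
    rw [hlam]; simp only
    rw [show (1 : ℝ) - τ = 1 + -τ by ring]
    linarith
  have hcs := Finset.sum_mul_sq_le_sq_mul_sq (Finset.univ : Finset (Finset E))
    (fun S => Real.sqrt (lam S) * fc p ζ S)
    (fun S => if fc p h S = 0 then 0 else fc p h S / Real.sqrt (lam S))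
  have e1 : ∑ S : Finset E, fc p ζ S * fc p h S = ∑ S : Finset E, (Real.sqrt (lam S) * fc p ζ S) *
      (if fc p h S = 0 then 0 else fc p h S / Real.sqrt (lam S)) := by
    refine Finset.sum_congr rfl fun S _ => ?_
    split_ifs with hS
    · rw [hS]; ring
    · have : Real.sqrt (lam S) ≠ 0 := by
        have := hl1 S hS
        exact (Real.sqrt_pos.mpr (by linarith)).ne'
      field_simp
  rw [e1]
  refine hcs.trans ?_
  have e2 : ∑ S : Finset E, (Real.sqrt (lam S) * fc p ζ S) ^ 2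
      = ∑ S : Finset E, fc p ζ S * fc p (tn p st τ W ζ) S := by
    refine Finset.sum_congr rfl fun S _ => ?_
    rw [fc_tn hp0 hp1, mul_pow, Real.sq_sqrt (hl0 S)]; ring
  have e3 : ∑ S : Finset E, (if fc p h S = 0 then 0 else fc p h S / Real.sqrt (lam S)) ^ 2
      ≤ 2 * ∑ S : Finset E, fc p h S ^ 2 := by
    rw [Finset.mul_sum]
    refine Finset.sum_le_sum fun S _ => ?_
    split_ifs with hS
    · rw [hS]; norm_num
    · have hl := hl1 S hS
      rw [div_pow, Real.sq_sqrt (hl0 S), div_le_iff₀ (by linarith)]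
      nlinarith [sq_nonneg (fc p h S)]
  have e4 : fc p (fun x => tn p st τ W ζ x) = fc p (tn p st τ W ζ) := rfl
  have e5 : (0:ℝ) ≤ ∑ S : Finset E, (Real.sqrt (lam S) * fc p ζ S) ^ 2 :=
    Finset.sum_nonneg fun S _ => sq_nonneg _
  calc _ ≤ (∑ S : Finset E, (Real.sqrt (lam S) * fc p ζ S) ^ 2) *
        (2 * ∑ S : Finset E, fc p h S ^ 2) := mul_le_mul_of_nonneg_left e3 e5
    _ = _ := by rw [e2]

/-- double Cauchy–Schwarz -/
theorem sum_ex_cs (hp0 : 0 ≤ p) (hp1 : p ≤ 1) {ι : Type*} (s : Finset ι)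
    (a b : ι → (E → Bool) → ℝ) :
    (∑ i ∈ s, ex p (fun x => a i x * b i x)) ^ 2
      ≤ (∑ i ∈ s, ex p (fun x => a i x ^ 2)) * ∑ i ∈ s, ex p (fun x => b i x ^ 2) := by
  have h1 : ∀ i ∈ s, ex p (fun x => a i x * b i x)
      ≤ Real.sqrt (ex p (fun x => a i x ^ 2)) * Real.sqrt (ex p (fun x => b i x ^ 2)) := by
    intro i _
    rw [← Real.sqrt_mul (ex_nonneg hp0 hp1 fun x => sq_nonneg _)]
    exact Real.le_sqrt_of_sq_le (ex_cs hp0 hp1 _ _)
  have h2 : ∀ i ∈ s, -(Real.sqrt (ex p (fun x => a i x ^ 2)) * Real.sqrt (ex p (fun x => b i x ^ 2)))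
      ≤ ex p (fun x => a i x * b i x) := by
    intro i _
    rw [← Real.sqrt_mul (ex_nonneg hp0 hp1 fun x => sq_nonneg _)]
    exact Real.neg_sqrt_le_of_sq_le (ex_cs hp0 hp1 _ _)
  have h3 := Finset.sum_mul_sq_le_sq_mul_sq s (fun i => Real.sqrt (ex p (fun x => a i x ^ 2)))
    (fun i => Real.sqrt (ex p (fun x => b i x ^ 2)))
  have h4 : ∀ i ∈ s, Real.sqrt (ex p (fun x => a i x ^ 2)) ^ 2 = ex p (fun x => a i x ^ 2) :=
    fun i _ => Real.sq_sqrt (ex_nonneg hp0 hp1 fun x => sq_nonneg _)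
  have h5 : ∀ i ∈ s, Real.sqrt (ex p (fun x => b i x ^ 2)) ^ 2 = ex p (fun x => b i x ^ 2) :=
    fun i _ => Real.sq_sqrt (ex_nonneg hp0 hp1 fun x => sq_nonneg _)
  rw [Finset.sum_congr rfl h4, Finset.sum_congr rfl h5] at h3
  refine le_trans ?_ h3
  have hle := Finset.sum_le_sum h1
  have hge := Finset.sum_le_sum h2
  rw [Finset.sum_neg_distrib] at hge
  exact sq_le_sq' hge hle

/-! ### exchangeability -/

/-- the symmetry hypothesis of the core theorem -/
def SymStar {V : Type*} (st : V → Finset E) (f : (E → Bool) → Bool) : Prop :=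
  ∀ u w : V, u ≠ w → ∃ π : Equiv.Perm E, (∀ x, f (x ∘ π) = f x) ∧
    (∀ e, π e ∈ st u ↔ e ∈ st w) ∧ (∀ e, π e ∈ st w ↔ e ∈ st u) ∧
    (∀ e, e ∉ st u → e ∉ st w → π e = e)

theorem wt_comp (π : Equiv.Perm E) (y : E → Bool) : wt p (y ∘ π) = wt p y := by
  unfold wt
  exact Equiv.prod_comp π (fun e => if y e then p else 1 - p)

theorem ex_comp (π : Equiv.Perm E) (F : (E → Bool) → ℝ) : ex p (fun y => F (y ∘ π)) = ex p F := by
  unfold ex
  have h := Equiv.sum_comp (Equiv.arrowCongr π.symm (Equiv.refl Bool)) (fun y : E → Bool => wt p y * F y)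
  rw [← h]
  refine Finset.sum_congr rfl fun y _ => ?_
  have e1 : (Equiv.arrowCongr π.symm (Equiv.refl Bool)) y = y ∘ π := by
    ext e; simp [Equiv.arrowCongr]
  rw [e1, wt_comp]

/-- real version of a Boolean function -/
def rl (f : (E → Bool) → Bool) : (E → Bool) → ℝ := fun x => if f x then (1:ℝ) else 0

/-- conditional variance given everything outside the star of `w` -/
noncomputable def vv (p : ℝ) (st : V → Finset E) (g : (E → Bool) → ℝ) (w : V) (x : E → Bool) : ℝ :=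
  av p (st w) g x * (1 - av p (st w) g x)

/-- criticality indicator -/
noncomputable def ph (p : ℝ) (st : V → Finset E) (g : (E → Bool) → ℝ) (t : ℝ) (w : V)
    (x : E → Bool) : ℝ := if t ≤ vv p st g w x then 1 else 0

theorem av_ph (st : V → Finset E) (g : (E → Bool) → ℝ) (t : ℝ) (w : V) :
    av p (st w) (ph p st g t w) = ph p st g t w := by
  ext x
  refine av_of_inv (fun x y => ?_) x
  unfold ph vv
  rw [av_mix]

theorem av_comp_perm (st : V → Finset E) (g : (E → Bool) → ℝ) (π : Equiv.Perm E) (u w : V)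
    (hg : ∀ x, g (x ∘ π) = g x) (h1 : ∀ e, π e ∈ st u ↔ e ∈ st w) (x : E → Bool) :
    av p (st w) g (x ∘ π) = av p (st u) g x := by
  unfold av
  rw [← ex_comp π (fun y => g (mix (st w) (x ∘ π) y))]
  congr 1
  ext y
  have : mix (st w) (x ∘ π) (y ∘ π) = (mix (st u) x y) ∘ π := by
    ext e
    simp only [mix, Function.comp, h1]
  rw [this, hg]

theorem ph_comp_perm (st : V → Finset E) (g : (E → Bool) → ℝ) (t : ℝ) (π : Equiv.Perm E) (u w : V)
    (hg : ∀ x, g (x ∘ π) = g x) (h1 : ∀ e, π e ∈ st u ↔ e ∈ st w) (x : E → Bool) :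
    ph p st g t w (x ∘ π) = ph p st g t u x := by
  unfold ph vv
  rw [av_comp_perm st g π u w hg h1]

/-- (L2) exchangeability -/
theorem av_ph_exchange (hp0 : 0 < p) (hp1 : p < 1) (st : V → Finset E)
    (f : (E → Bool) → Bool) (hsym : SymStar st f) (t : ℝ) (u w : V) (huw : u ≠ w) :
    av p (st w) (ph p st (rl f) t u) = av p (st u) (ph p st (rl f) t w) := by
  obtain ⟨π, hf, h1, h2, h3⟩ := hsym u w huw
  have hg : ∀ x, rl f (x ∘ π) = rl f x := fun x => by unfold rl; rw [hf]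
  ext x
  -- LHS = av (st u) φ_w (x ∘ π)
  have e1 : av p (st w) (ph p st (rl f) t u) x
      = av p (st u) (ph p st (rl f) t w) (x ∘ π) := by
    unfold av
    rw [← ex_comp π (fun y => ph p st (rl f) t w (mix (st u) (x ∘ π) y))]
    congr 1
    ext y
    have : mix (st u) (x ∘ π) (y ∘ π) = (mix (st w) x y) ∘ π := by
      ext e
      simp only [mix, Function.comp, h2]
    rw [this, ph_comp_perm st (rl f) t π u w hg h1]
  rw [e1]
  have e2 : av p (st u) (ph p st (rl f) t w) = av p (st u ∪ st w) (ph p st (rl f) t w) := by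
    rw [← av_av hp0 hp1, av_ph]
  rw [e2]
  unfold av
  congr 1
  ext y
  congr 1
  ext e
  simp only [mix, Finset.mem_union, Function.comp]
  split_ifs with he
  · rfl
  · push Not at he
    rw [h3 e he.1 he.2]

end Crest.Agent.VN
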