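/-
Row 56 (S0077, S0078).  Core, part 2: the cutoff function.
-/
import Crest.Agent.VN.Core1

set_option autoImplicit false

namespace Crest.Agent.VN

open Finset

variable {E : Type*} [Fintype E] [DecidableEq E] {V : Type*} [Fintype V] [DecidableEq V] {p : ℝ}

theorem ph_nonneg (st : V → Finset E) (g : (E → Bool) → ℝ) (t : ℝ) (w : V) (x : E → Bool) :
    0 ≤ ph p st g t w x := by unfold ph; split_ifs <;> norm_num

theorem ph_le_one (st : V → Finset E) (g : (E → Bool) → ℝ) (t : ℝ) (w : V) (x : E → Bool) :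
    ph p st g t w x ≤ 1 := by unfold ph; split_ifs <;> norm_num

/-- smoothed count of critical vertices -/
noncomputable def psi (p : ℝ) (st : V → Finset E) (g : (E → Bool) → ℝ) (t τ : ℝ) :
    (E → Bool) → ℝ := tn p st τ Finset.univ (fun y => ∑ u, ph p st g t u y)

theorem psi_eq (st : V → Finset E) (g : (E → Bool) → ℝ) (t τ : ℝ) (x : E → Bool) :
    psi p st g t τ x = ∑ u, tn p st τ Finset.univ (ph p st g t u) x := tn_sum _ _ _ _ _ _

theorem psi_nonneg (hp0 : 0 ≤ p) (hp1 : p ≤ 1) {τ : ℝ} (h0 : 0 ≤ τ) (h1 : τ ≤ 1)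
    (st : V → Finset E) (g : (E → Bool) → ℝ) (t : ℝ) (x : E → Bool) :
    0 ≤ psi p st g t τ x :=
  tn_nonneg hp0 hp1 h0 h1 st _ (fun y => Finset.sum_nonneg fun u _ => ph_nonneg st g t u y) x

/-- (L3) -/
theorem psi_ge (hp0 : 0 < p) (hp1 : p < 1) (st : V → Finset E) (f : (E → Bool) → Bool)
    (hsym : SymStar st f) {t β τ : ℝ} (h0 : 0 < τ) (h1 : τ ≤ 1) (hn : 2 ≤ Fintype.card V)
    (hchern : Real.exp (-(τ * (Fintype.card V - 1) / 4)) ≤ β / 2) (w : V) (x : E → Bool)
    (hx : β ≤ tn p st τ Finset.univ (ph p st (rl f) t w) x) :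
    τ ^ 2 * (Fintype.card V - 1) * β / 8 ≤ psi p st (rl f) t τ x := by
  set m : ℝ := (Fintype.card V : ℝ) - 1 with hm
  have hm1 : 1 ≤ m := by
    have : (2:ℝ) ≤ Fintype.card V := by exact_mod_cast hn
    rw [hm]; linarith
  have hβ : 0 < β := by
    have := Real.exp_pos (-(τ * m / 4))
    linarith
  set W := (Finset.univ : Finset V).erase w with hW
  have hWc : (W.card : ℝ) = m := by
    rw [hW, Finset.card_erase_of_mem (Finset.mem_univ w), Finset.card_univ, Nat.cast_sub (by omega)]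
    simp [hm]
  have hφ := av_ph (p := p) st (rl f) t w
  have hθ : tn p st τ Finset.univ (ph p st (rl f) t w) = tn p st τ W (ph p st (rl f) t w) :=
    tn_erase_of_inv hp0 hp1 st τ Finset.univ w hφ
  -- lower bound
  have hlow := sum_av_tn_ge hp0 hp1 h0.le h1 st W (F := ph p st (rl f) t w)
    (ph_nonneg st _ t w) (ph_le_one st _ t w) x (τ * m / 4) (by positivity)
  have hexp : Real.exp (τ * m / 4 * Real.log 2) * (1 - τ / 2) ^ W.card ≤ β / 2 := by
    refine le_trans ?_ hchern
    have e1 : (1 - τ / 2) ^ W.card ≤ Real.exp (-(τ / 2) * m) := by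
      have : (1 - τ / 2) ≤ Real.exp (-(τ / 2)) := by
        have := Real.add_one_le_exp (-(τ / 2)); linarith
      calc (1 - τ / 2) ^ W.card ≤ Real.exp (-(τ / 2)) ^ W.card :=
            pow_le_pow_left₀ (by linarith) this _
        _ = Real.exp (-(τ / 2) * m) := by rw [← Real.exp_nat_mul, hWc]; ring_nf
    have e2 : Real.exp (τ * m / 4 * Real.log 2) ≤ Real.exp (τ * m / 4) := by
      apply Real.exp_le_exp.mpr
      have : Real.log 2 ≤ 1 := by
        have := Real.log_two_lt_d9; linarith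
      have h3 : 0 ≤ τ * m / 4 := by positivity
      nlinarith
    calc Real.exp (τ * m / 4 * Real.log 2) * (1 - τ / 2) ^ W.card
        ≤ Real.exp (τ * m / 4) * Real.exp (-(τ / 2) * m) :=
          mul_le_mul e2 e1 (pow_nonneg (by linarith) _) (Real.exp_pos _).le
      _ = Real.exp (-(τ * m / 4)) := by rw [← Real.exp_add]; ring_nf
  have hlow2 : τ * m / 4 * (β / 2) ≤ ∑ u ∈ W, av p (st u) (tn p st τ W (ph p st (rl f) t w)) x := by
    refine le_trans ?_ hlow
    refine mul_le_mul_of_nonneg_left ?_ (by positivity)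
    rw [← hθ]; linarith
  -- comparison with av (st w) psi
  have hcmp : ∑ u ∈ W, av p (st u) (tn p st τ W (ph p st (rl f) t w)) x
      ≤ av p (st w) (psi p st (rl f) t τ) x := by
    have e1 : av p (st w) (psi p st (rl f) t τ) x
        = ∑ u, av p (st w) (tn p st τ Finset.univ (ph p st (rl f) t u)) x := by
      have : psi p st (rl f) t τ = fun y => ∑ u, tn p st τ Finset.univ (ph p st (rl f) t u) y := by
        ext y; exact psi_eq st (rl f) t τ y
      rw [this, av_sum]
    have e2 : ∀ u ∈ W, av p (st u) (tn p st τ W (ph p st (rl f) t w)) x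
        = av p (st w) (tn p st τ Finset.univ (ph p st (rl f) t u)) x := by
      intro u hu
      have huw : u ≠ w := (Finset.mem_erase.mp hu).1
      rw [← hθ, av_tn hp0 hp1, ← av_ph_exchange hp0 hp1 st f hsym t u w huw, ← av_tn hp0 hp1]
    rw [e1, Finset.sum_congr rfl e2]
    refine Finset.sum_le_sum_of_subset_of_nonneg (Finset.erase_subset _ _) fun u _ _ => ?_
    exact av_nonneg hp0.le hp1.le
      (fun y => tn_nonneg hp0.le hp1.le h0.le h1 st _ (ph_nonneg st _ t u) y) x
  have hfin := tn_ge_av hp0 hp1 h0.le h1 st Finset.univ w (Finset.mem_univ w)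
    (F := fun y => ∑ u, ph p st (rl f) t u y)
    (fun y => Finset.sum_nonneg fun u _ => ph_nonneg st _ t u y) x
  have hfin' : τ * av p (st w) (psi p st (rl f) t τ) x ≤ psi p st (rl f) t τ x := hfin
  have : τ * (τ * m / 4 * (β / 2)) ≤ τ * av p (st w) (psi p st (rl f) t τ) x :=
    mul_le_mul_of_nonneg_left (hlow2.trans hcmp) h0.le
  calc τ ^ 2 * m * β / 8 = τ * (τ * m / 4 * (β / 2)) := by ring
    _ ≤ _ := this
    _ ≤ _ := hfin'

theorem ex_tn (hp0 : 0 < p) (hp1 : p < 1) (st : V → Finset E) (τ : ℝ) (W : Finset V)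
    (F : (E → Bool) → ℝ) : ex p (tn p st τ W F) = ex p F := by
  rw [← fc_empty, fc_tn hp0 hp1, ← fc_empty]
  simp

/-- cutoff -/
noncomputable def om (p : ℝ) (st : V → Finset E) (g : (E → Bool) → ℝ) (t τ M : ℝ) :
    (E → Bool) → ℝ := fun x => max 0 (1 - psi p st g t τ x / M)

theorem om_nonneg (st : V → Finset E) (g : (E → Bool) → ℝ) (t τ M : ℝ) (x : E → Bool) :
    0 ≤ om p st g t τ M x := le_max_left _ _

theorem om_le_one (hp0 : 0 ≤ p) (hp1 : p ≤ 1) {τ : ℝ} (h0 : 0 ≤ τ) (h1 : τ ≤ 1)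
    (st : V → Finset E) (g : (E → Bool) → ℝ) (t : ℝ) {M : ℝ} (hM : 0 < M) (x : E → Bool) :
    om p st g t τ M x ≤ 1 := by
  unfold om
  have := div_nonneg (psi_nonneg (p := p) hp0 hp1 h0 h1 st g t x) hM.le
  exact max_le (by norm_num) (by linarith)

/-- number of critical vertices, expectation -/
noncomputable def XX (p : ℝ) (st : V → Finset E) (g : (E → Bool) → ℝ) (t : ℝ) : ℝ :=
  ∑ w, ex p (ph p st g t w)

theorem ex_psi (hp0 : 0 < p) (hp1 : p < 1) (st : V → Finset E) (g : (E → Bool) → ℝ) (t τ : ℝ) :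
    ex p (psi p st g t τ) = XX p st g t := by
  unfold psi XX
  rw [ex_tn hp0 hp1, ex_sum]

theorem ex_one_sub_om_sq (hp0 : 0 < p) (hp1 : p < 1) {τ : ℝ} (h0 : 0 ≤ τ) (h1 : τ ≤ 1)
    (st : V → Finset E) (g : (E → Bool) → ℝ) (t : ℝ) {M : ℝ} (hM : 0 < M) :
    ex p (fun x => (1 - om p st g t τ M x) ^ 2) ≤ XX p st g t / M := by
  have h : ∀ x, (1 - om p st g t τ M x) ^ 2 ≤ M⁻¹ * psi p st g t τ x := by
    intro x
    have a0 := om_nonneg (p := p) st g t τ M x
    have a1 := om_le_one hp0.le hp1.le h0 h1 st g t hM x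
    have a2 : 1 - om p st g t τ M x ≤ M⁻¹ * psi p st g t τ x := by
      have : 1 - psi p st g t τ x / M ≤ om p st g t τ M x := le_max_right _ _
      rw [div_eq_inv_mul] at this; linarith
    nlinarith
  have h2 := ex_mono hp0.le hp1.le h
  rw [ex_mul_const, ex_psi hp0 hp1] at h2
  rwa [div_eq_inv_mul]

theorem ex_sq_sub_av_le (hp0 : 0 < p) (hp1 : p < 1) (A : Finset E) (F c : (E → Bool) → ℝ)
    (hc : av p A c = c) :
    ex p (fun x => (F x - av p A F x) ^ 2) ≤ ex p (fun x => (F x - c x) ^ 2) := by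
  rw [ex_sub_av_sq hp0 hp1, ex_sq_eq hp0 hp1]
  refine Finset.sum_le_sum fun S _ => ?_
  split_ifs with hS
  · exact sq_nonneg _
  · have : fc p c S = 0 := by rw [← hc, fc_av hp0 hp1, if_neg hS]
    rw [fc_sub, show fc p (fun x => c x) S = fc p c S from rfl, this, sub_zero]

/-- (T2) -/
theorem sum_om_var (hp0 : 0 < p) (hp1 : p < 1) {τ : ℝ} (h0 : 0 < τ) (h1 : τ ≤ 1)
    (st : V → Finset E) (g : (E → Bool) → ℝ) (t : ℝ) {M : ℝ} (hM : 0 < M) :
    ∑ w, ex p (fun x => (om p st g t τ M x - av p (st w) (om p st g t τ M) x) ^ 2)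
      ≤ Fintype.card V * XX p st g t / (τ * M ^ 2) := by
  have h2 : ∀ w ∈ (Finset.univ : Finset V),
      ex p (fun x => (om p st g t τ M x - av p (st w) (om p st g t τ M) x) ^ 2)
      ≤ (M ^ 2)⁻¹ * ex p (fun x => (psi p st g t τ x - av p (st w) (psi p st g t τ) x) ^ 2) := by
    intro w _
    have hc : av p (st w) (fun x => max 0 (1 - av p (st w) (psi p st g t τ) x / M))
        = fun x => max 0 (1 - av p (st w) (psi p st g t τ) x / M) := by
      ext x
      refine av_of_inv (fun x y => ?_) x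
      simp only [av_mix]
    refine (ex_sq_sub_av_le hp0 hp1 (st w) (om p st g t τ M) _ hc).trans ?_
    rw [← ex_mul_const]
    refine ex_mono hp0.le hp1.le fun x => ?_
    have h3 : |om p st g t τ M x - max 0 (1 - av p (st w) (psi p st g t τ) x / M)|
        ≤ |psi p st g t τ x - av p (st w) (psi p st g t τ) x| / M := by
      unfold om
      have hb : |max 0 (1 - psi p st g t τ x / M) - max 0 (1 - av p (st w) (psi p st g t τ) x / M)|
          ≤ |(1 - psi p st g t τ x / M) - (1 - av p (st w) (psi p st g t τ) x / M)| := by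
        rw [max_comm 0 (1 - psi p st g t τ x / M), max_comm 0 (1 - av p (st w) (psi p st g t τ) x / M)]
        exact abs_max_sub_max_le_abs _ _ _
      refine hb.trans (le_of_eq ?_)
      have : (1 - psi p st g t τ x / M) - (1 - av p (st w) (psi p st g t τ) x / M)
            = - ((psi p st g t τ x - av p (st w) (psi p st g t τ) x) / M) := by ring
      rw [this, abs_neg, abs_div, abs_of_pos hM]
    calc (om p st g t τ M x - max 0 (1 - av p (st w) (psi p st g t τ) x / M)) ^ 2
        = |om p st g t τ M x - max 0 (1 - av p (st w) (psi p st g t τ) x / M)| ^ 2 := (sq_abs _).symm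
      _ ≤ (|psi p st g t τ x - av p (st w) (psi p st g t τ) x| / M) ^ 2 :=
          pow_le_pow_left₀ (abs_nonneg _) h3 2
      _ = (M ^ 2)⁻¹ * (psi p st g t τ x - av p (st w) (psi p st g t τ) x) ^ 2 := by
          rw [div_pow, sq_abs]; field_simp
  refine (Finset.sum_le_sum h2).trans ?_
  rw [← Finset.mul_sum]
  have h4 := sum_vertex_var hp0 hp1 st h0 h1 (fun y => ∑ u, ph p st g t u y)
  have h5 : ex p (fun x => (∑ u, ph p st g t u x) ^ 2) ≤ Fintype.card V * XX p st g t := by
    have : ∀ x : E → Bool, (∑ u, ph p st g t u x) ^ 2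
        ≤ (Fintype.card V : ℝ) * ∑ u, ph p st g t u x := by
      intro x
      have a0 : 0 ≤ ∑ u, ph p st g t u x := Finset.sum_nonneg fun u _ => ph_nonneg st g t u x
      have a1 : ∑ u, ph p st g t u x ≤ Fintype.card V := by
        calc ∑ u, ph p st g t u x ≤ ∑ _u : V, (1:ℝ) :=
              Finset.sum_le_sum fun u _ => ph_le_one st g t u x
          _ = _ := by simp
      nlinarith
    have h6 := ex_mono hp0.le hp1.le this
    rw [ex_mul_const, ex_sum] at h6
    exact h6
  have h7 : (0:ℝ) ≤ (M ^ 2)⁻¹ := by positivity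
  calc (M ^ 2)⁻¹ * ∑ w, ex p (fun x => (psi p st g t τ x - av p (st w) (psi p st g t τ) x) ^ 2)
      ≤ (M ^ 2)⁻¹ * (1 / τ * ex p (fun x => (∑ u, ph p st g t u x) ^ 2)) :=
        mul_le_mul_of_nonneg_left h4 h7
    _ ≤ (M ^ 2)⁻¹ * (1 / τ * (Fintype.card V * XX p st g t)) :=
        mul_le_mul_of_nonneg_left (mul_le_mul_of_nonneg_left h5 (by positivity)) h7
    _ = _ := by field_simp

/-- if `w` is stably critical at `x` then the averaged cutoff vanishes -/
theorem av_om_eq_zero (hp0 : 0 < p) (hp1 : p < 1) (st : V → Finset E) (f : (E → Bool) → Bool)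
    (hsym : SymStar st f) {t β τ : ℝ} (h0 : 0 < τ) (h1 : τ ≤ 1) (hn : 2 ≤ Fintype.card V)
    (hchern : Real.exp (-(τ * (Fintype.card V - 1) / 4)) ≤ β / 2) (w : V) (x : E → Bool)
    (hx : β ≤ tn p st τ Finset.univ (ph p st (rl f) t w) x) :
    av p (st w) (om p st (rl f) t τ (τ ^ 2 * (Fintype.card V - 1) * β / 8)) x = 0 := by
  set M := τ ^ 2 * (Fintype.card V - 1) * β / 8 with hMdef
  have hM : 0 < M := by
    have h2 : (2:ℝ) ≤ Fintype.card V := by exact_mod_cast hn
    have hβ : 0 < β := by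
      have := Real.exp_pos (-(τ * ((Fintype.card V : ℝ) - 1) / 4))
      linarith
    have : 0 < (Fintype.card V : ℝ) - 1 := by linarith
    rw [hMdef]; positivity
  have hinv : av p (st w) (tn p st τ Finset.univ (ph p st (rl f) t w))
      = tn p st τ Finset.univ (ph p st (rl f) t w) := by
    rw [av_tn hp0 hp1, av_ph]
  unfold av
  have h3 : (fun y => om p st (rl f) t τ M (mix (st w) x y)) = fun _ => 0 := by
    ext y
    have h4 : β ≤ tn p st τ Finset.univ (ph p st (rl f) t w) (mix (st w) x y) := by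
      rw [inv_of_av_eq hinv]; exact hx
    have h5 := psi_ge hp0 hp1 st f hsym h0 h1 hn hchern w _ h4
    unfold om
    rw [max_eq_left]
    have : 1 ≤ psi p st (rl f) t τ (mix (st w) x y) / M := by
      rw [le_div_iff₀ hM]; linarith
    linarith
  rw [h3]; exact ex_const 0

/-! ### vertex influences -/

theorem rl_sq (f : (E → Bool) → Bool) (x : E → Bool) : rl f x ^ 2 = rl f x := by
  unfold rl; split_ifs <;> norm_num

theorem rl_nonneg (f : (E → Bool) → Bool) (x : E → Bool) : 0 ≤ rl f x := by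
  unfold rl; split_ifs <;> norm_num

theorem rl_le_one (f : (E → Bool) → Bool) (x : E → Bool) : rl f x ≤ 1 := by
  unfold rl; split_ifs <;> norm_num

theorem vv_nonneg (hp0 : 0 ≤ p) (hp1 : p ≤ 1) (st : V → Finset E) (f : (E → Bool) → Bool) (w : V)
    (x : E → Bool) : 0 ≤ vv p st (rl f) w x := by
  unfold vv
  have h1 := av_nonneg hp0 hp1 (A := st w) (rl_nonneg f) x
  have h2 := av_mono hp0 hp1 (A := st w) (G := fun _ => 1) (rl_le_one f) x
  rw [av_const] at h2
  exact mul_nonneg h1 (by linarith)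

theorem ex_vv (hp0 : 0 < p) (hp1 : p < 1) (st : V → Finset E) (f : (E → Bool) → Bool) (w : V) :
    ex p (vv p st (rl f) w) = ∑ S, if Disjoint S (st w) then 0 else fc p (rl f) S ^ 2 := by
  have h1 : vv p st (rl f) w = fun x => av p (st w) (rl f) x - av p (st w) (rl f) x ^ 2 := by
    ext x; unfold vv; ring
  have h2 : ex p (rl f) = ex p (fun x => rl f x ^ 2) := by
    congr 1; ext x; exact (rl_sq f x).symm
  rw [h1, ex_sub, show ex p (fun x => av p (st w) (rl f) x) = ex p (av p (st w) (rl f)) from rfl,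
    ex_av hp0 hp1, h2, ex_sq_eq hp0 hp1, fc_sq_eq_ex_av_sq hp0 hp1, ← Finset.sum_sub_distrib]
  refine Finset.sum_congr rfl fun S _ => ?_
  split_ifs <;> ring

/-- sum of vertex influences -/
noncomputable def sv (p : ℝ) (st : V → Finset E) (g : (E → Bool) → ℝ) : ℝ :=
  ∑ w, ex p (vv p st g w)

theorem sv_eq (hp0 : 0 < p) (hp1 : p < 1) (st : V → Finset E) (f : (E → Bool) → Bool) :
    sv p st (rl f) = ∑ S, ((vs st S).card : ℝ) * fc p (rl f) S ^ 2 := by
  unfold sv
  simp_rw [ex_vv hp0 hp1]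
  rw [Finset.sum_comm]
  refine Finset.sum_congr rfl fun S _ => ?_
  have : ∀ w : V, (if Disjoint S (st w) then (0:ℝ) else fc p (rl f) S ^ 2)
      = if ¬ Disjoint S (st w) then fc p (rl f) S ^ 2 else 0 := by
    intro w
    by_cases hd : Disjoint S (st w)
    · rw [if_pos hd, if_neg (not_not.mpr hd)]
    · rw [if_neg hd, if_pos hd]
  rw [Finset.sum_congr rfl fun w _ => this w, ← Finset.sum_filter, Finset.sum_const, nsmul_eq_mul]
  rfl

theorem card_vs_le (st : V → Finset E) (r : ℕ)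
    (hr : ∀ e, (Finset.univ.filter (fun u : V => e ∈ st u)).card ≤ r) (S : Finset E) :
    (vs st S).card ≤ r * S.card := by
  have h1 : vs st S ⊆ S.biUnion (fun e => Finset.univ.filter (fun u : V => e ∈ st u)) := by
    intro u hu
    have := (Finset.mem_filter.mp hu).2
    rw [Finset.not_disjoint_iff] at this
    obtain ⟨e, he1, he2⟩ := this
    exact Finset.mem_biUnion.mpr ⟨e, he1, Finset.mem_filter.mpr ⟨Finset.mem_univ _, he2⟩⟩
  calc (vs st S).card ≤ _ := Finset.card_le_card h1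
    _ ≤ S.card * r := Finset.card_biUnion_le_card_mul _ _ _ fun e _ => hr e
    _ = r * S.card := mul_comm _ _

theorem sv_le (hp0 : 0 < p) (hp1 : p < 1) (st : V → Finset E) (r : ℕ)
    (hr : ∀ e, (Finset.univ.filter (fun u : V => e ∈ st u)).card ≤ r) (f : (E → Bool) → Bool) :
    sv p st (rl f) ≤ r * infl p (rl f) := by
  rw [sv_eq hp0 hp1]
  unfold infl
  rw [Finset.mul_sum]
  refine Finset.sum_le_sum fun S _ => ?_
  rw [← mul_assoc]
  refine mul_le_mul_of_nonneg_right ?_ (sq_nonneg _)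
  exact_mod_cast card_vs_le st r hr S

theorem XX_le (hp0 : 0 ≤ p) (hp1 : p ≤ 1) (st : V → Finset E) (f : (E → Bool) → Bool) {t : ℝ}
    (ht : 0 < t) : XX p st (rl f) t ≤ sv p st (rl f) / t := by
  unfold XX sv
  rw [div_eq_inv_mul, Finset.mul_sum]
  refine Finset.sum_le_sum fun w _ => ?_
  rw [← ex_mul_const]
  refine ex_mono hp0 hp1 fun x => ?_
  have h1 := vv_nonneg hp0 hp1 st f w x
  unfold ph
  split_ifs with h
  · rw [inv_mul_eq_div, le_div_iff₀ ht]; linarith
  · positivity

theorem XX_nonneg (hp0 : 0 ≤ p) (hp1 : p ≤ 1) (st : V → Finset E) (g : (E → Bool) → ℝ) (t : ℝ) :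
    0 ≤ XX p st g t :=
  Finset.sum_nonneg fun w _ => ex_nonneg hp0 hp1 fun x => ph_nonneg st g t w x

end Crest.Agent.VN
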