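/-
Row 56 (S0077, S0078).  Core, part 3: the mass of sets with a low-degree vertex.
-/
import Crest.Agent.VN.Core2
import Crest.Agent.VN.Bonami

set_option autoImplicit false

namespace Crest.Agent.VN

open Finset

variable {E : Type*} [Fintype E] [DecidableEq E] {V : Type*} [Fintype V] [DecidableEq V] {p : ℝ}

/-- low-degree vertices of `S` -/
def ld (st : V → Finset E) (k : ℕ) (S : Finset E) : Finset V :=
  Finset.univ.filter (fun w => 1 ≤ (S ∩ st w).card ∧ (S ∩ st w).card ≤ k)

open Classical in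
/-- the bad sets -/
noncomputable def BB (st : V → Finset E) (k : ℕ) (τ : ℝ) : Finset (Finset E) :=
  Finset.univ.filter (fun S => τ * ((vs st S).card : ℝ) ≤ 1 / 2 ∧ (ld st k S).Nonempty)

/-- the part of the bad projection attributed to `w` -/
noncomputable def hw (p : ℝ) (st : V → Finset E) (g : (E → Bool) → ℝ) (k : ℕ) (τ : ℝ) (w : V) :
    (E → Bool) → ℝ :=
  fun x => ∑ S ∈ (BB st k τ).filter (fun S => w ∈ ld st k S),
    (fc p g S / (ld st k S).card) * chiS p S x

/-- the bad projection -/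
noncomputable def gB (p : ℝ) (st : V → Finset E) (g : (E → Bool) → ℝ) (k : ℕ) (τ : ℝ) :
    (E → Bool) → ℝ :=
  fun x => ∑ S ∈ BB st k τ, fc p g S * chiS p S x

/-- bad mass -/
noncomputable def GG (p : ℝ) (st : V → Finset E) (g : (E → Bool) → ℝ) (k : ℕ) (τ : ℝ) : ℝ :=
  ∑ S ∈ BB st k τ, fc p g S ^ 2

theorem fc_sum_mem (hp0 : 0 < p) (hp1 : p < 1) (T : Finset (Finset E)) (c : Finset E → ℝ)
    (S : Finset E) :
    fc p (fun x => ∑ S ∈ T, c S * chiS p S x) S = if S ∈ T then c S else 0 := by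
  have h : (fun x : E → Bool => ∑ S ∈ T, c S * chiS p S x)
      = fun x => ∑ S, (if S ∈ T then c S else 0) * chiS p S x := by
    ext x
    rw [← Finset.sum_filter_add_sum_filter_not Finset.univ (fun S => S ∈ T)]
    rw [Finset.filter_univ_mem]
    have h2 : ∑ S ∈ Finset.univ.filter (fun S => ¬ S ∈ T),
        (if S ∈ T then c S else 0) * chiS p S x = 0 := by
      refine Finset.sum_eq_zero fun S hS => ?_
      rw [if_neg (Finset.mem_filter.mp hS).2, zero_mul]
    rw [h2, add_zero]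
    refine Finset.sum_congr rfl fun S hS => ?_
    rw [if_pos hS]
  rw [h, fc_sum_chiS hp0 hp1]

theorem sum_hw (st : V → Finset E) (g : (E → Bool) → ℝ) (k : ℕ) (τ : ℝ) (x : E → Bool) :
    ∑ w, hw p st g k τ w x = gB p st g k τ x := by
  unfold hw gB
  simp_rw [Finset.sum_filter]
  rw [Finset.sum_comm]
  refine Finset.sum_congr rfl fun S hS => ?_
  have hne : (ld st k S).Nonempty := by
    unfold BB at hS
    exact (Finset.mem_filter.mp hS).2.2
  have hc : ((ld st k S).card : ℝ) ≠ 0 := by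
    exact_mod_cast (Finset.card_pos.mpr hne).ne'
  rw [← Finset.sum_filter, Finset.filter_univ_mem, Finset.sum_const, nsmul_eq_mul]
  field_simp

theorem ex_g_gB (hp0 : 0 < p) (hp1 : p < 1) (st : V → Finset E) (g : (E → Bool) → ℝ) (k : ℕ)
    (τ : ℝ) : ex p (fun x => g x * gB p st g k τ x) = GG p st g k τ := by
  rw [ex_mul_eq hp0 hp1]
  unfold gB GG
  simp_rw [fc_sum_mem hp0 hp1, mul_ite, mul_zero]
  rw [← Finset.sum_filter, Finset.filter_univ_mem]
  refine Finset.sum_congr rfl fun S _ => by ring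

theorem ex_gB_sq (hp0 : 0 < p) (hp1 : p < 1) (st : V → Finset E) (g : (E → Bool) → ℝ) (k : ℕ)
    (τ : ℝ) : ex p (fun x => gB p st g k τ x ^ 2) = GG p st g k τ := by
  rw [ex_sq_eq hp0 hp1]
  unfold gB GG
  simp_rw [fc_sum_mem hp0 hp1, ite_pow]
  rw [← Finset.sum_filter_add_sum_filter_not Finset.univ (fun S => S ∈ BB st k τ),
    Finset.filter_univ_mem]
  have h2 : ∑ S ∈ Finset.univ.filter (fun S => ¬ S ∈ BB st k τ),
      (if S ∈ BB st k τ then fc p g S ^ 2 else (0:ℝ) ^ 2) = 0 := by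
    refine Finset.sum_eq_zero fun S hS => ?_
    rw [if_neg (Finset.mem_filter.mp hS).2]; norm_num
  rw [h2, add_zero]
  refine Finset.sum_congr rfl fun S hS => by rw [if_pos hS]

theorem GG_nonneg (st : V → Finset E) (g : (E → Bool) → ℝ) (k : ℕ) (τ : ℝ) :
    0 ≤ GG p st g k τ := Finset.sum_nonneg fun S _ => sq_nonneg _

theorem sum_ex_hw_sq (hp0 : 0 < p) (hp1 : p < 1) (st : V → Finset E) (g : (E → Bool) → ℝ) (k : ℕ)
    (τ : ℝ) : ∑ w, ex p (fun x => hw p st g k τ w x ^ 2) ≤ GG p st g k τ := by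
  have h1 : ∀ w, ex p (fun x => hw p st g k τ w x ^ 2)
      = ∑ S ∈ BB st k τ, if w ∈ ld st k S then (fc p g S / (ld st k S).card) ^ 2 else 0 := by
    intro w
    rw [ex_sq_eq hp0 hp1]
    unfold hw
    simp_rw [fc_sum_mem hp0 hp1]
    rw [← Finset.sum_filter_add_sum_filter_not Finset.univ
      (fun S => S ∈ (BB st k τ).filter (fun S => w ∈ ld st k S)), Finset.filter_univ_mem]
    have h2 : ∑ S ∈ Finset.univ.filter
        (fun S => ¬ S ∈ (BB st k τ).filter (fun S => w ∈ ld st k S)),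
        (if S ∈ (BB st k τ).filter (fun S => w ∈ ld st k S) then
          (fc p g S / ((ld st k S).card : ℝ)) else 0) ^ 2 = 0 := by
      refine Finset.sum_eq_zero fun S hS => ?_
      rw [if_neg (Finset.mem_filter.mp hS).2]; norm_num
    rw [h2, add_zero, ← Finset.sum_filter]
    refine Finset.sum_congr rfl fun S hS => by rw [if_pos hS]
  simp_rw [h1]
  rw [Finset.sum_comm]
  unfold GG
  refine Finset.sum_le_sum fun S hS => ?_
  rw [← Finset.sum_filter, Finset.filter_univ_mem, Finset.sum_const, nsmul_eq_mul]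
  have hne : (ld st k S).Nonempty := by
    unfold BB at hS
    exact (Finset.mem_filter.mp hS).2.2
  have hc : (1:ℝ) ≤ ((ld st k S).card : ℝ) := by
    exact_mod_cast Finset.card_pos.mpr hne
  have hc0 : (0:ℝ) < ((ld st k S).card : ℝ) := by linarith
  rw [div_pow]
  have : ((ld st k S).card : ℝ) * (fc p g S ^ 2 / ((ld st k S).card : ℝ) ^ 2)
      = fc p g S ^ 2 / ((ld st k S).card : ℝ) := by field_simp
  rw [this, div_le_iff₀ hc0]
  nlinarith [sq_nonneg (fc p g S)]

theorem av_hw (hp0 : 0 < p) (hp1 : p < 1) (st : V → Finset E) (g : (E → Bool) → ℝ) (k : ℕ)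
    (τ : ℝ) (w : V) (x : E → Bool) : av p (st w) (hw p st g k τ w) x = 0 := by
  have h : hw p st g k τ w = fun x => ∑ S ∈ (BB st k τ).filter (fun S => w ∈ ld st k S),
    (fc p g S / (ld st k S).card) * chiS p S x := rfl
  rw [h, av_sum]
  refine Finset.sum_eq_zero fun S hS => ?_
  rw [av_smul, show av p (st w) (fun y => chiS p S y) x = av p (st w) (chiS p S) x from rfl,
    av_chiS hp0 hp1, if_neg, mul_zero]
  have h2 := (Finset.mem_filter.mp hS).2
  unfold ld at h2
  have h3 := (Finset.mem_filter.mp h2).2.1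
  rw [Finset.disjoint_iff_inter_eq_empty]
  intro h4
  rw [h4] at h3
  simp at h3

theorem hw_supp (hp0 : 0 < p) (hp1 : p < 1) (st : V → Finset E) (g : (E → Bool) → ℝ) (k : ℕ)
    (τ : ℝ) (w : V) (S : Finset E) (hS : fc p (hw p st g k τ w) S ≠ 0) :
    τ * ((vs st S).card : ℝ) ≤ 1 / 2 := by
  unfold hw at hS
  rw [fc_sum_mem hp0 hp1] at hS
  by_cases h : S ∈ (BB st k τ).filter (fun S => w ∈ ld st k S)
  · have h2 := (Finset.mem_filter.mp h).1
    unfold BB at h2
    exact (Finset.mem_filter.mp h2).2.1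
  · rw [if_neg h] at hS; exact absurd rfl hS

theorem hw_bonami (hp0 : 0 < p) (hp1 : p < 1) (st : V → Finset E) (g : (E → Bool) → ℝ) (k : ℕ)
    (τ : ℝ) (w : V) (x : E → Bool) :
    av p (st w) (fun y => hw p st g k τ w y ^ 4) x
      ≤ (4 / (p * (1 - p))) ^ k * (av p (st w) (fun y => hw p st g k τ w y ^ 2) x) ^ 2 := by
  refine bonami_av p hp0 hp1 (st w) k (fun S => fc p g S / (ld st k S).card) _ ?_ x
  intro S hS
  have h2 := (Finset.mem_filter.mp hS).2
  unfold ld at h2
  exact (Finset.mem_filter.mp h2).2.2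

/-- non-critical fibres: low-degree correlation is small -/
theorem av_mul_small (hp0 : 0 < p) (hp1 : p < 1) (A : Finset E) (f : (E → Bool) → Bool)
    (h : (E → Bool) → ℝ) (x : E → Bool) (h0 : av p A h x = 0) (C : ℝ) (hC : 0 ≤ C)
    (h4 : av p A (fun y => h y ^ 4) x ≤ C ^ 2 * (av p A (fun y => h y ^ 2) x) ^ 2) :
    (av p A (fun y => rl f y * h y) x) ^ 2
      ≤ (2 * (av p A (rl f) x * (1 - av p A (rl f) x))) *
        Real.sqrt (2 * (av p A (rl f) x * (1 - av p A (rl f) x))) * C *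
          av p A (fun y => h y ^ 2) x := by
  set m := av p A (rl f) x with hm
  have hm0 : 0 ≤ m := av_nonneg hp0.le hp1.le (rl_nonneg f) x
  have hm1 : m ≤ 1 := by
    have h2 := av_mono hp0.le hp1.le (A := A) (G := fun _ => 1) (rl_le_one f) x
    rwa [av_const] at h2
  obtain ⟨α, hα, hDle⟩ : ∃ α : ℝ, (∀ y, (rl f y - α) ^ 3 = rl f y - α ∧
      ((rl f y - α) ^ 2) ^ 2 = (rl f y - α) ^ 2) ∧
      av p A (fun y => (rl f y - α) ^ 2) x ≤ 2 * (m * (1 - m)) := by
    by_cases hm2 : 1 / 2 ≤ m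
    · refine ⟨1, fun y => ?_, ?_⟩
      · unfold rl; split_ifs <;> norm_num
      · have : (fun y => (rl f y - 1) ^ 2) = fun y => 1 - rl f y := by
          ext y; unfold rl; split_ifs <;> norm_num
        rw [this, av_sub, av_const, show av p A (fun y => rl f y) x = m from rfl]
        nlinarith
    · refine ⟨0, fun y => ?_, ?_⟩
      · unfold rl; split_ifs <;> norm_num
      · have : (fun y => (rl f y - 0) ^ 2) = fun y => rl f y := by
          ext y; unfold rl; split_ifs <;> norm_num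
        rw [this, show av p A (fun y => rl f y) x = m from rfl]
        push Not at hm2
        nlinarith
  set D := av p A (fun y => (rl f y - α) ^ 2) x with hD
  have hD0 : 0 ≤ D := av_nonneg hp0.le hp1.le (fun y => sq_nonneg _) x
  set Q := av p A (fun y => h y ^ 2) x with hQ
  have hQ0 : 0 ≤ Q := av_nonneg hp0.le hp1.le (fun y => sq_nonneg _) x
  have e1 : av p A (fun y => rl f y * h y) x = av p A (fun y => (rl f y - α) *
      ((rl f y - α) ^ 2 * h y)) x := by
    have : (fun y => (rl f y - α) * ((rl f y - α) ^ 2 * h y))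
        = fun y => rl f y * h y - α * h y := by
      ext y
      have := (hα y).1
      calc (rl f y - α) * ((rl f y - α) ^ 2 * h y) = (rl f y - α) ^ 3 * h y := by ring
        _ = (rl f y - α) * h y := by rw [this]
        _ = _ := by ring
    rw [this, av_sub, av_smul, show av p A (fun y => h y) x = av p A h x from rfl, h0]
    ring
  have cs1 := av_cs hp0.le hp1.le A (fun y => rl f y - α) (fun y => (rl f y - α) ^ 2 * h y) x
  have e2 : (fun y => ((rl f y - α) ^ 2 * h y) ^ 2) = fun y => (rl f y - α) ^ 2 * h y ^ 2 := by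
    ext y; rw [mul_pow, (hα y).2]
  rw [e2] at cs1
  have cs2 := av_cs hp0.le hp1.le A (fun y => (rl f y - α) ^ 2) (fun y => h y ^ 2) x
  have e3 : (fun y => ((rl f y - α) ^ 2) ^ 2) = fun y => (rl f y - α) ^ 2 := by
    ext y; exact (hα y).2
  have e4 : (fun y => (h y ^ 2) ^ 2) = fun y => h y ^ 4 := by
    ext y; ring
  rw [e3, e4] at cs2
  set R := av p A (fun y => (rl f y - α) ^ 2 * h y ^ 2) x with hR
  have hR0 : 0 ≤ R := av_nonneg hp0.le hp1.le (fun y => by positivity) x
  have hR2 : R ^ 2 ≤ D * (C ^ 2 * Q ^ 2) := cs2.trans (mul_le_mul_of_nonneg_left h4 hD0)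
  have hR3 : R ≤ Real.sqrt D * C * Q := by
    have : R ^ 2 ≤ (Real.sqrt D * C * Q) ^ 2 := by
      calc R ^ 2 ≤ D * (C ^ 2 * Q ^ 2) := hR2
        _ = (Real.sqrt D) ^ 2 * (C ^ 2 * Q ^ 2) := by rw [Real.sq_sqrt hD0]
        _ = _ := by ring
    exact le_of_sq_le_sq this (by positivity)
  rw [e1]
  calc (av p A (fun y => (rl f y - α) * ((rl f y - α) ^ 2 * h y)) x) ^ 2 ≤ D * R := cs1
    _ ≤ D * (Real.sqrt D * C * Q) := mul_le_mul_of_nonneg_left hR3 hD0
    _ ≤ (2 * (m * (1 - m))) * (Real.sqrt (2 * (m * (1 - m))) * C * Q) := by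
        have k1 : Real.sqrt D ≤ Real.sqrt (2 * (m * (1 - m))) := Real.sqrt_le_sqrt hDle
        have k2 : Real.sqrt D * C * Q ≤ Real.sqrt (2 * (m * (1 - m))) * C * Q :=
          mul_le_mul_of_nonneg_right (mul_le_mul_of_nonneg_right k1 hC) hQ0
        exact mul_le_mul hDle k2 (by positivity) (by linarith)
    _ = _ := by ring

end Crest.Agent.VN
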