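/-
Row 56 (S0077, S0078).  Core, part 4: the four error terms and the core inequality.
-/
import Crest.Agent.VN.Core3

set_option autoImplicit false

namespace Crest.Agent.VN

open Finset

variable {E : Type*} [Fintype E] [DecidableEq E] {V : Type*} [Fintype V] [DecidableEq V] {p : ℝ}

/-- (T1) -/
theorem T1 (hp0 : 0 < p) (hp1 : p < 1) (st : V → Finset E) (f : (E → Bool) → Bool) (k : ℕ)
    (t : ℝ) {τ M : ℝ} (h0 : 0 < τ) (h1 : τ ≤ 1) (hM : 0 < M) :
    (ex p (fun x => (rl f x * (1 - om p st (rl f) t τ M x)) * gB p st (rl f) k τ x)) ^ 2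
      ≤ (XX p st (rl f) t / M) * GG p st (rl f) k τ := by
  refine (ex_cs hp0.le hp1.le _ _).trans ?_
  rw [ex_gB_sq hp0 hp1]
  refine mul_le_mul_of_nonneg_right ?_ (GG_nonneg st _ k τ)
  refine le_trans (ex_mono hp0.le hp1.le fun x => ?_) (ex_one_sub_om_sq hp0 hp1 h0.le h1 st (rl f) t hM)
  rw [mul_pow, rl_sq]
  have a := rl_le_one f x
  have b := sq_nonneg (1 - om p st (rl f) t τ M x)
  nlinarith

/-- (T2) -/
theorem T2 (hp0 : 0 < p) (hp1 : p < 1) (st : V → Finset E) (f : (E → Bool) → Bool) (k : ℕ)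
    (t : ℝ) {τ M : ℝ} (h0 : 0 < τ) (h1 : τ ≤ 1) (hM : 0 < M) :
    (∑ w, ex p (fun x => (rl f x * (om p st (rl f) t τ M x
        - av p (st w) (om p st (rl f) t τ M) x)) * hw p st (rl f) k τ w x)) ^ 2
      ≤ (Fintype.card V * XX p st (rl f) t / (τ * M ^ 2)) * GG p st (rl f) k τ := by
  refine (sum_ex_cs hp0.le hp1.le _ _ _).trans ?_
  refine mul_le_mul ?_ (sum_ex_hw_sq hp0 hp1 st _ k τ)
    (Finset.sum_nonneg fun w _ => ex_nonneg hp0.le hp1.le fun x => sq_nonneg _) ?_
  · refine le_trans (Finset.sum_le_sum fun w _ => ex_mono hp0.le hp1.le fun x => ?_)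
      (sum_om_var hp0 hp1 h0 h1 st (rl f) t hM)
    rw [mul_pow, rl_sq]
    have a := rl_le_one f x
    have b := sq_nonneg (om p st (rl f) t τ M x - av p (st w) (om p st (rl f) t τ M) x)
    nlinarith
  · have := XX_nonneg hp0.le hp1.le st (rl f) t
    positivity

/-- (T3) -/
theorem T3 (hp0 : 0 < p) (hp1 : p < 1) (st : V → Finset E) (f : (E → Bool) → Bool) (k : ℕ)
    {t τ M : ℝ} (ht : 0 < t) (h0 : 0 < τ) (h1 : τ ≤ 1) (hM : 0 < M) :
    (∑ w, ex p (fun x => (rl f x * (av p (st w) (om p st (rl f) t τ M) x *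
        (1 - ph p st (rl f) t w x))) * hw p st (rl f) k τ w x)) ^ 2
      ≤ (2 * Real.sqrt (2 * t) * Real.sqrt ((4 / (p * (1 - p))) ^ k) * sv p st (rl f)) *
        GG p st (rl f) k τ := by
  set K := (4 / (p * (1 - p))) ^ k with hK
  have hpp : 0 < p * (1 - p) := mul_pos hp0 (by linarith)
  have hK0 : 0 ≤ K := by rw [hK]; positivity
  set C := Real.sqrt K with hC
  have hC0 : 0 ≤ C := Real.sqrt_nonneg _
  have hC2 : C ^ 2 = K := Real.sq_sqrt hK0
  set Av : V → (E → Bool) → ℝ := fun w x => av p (st w) (fun y => rl f y * hw p st (rl f) k τ w y) x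
    with hAv
  set Q : V → (E → Bool) → ℝ := fun w x => av p (st w) (fun y => hw p st (rl f) k τ w y ^ 2) x
    with hQ
  have hQ0 : ∀ w x, 0 ≤ Q w x := fun w x => av_nonneg hp0.le hp1.le (fun y => sq_nonneg _) x
  set c : V → (E → Bool) → ℝ := fun w x => av p (st w) (om p st (rl f) t τ M) x *
        (1 - ph p st (rl f) t w x) with hc
  have hcinv : ∀ w x y, c w (mix (st w) x y) = c w x := by
    intro w x y
    simp only [hc]
    rw [av_mix, inv_of_av_eq (av_ph st (rl f) t w)]
  -- rewrite each term through the conditional average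
  have e1 : ∀ w ∈ (Finset.univ : Finset V),
      ex p (fun x => (rl f x * (av p (st w) (om p st (rl f) t τ M) x *
        (1 - ph p st (rl f) t w x))) * hw p st (rl f) k τ w x)
      = ex p (fun x => c w x * Av w x) := by
    intro w _
    have e2 : (fun x => (rl f x * (av p (st w) (om p st (rl f) t τ M) x *
        (1 - ph p st (rl f) t w x))) * hw p st (rl f) k τ w x)
        = fun x => c w x * (rl f x * hw p st (rl f) k τ w x) := by
      ext x; simp only [hc]; ring
    rw [e2, ← ex_av hp0 hp1 (st w)]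
    congr 1
    ext x
    exact av_mul_inv (hcinv w) _ x
  rw [Finset.sum_congr rfl e1]
  -- bounds on the coefficient
  have hc0 : ∀ w x, 0 ≤ c w x := by
    intro w x
    refine mul_nonneg (av_nonneg hp0.le hp1.le (om_nonneg st _ t τ M) x) ?_
    have := ph_le_one (p := p) st (rl f) t w x
    linarith
  have hom1 : ∀ w x, av p (st w) (om p st (rl f) t τ M) x ≤ 1 := by
    intro w x
    have := av_mono hp0.le hp1.le (A := st w) (G := fun _ => 1)
      (om_le_one hp0.le hp1.le h0.le h1 st (rl f) t hM) x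
    rwa [av_const] at this
  -- pointwise bound
  set a : V → (E → Bool) → ℝ := fun w x =>
    if t ≤ vv p st (rl f) w x then 0 else Real.sqrt ((2 * vv p st (rl f) w x) *
      Real.sqrt (2 * vv p st (rl f) w x) * C) with ha
  have hpt : ∀ w x, |c w x * Av w x| ≤ a w x * Real.sqrt (Q w x) := by
    intro w x
    have hv0 := vv_nonneg hp0.le hp1.le st f w x
    by_cases hcr : t ≤ vv p st (rl f) w x
    · have : c w x = 0 := by
        simp only [hc, ph, if_pos hcr]; ring
      rw [this]
      simp only [ha, if_pos hcr]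
      simp
    · have hc1 : c w x ≤ 1 := by
        simp only [hc, ph, if_neg hcr]
        have := hom1 w x
        linarith
      have hb := av_mul_small hp0 hp1 (st w) f (hw p st (rl f) k τ w) x
        (av_hw hp0 hp1 st (rl f) k τ w x) C hC0 (by rw [hC2]; exact hw_bonami hp0 hp1 st (rl f) k τ w x)
      have hb' : |Av w x| ≤ Real.sqrt ((2 * vv p st (rl f) w x) *
          Real.sqrt (2 * vv p st (rl f) w x) * C) * Real.sqrt (Q w x) := by
        rw [← Real.sqrt_mul (by positivity)]
        exact Real.abs_le_sqrt hb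
      rw [abs_mul, abs_of_nonneg (hc0 w x)]
      simp only [ha, if_neg hcr]
      calc c w x * |Av w x| ≤ 1 * |Av w x| := mul_le_mul_of_nonneg_right hc1 (abs_nonneg _)
        _ = |Av w x| := one_mul _
        _ ≤ _ := hb'
  have hsum : |∑ w, ex p (fun x => c w x * Av w x)| ≤ ∑ w, ex p (fun x => a w x * Real.sqrt (Q w x)) := by
    refine (Finset.abs_sum_le_sum_abs _ _).trans (Finset.sum_le_sum fun w _ => ?_)
    rw [abs_le]
    constructor
    · have := ex_mono hp0.le hp1.le (F := fun x => -1 * (a w x * Real.sqrt (Q w x)))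
        (G := fun x => c w x * Av w x) (fun x => by
          have := (abs_le.mp (hpt w x)).1; linarith)
      rw [ex_mul_const] at this
      linarith
    · exact ex_mono hp0.le hp1.le fun x => (abs_le.mp (hpt w x)).2
  have hcs := sum_ex_cs hp0.le hp1.le (Finset.univ : Finset V) a (fun w x => Real.sqrt (Q w x))
  have hA : ∑ w, ex p (fun x => a w x ^ 2) ≤ 2 * Real.sqrt (2 * t) * C * sv p st (rl f) := by
    unfold sv
    rw [Finset.mul_sum]
    refine Finset.sum_le_sum fun w _ => ?_
    rw [← ex_mul_const]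
    refine ex_mono hp0.le hp1.le fun x => ?_
    have hv0 := vv_nonneg hp0.le hp1.le st f w x
    simp only [ha]
    split_ifs with hcr
    · have : 0 ≤ 2 * Real.sqrt (2 * t) * C * vv p st (rl f) w x := by positivity
      simpa using this
    · push Not at hcr
      rw [Real.sq_sqrt (by positivity)]
      have : Real.sqrt (2 * vv p st (rl f) w x) ≤ Real.sqrt (2 * t) :=
        Real.sqrt_le_sqrt (by linarith)
      calc 2 * vv p st (rl f) w x * Real.sqrt (2 * vv p st (rl f) w x) * C
          ≤ 2 * vv p st (rl f) w x * Real.sqrt (2 * t) * C :=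
            mul_le_mul_of_nonneg_right (mul_le_mul_of_nonneg_left this (by positivity)) hC0
        _ = _ := by ring
  have hB : ∑ w, ex p (fun x => Real.sqrt (Q w x) ^ 2) ≤ GG p st (rl f) k τ := by
    refine le_trans (Finset.sum_le_sum fun w _ => ?_) (sum_ex_hw_sq hp0 hp1 st (rl f) k τ)
    have : (fun x => Real.sqrt (Q w x) ^ 2) = av p (st w) (fun y => hw p st (rl f) k τ w y ^ 2) := by
      ext x; exact Real.sq_sqrt (hQ0 w x)
    rw [this, ex_av hp0 hp1]
  calc (∑ w, ex p (fun x => c w x * Av w x)) ^ 2 = |∑ w, ex p (fun x => c w x * Av w x)| ^ 2 :=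
        (sq_abs _).symm
    _ ≤ (∑ w, ex p (fun x => a w x * Real.sqrt (Q w x))) ^ 2 :=
        pow_le_pow_left₀ (abs_nonneg _) hsum 2
    _ ≤ _ := hcs
    _ ≤ _ := mul_le_mul hA hB (Finset.sum_nonneg fun w _ => ex_nonneg hp0.le hp1.le fun x =>
        sq_nonneg _) (by
          have : 0 ≤ sv p st (rl f) := Finset.sum_nonneg fun w _ =>
            ex_nonneg hp0.le hp1.le fun x => vv_nonneg hp0.le hp1.le st f w x
          positivity)

/-- (T4) -/
theorem T4 (hp0 : 0 < p) (hp1 : p < 1) (st : V → Finset E) (f : (E → Bool) → Bool)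
    (hsym : SymStar st f) (k : ℕ) {t β τ : ℝ} (h0 : 0 < τ) (h1 : τ ≤ 1)
    (hn : 2 ≤ Fintype.card V) (hchern : Real.exp (-(τ * (Fintype.card V - 1) / 4)) ≤ β / 2)
    {M : ℝ} (hMd : M = τ ^ 2 * (Fintype.card V - 1) * β / 8) :
    (∑ w, ex p (fun x => (rl f x * (av p (st w) (om p st (rl f) t τ M) x *
        ph p st (rl f) t w x)) * hw p st (rl f) k τ w x)) ^ 2
      ≤ (2 * β * XX p st (rl f) t) * GG p st (rl f) k τ := by
  have hβ : 0 < β := by
    have := Real.exp_pos (-(τ * ((Fintype.card V : ℝ) - 1) / 4))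
    linarith
  have hM : 0 < M := by
    have h2 : (2:ℝ) ≤ Fintype.card V := by exact_mod_cast hn
    have : 0 < (Fintype.card V : ℝ) - 1 := by linarith
    rw [hMd]; positivity
  set ζ : V → (E → Bool) → ℝ := fun w x => rl f x * (av p (st w) (om p st (rl f) t τ M) x *
        ph p st (rl f) t w x) with hζ
  have hom0 : ∀ w x, 0 ≤ av p (st w) (om p st (rl f) t τ M) x := fun w x =>
    av_nonneg hp0.le hp1.le (om_nonneg st _ t τ M) x
  have hom1 : ∀ w x, av p (st w) (om p st (rl f) t τ M) x ≤ 1 := by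
    intro w x
    have := av_mono hp0.le hp1.le (A := st w) (G := fun _ => 1)
      (om_le_one hp0.le hp1.le h0.le h1 st (rl f) t hM) x
    rwa [av_const] at this
  have hζ0 : ∀ w x, 0 ≤ ζ w x := fun w x =>
    mul_nonneg (rl_nonneg f x) (mul_nonneg (hom0 w x) (ph_nonneg st _ t w x))
  have hζφ : ∀ w x, ζ w x ≤ ph p st (rl f) t w x := by
    intro w x
    have a := rl_le_one f x
    have a0 := rl_nonneg f x
    have b := hom1 w x
    have b0 := hom0 w x
    have c := ph_nonneg (p := p) st (rl f) t w x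
    calc ζ w x ≤ 1 * (av p (st w) (om p st (rl f) t τ M) x * ph p st (rl f) t w x) :=
          mul_le_mul_of_nonneg_right a (mul_nonneg b0 c)
      _ ≤ 1 * (1 * ph p st (rl f) t w x) :=
          mul_le_mul_of_nonneg_left (mul_le_mul_of_nonneg_right b c) (by norm_num)
      _ = _ := by ring
  have hone : ∀ w, ex p (fun x => ζ w x * tn p st τ Finset.univ (ζ w) x)
      ≤ β * ex p (ph p st (rl f) t w) := by
    intro w
    rw [← ex_mul_const]
    refine ex_mono hp0.le hp1.le fun x => ?_
    have k1 : tn p st τ Finset.univ (ζ w) x ≤ tn p st τ Finset.univ (ph p st (rl f) t w) x :=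
      tn_mono hp0.le hp1.le h0.le h1 st _ (hζφ w) x
    by_cases hx : β ≤ tn p st τ Finset.univ (ph p st (rl f) t w) x
    · have k2 := av_om_eq_zero hp0 hp1 st f hsym h0 h1 hn hchern w x hx
      rw [← hMd] at k2
      have : ζ w x = 0 := by simp only [hζ]; rw [k2]; ring
      rw [this, zero_mul]
      exact mul_nonneg hβ.le (ph_nonneg st _ t w x)
    · push Not at hx
      have k3 : 0 ≤ tn p st τ Finset.univ (ζ w) x :=
        tn_nonneg hp0.le hp1.le h0.le h1 st _ (hζ0 w) x
      calc ζ w x * tn p st τ Finset.univ (ζ w) x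
          ≤ ph p st (rl f) t w x * tn p st τ Finset.univ (ζ w) x :=
            mul_le_mul_of_nonneg_right (hζφ w x) k3
        _ ≤ ph p st (rl f) t w x * β :=
            mul_le_mul_of_nonneg_left (k1.trans hx.le) (ph_nonneg st _ t w x)
        _ = _ := by ring
  have hterm : ∀ w, |ex p (fun x => ζ w x * hw p st (rl f) k τ w x)|
      ≤ Real.sqrt (2 * β * ex p (ph p st (rl f) t w)) *
        Real.sqrt (ex p (fun x => hw p st (rl f) k τ w x ^ 2)) := by
    intro w
    have k1 := ex_mul_le_tn hp0 hp1 st h0.le h1 Finset.univ (ζ w) (hw p st (rl f) k τ w)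
      (fun S hS => hw_supp hp0 hp1 st (rl f) k τ w S hS)
    have k2 : 0 ≤ ex p (fun x => hw p st (rl f) k τ w x ^ 2) :=
      ex_nonneg hp0.le hp1.le fun x => sq_nonneg _
    have k3 : 0 ≤ ex p (ph p st (rl f) t w) :=
      ex_nonneg hp0.le hp1.le fun x => ph_nonneg st _ t w x
    rw [← Real.sqrt_mul (by positivity)]
    refine Real.abs_le_sqrt (k1.trans ?_)
    calc ex p (fun x => ζ w x * tn p st τ Finset.univ (ζ w) x) *
          (2 * ex p (fun x => hw p st (rl f) k τ w x ^ 2))
        ≤ (β * ex p (ph p st (rl f) t w)) * (2 * ex p (fun x => hw p st (rl f) k τ w x ^ 2)) :=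
          mul_le_mul_of_nonneg_right (hone w) (by positivity)
      _ = _ := by ring
  have hcs := Finset.sum_mul_sq_le_sq_mul_sq (Finset.univ : Finset V)
    (fun w => Real.sqrt (2 * β * ex p (ph p st (rl f) t w)))
    (fun w => Real.sqrt (ex p (fun x => hw p st (rl f) k τ w x ^ 2)))
  have hA : ∑ w : V, Real.sqrt (2 * β * ex p (ph p st (rl f) t w)) ^ 2
      = 2 * β * XX p st (rl f) t := by
    unfold XX
    rw [Finset.mul_sum]
    refine Finset.sum_congr rfl fun w _ => Real.sq_sqrt ?_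
    have k3 : 0 ≤ ex p (ph p st (rl f) t w) :=
      ex_nonneg hp0.le hp1.le fun x => ph_nonneg st _ t w x
    positivity
  have hB : ∑ w : V, Real.sqrt (ex p (fun x => hw p st (rl f) k τ w x ^ 2)) ^ 2
      ≤ GG p st (rl f) k τ := by
    refine le_trans (le_of_eq ?_) (sum_ex_hw_sq hp0 hp1 st (rl f) k τ)
    exact Finset.sum_congr rfl fun w _ => Real.sq_sqrt (ex_nonneg hp0.le hp1.le fun x => sq_nonneg _)
  have hX := XX_nonneg hp0.le hp1.le st (rl f) t
  calc (∑ w, ex p (fun x => ζ w x * hw p st (rl f) k τ w x)) ^ 2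
      = |∑ w, ex p (fun x => ζ w x * hw p st (rl f) k τ w x)| ^ 2 := (sq_abs _).symm
    _ ≤ (∑ w, Real.sqrt (2 * β * ex p (ph p st (rl f) t w)) *
        Real.sqrt (ex p (fun x => hw p st (rl f) k τ w x ^ 2))) ^ 2 := by
        refine pow_le_pow_left₀ (abs_nonneg _) ?_ 2
        exact (Finset.abs_sum_le_sum_abs _ _).trans (Finset.sum_le_sum fun w _ => hterm w)
    _ ≤ _ := hcs
    _ ≤ _ := by
        rw [hA]
        exact mul_le_mul_of_nonneg_left hB (by positivity)

/-- the bad mass -/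
theorem GG_le (hp0 : 0 < p) (hp1 : p < 1) (st : V → Finset E) (f : (E → Bool) → Bool)
    (hsym : SymStar st f) (k : ℕ) {t β τ : ℝ} (ht : 0 < t) (h0 : 0 < τ) (h1 : τ ≤ 1)
    (hn : 2 ≤ Fintype.card V) (hchern : Real.exp (-(τ * (Fintype.card V - 1) / 4)) ≤ β / 2)
    {M : ℝ} (hMd : M = τ ^ 2 * (Fintype.card V - 1) * β / 8) :
    GG p st (rl f) k τ ≤ 4 * (XX p st (rl f) t / M
      + Fintype.card V * XX p st (rl f) t / (τ * M ^ 2)
      + 2 * Real.sqrt (2 * t) * Real.sqrt ((4 / (p * (1 - p))) ^ k) * sv p st (rl f)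
      + 2 * β * XX p st (rl f) t) := by
  have hβ : 0 < β := by
    have := Real.exp_pos (-(τ * ((Fintype.card V : ℝ) - 1) / 4))
    linarith
  have hM : 0 < M := by
    have h2 : (2:ℝ) ≤ Fintype.card V := by exact_mod_cast hn
    have : 0 < (Fintype.card V : ℝ) - 1 := by linarith
    rw [hMd]; positivity
  have b1 := T1 hp0 hp1 st f k t h0 h1 hM
  have b2 := T2 hp0 hp1 st f k t h0 h1 hM
  have b3 := T3 hp0 hp1 st f k ht h0 h1 hM
  have b4 := T4 hp0 hp1 st f hsym k (t := t) h0 h1 hn hchern hMd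
  set A1 := XX p st (rl f) t / M
  set A2 := Fintype.card V * XX p st (rl f) t / (τ * M ^ 2)
  set A3 := 2 * Real.sqrt (2 * t) * Real.sqrt ((4 / (p * (1 - p))) ^ k) * sv p st (rl f)
  set A4 := 2 * β * XX p st (rl f) t
  set x1 := ex p (fun x => (rl f x * (1 - om p st (rl f) t τ M x)) * gB p st (rl f) k τ x)
    with hx1
  set x2 := ∑ w, ex p (fun x => (rl f x * (om p st (rl f) t τ M x
        - av p (st w) (om p st (rl f) t τ M) x)) * hw p st (rl f) k τ w x) with hx2
  set x3 := ∑ w, ex p (fun x => (rl f x * (av p (st w) (om p st (rl f) t τ M) x *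
        (1 - ph p st (rl f) t w x))) * hw p st (rl f) k τ w x) with hx3
  set x4 := ∑ w, ex p (fun x => (rl f x * (av p (st w) (om p st (rl f) t τ M) x *
        ph p st (rl f) t w x)) * hw p st (rl f) k τ w x) with hx4
  have hG : GG p st (rl f) k τ = x1 + x2 + x3 + x4 := by
    rw [← ex_g_gB hp0 hp1, hx1, hx2, hx3, hx4, add_assoc, add_assoc, ← Finset.sum_add_distrib,
      ← Finset.sum_add_distrib]
    have e1 : ∀ w, ex p (fun x => (rl f x * (om p st (rl f) t τ M x
        - av p (st w) (om p st (rl f) t τ M) x)) * hw p st (rl f) k τ w x) +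
        (ex p (fun x => (rl f x * (av p (st w) (om p st (rl f) t τ M) x *
        (1 - ph p st (rl f) t w x))) * hw p st (rl f) k τ w x) +
        ex p (fun x => (rl f x * (av p (st w) (om p st (rl f) t τ M) x *
        ph p st (rl f) t w x)) * hw p st (rl f) k τ w x))
        = ex p (fun x => (rl f x * om p st (rl f) t τ M x) * hw p st (rl f) k τ w x) := by
      intro w
      rw [← ex_add, ← ex_add]
      congr 1; ext x; ring
    rw [Finset.sum_congr rfl fun w _ => e1 w, ← ex_sum, ← ex_add]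
    congr 1
    ext x
    rw [← Finset.mul_sum, sum_hw]
    ring
  have hG0 := GG_nonneg (p := p) st (rl f) k τ
  set G := GG p st (rl f) k τ
  have hsq : G ^ 2 ≤ (4 * (A1 + A2 + A3 + A4)) * G := by
    have e5 : G ^ 2 ≤ 4 * (x1 ^ 2 + x2 ^ 2 + x3 ^ 2 + x4 ^ 2) := by
      rw [hG]
      nlinarith [sq_nonneg (x1 - x2), sq_nonneg (x1 - x3), sq_nonneg (x1 - x4),
        sq_nonneg (x2 - x3), sq_nonneg (x2 - x4), sq_nonneg (x3 - x4)]
    nlinarith
  rcases hG0.eq_or_lt with h | h
  · rw [← h]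
    have hX := XX_nonneg hp0.le hp1.le st (rl f) t
    have hsv : 0 ≤ sv p st (rl f) := Finset.sum_nonneg fun w _ =>
      ex_nonneg hp0.le hp1.le fun x => vv_nonneg hp0.le hp1.le st f w x
    have a1 : 0 ≤ A1 := by positivity
    have a2 : 0 ≤ A2 := by positivity
    have a3 : 0 ≤ A3 := by positivity
    have a4 : 0 ≤ A4 := by positivity
    positivity
  · have : G * G ≤ (4 * (A1 + A2 + A3 + A4)) * G := by rw [← sq]; exact hsq
    exact le_of_mul_le_mul_right this h

end Crest.Agent.VN
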