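/-
Row 56 (S0077, S0078).  The core inequality.
-/
import Crest.Agent.VN.Core4

set_option autoImplicit false

namespace Crest.Agent.VN

open Finset

variable {E : Type*} [Fintype E] [DecidableEq E] {V : Type*} [Fintype V] [DecidableEq V] {p : ℝ}

theorem var_le_mass (hp0 : 0 < p) (hp1 : p < 1) (st : V → Finset E) (f : (E → Bool) → Bool)
    (k : ℕ) {τ : ℝ} (h0 : 0 < τ) {emin : ℝ} (hemin0 : 0 < emin)
    (hemin : ∀ S : Finset E, S.Nonempty → (∀ u, (S ∩ st u).card = 0 ∨ k < (S ∩ st u).card) →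
      emin ≤ (S.card : ℝ)) :
    ex p (rl f) * (1 - ex p (rl f))
      ≤ GG p st (rl f) k τ + 2 * τ * sv p st (rl f) + 1 / emin * infl p (rl f) := by
  have hvar : ex p (rl f) * (1 - ex p (rl f))
      = ∑ S ∈ Finset.univ.erase (∅ : Finset E), fc p (rl f) S ^ 2 := by
    rw [← var_eq hp0 hp1]
    have : (fun x => rl f x ^ 2) = rl f := by ext x; exact rl_sq f x
    rw [this]; ring
  rw [hvar, sv_eq hp0 hp1]
  unfold GG infl
  have hGG : ∑ S ∈ BB st k τ, fc p (rl f) S ^ 2
      = ∑ S, if S ∈ BB st k τ then fc p (rl f) S ^ 2 else 0 := by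
    rw [← Finset.sum_filter, Finset.filter_univ_mem]
  rw [hGG, Finset.mul_sum, Finset.mul_sum, ← Finset.sum_add_distrib, ← Finset.sum_add_distrib]
  have hnn : ∀ S : Finset E, 0 ≤ (if S ∈ BB st k τ then fc p (rl f) S ^ 2 else 0) +
      2 * τ * (((vs st S).card : ℝ) * fc p (rl f) S ^ 2) +
      1 / emin * ((S.card : ℝ) * fc p (rl f) S ^ 2) := by
    intro S
    have : 0 ≤ (if S ∈ BB st k τ then fc p (rl f) S ^ 2 else 0) := by
      split_ifs <;> positivity
    positivity
  refine le_trans (Finset.sum_le_sum fun S hS => ?_)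
    (Finset.sum_le_sum_of_subset_of_nonneg (Finset.erase_subset _ _) fun S _ _ => hnn S)
  have hSne : S.Nonempty := Finset.nonempty_iff_ne_empty.mpr (Finset.mem_erase.mp hS).1
  have hq : 0 ≤ fc p (rl f) S ^ 2 := sq_nonneg _
  by_cases hB : S ∈ BB st k τ
  · rw [if_pos hB]
    have : 0 ≤ 2 * τ * (((vs st S).card : ℝ) * fc p (rl f) S ^ 2) +
      1 / emin * ((S.card : ℝ) * fc p (rl f) S ^ 2) := by positivity
    linarith
  · rw [if_neg hB]
    by_cases hv : τ * ((vs st S).card : ℝ) ≤ 1 / 2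
    · have hld : ¬ (ld st k S).Nonempty := by
        intro hne
        apply hB
        unfold BB
        exact Finset.mem_filter.mpr ⟨Finset.mem_univ _, hv, hne⟩
      rw [Finset.not_nonempty_iff_eq_empty] at hld
      have hdeg : ∀ u, (S ∩ st u).card = 0 ∨ k < (S ∩ st u).card := by
        intro u
        by_contra hcon
        push Not at hcon
        have : u ∈ ld st k S := by
          unfold ld
          exact Finset.mem_filter.mpr ⟨Finset.mem_univ _, Nat.one_le_iff_ne_zero.mpr hcon.1, hcon.2⟩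
        rw [hld] at this
        simp at this
      have h3 := hemin S hSne hdeg
      have h4 : fc p (rl f) S ^ 2 ≤ 1 / emin * ((S.card : ℝ) * fc p (rl f) S ^ 2) := by
        have : 1 ≤ 1 / emin * (S.card : ℝ) := by
          rw [one_div, inv_mul_eq_div, le_div_iff₀ hemin0]; linarith
        nlinarith
      have h5 : 0 ≤ 2 * τ * (((vs st S).card : ℝ) * fc p (rl f) S ^ 2) := by positivity
      linarith
    · push Not at hv
      have h4 : fc p (rl f) S ^ 2 ≤ 2 * τ * (((vs st S).card : ℝ) * fc p (rl f) S ^ 2) := by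
        nlinarith
      have h5 : 0 ≤ 1 / emin * ((S.card : ℝ) * fc p (rl f) S ^ 2) := by positivity
      linarith

theorem core (st : V → Finset E) (r : ℕ)
    (hr : ∀ e, (Finset.univ.filter (fun u : V => e ∈ st u)).card ≤ r)
    (hp0 : 0 < p) (hp1 : p < 1) (f : (E → Bool) → Bool) (hsym : SymStar st f)
    (hn : 2 ≤ Fintype.card V)
    (k : ℕ) (emin : ℝ) (hemin0 : 0 < emin)
    (hemin : ∀ S : Finset E, S.Nonempty → (∀ u, (S ∩ st u).card = 0 ∨ k < (S ∩ st u).card) →
      emin ≤ (S.card : ℝ))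
    (t β τ : ℝ) (ht : 0 < t) (hβ : 0 < β) (hτ : 0 < τ) (hτ1 : τ ≤ 1)
    (hchern : Real.exp (-(τ * (Fintype.card V - 1) / 4)) ≤ β / 2) :
    ex p (rl f) * (1 - ex p (rl f))
      ≤ infl p (rl f) *
        (1 / emin + 2 * r * τ +
          4 * r * (16 / (t * τ ^ 2 * Fintype.card V * β)
            + 256 / (t * τ ^ 5 * Fintype.card V * β ^ 2)
            + 3 * (4 / (p * (1 - p))) ^ ((k : ℝ) / 2) * Real.sqrt t
            + 2 * β / t)) := by
  set n : ℝ := (Fintype.card V : ℝ) with hnd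
  have hn2 : (2:ℝ) ≤ n := by rw [hnd]; exact_mod_cast hn
  set I := infl p (rl f) with hI
  have hI0 : 0 ≤ I := Finset.sum_nonneg fun S _ => by positivity
  set M := τ ^ 2 * (n - 1) * β / 8 with hM
  have hM1 : τ ^ 2 * n * β / 16 ≤ M := by
    have : 0 ≤ τ ^ 2 * β := by positivity
    rw [hM]; nlinarith
  have hM0 : 0 < τ ^ 2 * n * β / 16 := by positivity
  have hMp : 0 < M := lt_of_lt_of_le hM0 hM1
  have hsv := sv_le hp0 hp1 st r hr f
  have hsv0 : 0 ≤ sv p st (rl f) := Finset.sum_nonneg fun w _ =>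
    ex_nonneg hp0.le hp1.le fun x => vv_nonneg hp0.le hp1.le st f w x
  have hX : XX p st (rl f) t ≤ r * I / t :=
    (XX_le hp0.le hp1.le st f ht).trans (div_le_div_of_nonneg_right hsv ht.le)
  have hX0 := XX_nonneg hp0.le hp1.le st (rl f) t
  have hvm := var_le_mass hp0 hp1 st f k hτ hemin0 hemin
  have hGG := GG_le hp0 hp1 st f hsym k ht hτ hτ1 hn hchern (M := M) rfl
  have hrI : 0 ≤ (r:ℝ) * I := by positivity
  -- bound 1
  have c1 : XX p st (rl f) t / M ≤ r * I * (16 / (t * τ ^ 2 * n * β)) := by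
    calc XX p st (rl f) t / M ≤ (r * I / t) / (τ ^ 2 * n * β / 16) :=
          div_le_div₀ (by positivity) hX hM0 hM1
      _ = _ := by field_simp
  have c2 : n * XX p st (rl f) t / (τ * M ^ 2) ≤ r * I * (256 / (t * τ ^ 5 * n * β ^ 2)) := by
    calc n * XX p st (rl f) t / (τ * M ^ 2)
        ≤ (n * (r * I / t)) / (τ * (τ ^ 2 * n * β / 16) ^ 2) := by
          refine div_le_div₀ (by positivity) (mul_le_mul_of_nonneg_left hX (by positivity))
            (by positivity) ?_
          exact mul_le_mul_of_nonneg_left (pow_le_pow_left₀ hM0.le hM1 2) hτ.le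
      _ = _ := by field_simp; ring
  have hK0 : 0 < 4 / (p * (1 - p)) := by
    have : 0 < p * (1 - p) := mul_pos hp0 (by linarith)
    positivity
  have hKr : Real.sqrt ((4 / (p * (1 - p))) ^ k) = (4 / (p * (1 - p))) ^ ((k : ℝ) / 2) := by
    rw [Real.sqrt_eq_rpow, ← Real.rpow_natCast, ← Real.rpow_mul hK0.le]
    congr 1; ring
  have c3 : 2 * Real.sqrt (2 * t) * Real.sqrt ((4 / (p * (1 - p))) ^ k) * sv p st (rl f)
      ≤ r * I * (3 * (4 / (p * (1 - p))) ^ ((k : ℝ) / 2) * Real.sqrt t) := by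
    rw [hKr, Real.sqrt_mul (by norm_num)]
    have hk : 0 ≤ (4 / (p * (1 - p))) ^ ((k : ℝ) / 2) := Real.rpow_nonneg hK0.le _
    have hs2 : Real.sqrt 2 ≤ 3 / 2 := by
      rw [Real.sqrt_le_left (by norm_num)]; norm_num
    have hst := Real.sqrt_nonneg t
    calc 2 * (Real.sqrt 2 * Real.sqrt t) * (4 / (p * (1 - p))) ^ ((k : ℝ) / 2) * sv p st (rl f)
        ≤ 2 * (3 / 2 * Real.sqrt t) * (4 / (p * (1 - p))) ^ ((k : ℝ) / 2) * (r * I) := by
          gcongr
      _ = _ := by ring
  have c4 : 2 * β * XX p st (rl f) t ≤ r * I * (2 * β / t) := by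
    calc 2 * β * XX p st (rl f) t ≤ 2 * β * (r * I / t) :=
          mul_le_mul_of_nonneg_left hX (by positivity)
      _ = _ := by field_simp
  have c5 : 2 * τ * sv p st (rl f) ≤ I * (2 * r * τ) := by
    calc 2 * τ * sv p st (rl f) ≤ 2 * τ * (r * I) := mul_le_mul_of_nonneg_left hsv (by positivity)
      _ = _ := by ring
  calc ex p (rl f) * (1 - ex p (rl f))
      ≤ GG p st (rl f) k τ + 2 * τ * sv p st (rl f) + 1 / emin * I := hvm
    _ ≤ 4 * (r * I * (16 / (t * τ ^ 2 * n * β)) + r * I * (256 / (t * τ ^ 5 * n * β ^ 2))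
          + r * I * (3 * (4 / (p * (1 - p))) ^ ((k : ℝ) / 2) * Real.sqrt t)
          + r * I * (2 * β / t)) + I * (2 * r * τ) + 1 / emin * I := by
        linarith
    _ = _ := by ring

end Crest.Agent.VN
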