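/-
Row 56 (S0077, S0078).  M5: instance facts (edge slots, hyperedge slots, influence).
-/
import Crest.Agent.VN.Core1
import Crest.Prelude.Def_FinProb
import Crest.Prelude.Def_RandomGraph
import Crest.Prelude.Def_HypergraphCube

set_option autoImplicit false
set_option linter.unusedSectionVars false
set_option linter.unusedVariables false

namespace Crest.Agent.VN

open Finset

variable {E : Type*} [Fintype E] [DecidableEq E]

/-! ### influence -/

namespace M5

theorem ex_coord (p : ℝ) (e : E) (G : Bool → ℝ) :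
    ex p (fun y : E → Bool => G (y e)) = p * G true + (1 - p) * G false := by
  have h := ex_prod (E := E) p (fun e' b => if e' = e then G b else 1)
  have h1 : (fun y : E → Bool => G (y e)) = fun y => ∏ e', (if e' = e then G (y e') else 1) := by
    ext y
    rw [Finset.prod_ite_eq' Finset.univ e (fun e' => G (y e')), if_pos (Finset.mem_univ e)]
  rw [h1, h]
  rw [← Finset.mul_prod_erase Finset.univ _ (Finset.mem_univ e)]
  rw [Finset.prod_eq_one, mul_one]
  · simp
  · intro e' he'
    have : e' ≠ e := Finset.ne_of_mem_erase he'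
    simp [this]

theorem mix_singleton (e : E) (x y : E → Bool) : mix {e} x y = Function.update x e (y e) := by
  ext e'
  unfold mix
  by_cases h : e' = e
  · subst h; simp
  · simp [h]

theorem av_singleton (p : ℝ) (e : E) (F : (E → Bool) → ℝ) (x : E → Bool) :
    av p {e} F x = p * F (Function.update x e true) + (1 - p) * F (Function.update x e false) := by
  unfold av
  simp_rw [mix_singleton]
  exact ex_coord p e (fun b => F (Function.update x e b))

theorem ex_indicator (p : ℝ) (A : Set (E → Bool)) (F : (E → Bool) → ℝ)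
    (h1 : ∀ x, x ∈ A → F x = 1) (h0 : ∀ x, x ∉ A → F x = 0) :
    ex p F = Crest.FinProb.bernoulliProb p A := by
  unfold ex Crest.FinProb.bernoulliProb
  rw [Finset.sum_filter]
  refine Finset.sum_congr rfl fun x _ => ?_
  split_ifs with h
  · rw [h1 x h, mul_one]; rfl
  · rw [h0 x h, mul_zero]

theorem ex_pivot (p : ℝ) (hp0 : 0 < p) (hp1 : p < 1) (f : (E → Bool) → Bool) (e : E) :
    ex p (fun x => ((if f x then (1:ℝ) else 0) - av p {e} (fun x => if f x then (1:ℝ) else 0) x) ^ 2)
      = p * (1 - p) * Crest.FinProb.bernoulliProb p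
        {x | f (Function.update x e true) ≠ f (Function.update x e false)} := by
  classical
  -- D x ^ 2 indicator of pivotality
  have hD := ex_indicator p {x : E → Bool | f (Function.update x e true) ≠ f (Function.update x e false)}
    (fun x => ((if f (Function.update x e true) then (1:ℝ) else 0)
      - (if f (Function.update x e false) then (1:ℝ) else 0)) ^ 2)
    (by
      intro x hx
      simp only [Set.mem_ofPred_eq] at hx
      cases h1 : f (Function.update x e true) <;> cases h2 : f (Function.update x e false) <;>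
        simp_all)
    (by
      intro x hx
      simp only [Set.mem_ofPred_eq, not_not] at hx
      simp [hx])
  rw [← hD, ← ex_mul_const, ← ex_av hp0 hp1 {e}]
  congr 1
  ext x
  rw [av_singleton]
  rw [av_singleton, av_singleton]
  simp only [Function.update_idem]
  ring

end M5

/-- Fourier influence = p(1-p) × sum of pivotal probabilities (general E). -/
theorem infl_eq (p : ℝ) (hp0 : 0 < p) (hp1 : p < 1) (f : (E → Bool) → Bool) :
    infl p (fun x => if f x then (1:ℝ) else 0) =
      p * (1 - p) * ∑ e, Crest.FinProb.bernoulliProb p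
        {x | f (Function.update x e true) ≠ f (Function.update x e false)} := by
  rw [Finset.mul_sum]
  rw [← Finset.sum_congr rfl fun e _ => M5.ex_pivot p hp0 hp1 f e]
  simp_rw [ex_sub_av_sq hp0 hp1]
  rw [Finset.sum_comm]
  unfold infl
  refine Finset.sum_congr rfl fun S _ => ?_
  simp only [Finset.disjoint_singleton_right]
  have : ∀ e : E, (if e ∉ S then (0:ℝ) else fc p (fun x => if f x then (1:ℝ) else 0) S ^ 2)
      = if e ∈ S then fc p (fun x => if f x then (1:ℝ) else 0) S ^ 2 else 0 := by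
    intro e; by_cases h : e ∈ S <;> simp [h]
  rw [Finset.sum_congr rfl fun e _ => this e, ← Finset.sum_filter, Finset.sum_const, nsmul_eq_mul]
  simp

/-! ### stars -/

/-- stars of the r-uniform hypergraph -/
def hst (n r : ℕ) (u : Fin n) : Finset (Crest.CombinatoricsR.HypergraphCube.HyperedgeSlot n r) :=
  Finset.univ.filter (fun e => u ∈ e.1)

/-- stars of the complete graph -/
def gst (n : ℕ) (u : Fin n) : Finset (Crest.CombinatoricsR.RandomGraph.EdgeSlot n) :=
  Finset.univ.filter (fun e => u ∈ e.1)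

namespace M5

open Crest.CombinatoricsR.HypergraphCube Crest.CombinatoricsR.RandomGraph

theorem mem_relabelSlot {n r : ℕ} (σ : Equiv.Perm (Fin n)) (e : HyperedgeSlot n r) (v : Fin n) :
    v ∈ (relabelSlot σ e).1 ↔ σ.symm v ∈ e.1 := by
  unfold relabelSlot
  simp only [Finset.mem_map, Equiv.coe_toEmbedding]
  constructor
  · rintro ⟨a, ha, rfl⟩; simpa using ha
  · intro h; exact ⟨σ.symm v, h, by simp⟩

/-- permutation of hyperedge slots induced by a vertex permutation -/
def hperm (n r : ℕ) (σ : Equiv.Perm (Fin n)) : Equiv.Perm (HyperedgeSlot n r) where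
  toFun := relabelSlot σ
  invFun := relabelSlot σ.symm
  left_inv := by
    intro e
    apply Subtype.ext
    ext v
    rw [mem_relabelSlot, mem_relabelSlot]; simp
  right_inv := by
    intro e
    apply Subtype.ext
    ext v
    rw [mem_relabelSlot, mem_relabelSlot]; simp

/-- permutation of edge slots induced by a vertex permutation -/
def gperm (n : ℕ) (σ : Equiv.Perm (Fin n)) : Equiv.Perm (EdgeSlot n) where
  toFun := fun e => ⟨Sym2.map σ e.1, by
    rw [Sym2.isDiag_map σ.injective]; exact e.2⟩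
  invFun := fun e => ⟨Sym2.map σ.symm e.1, by
    rw [Sym2.isDiag_map σ.symm.injective]; exact e.2⟩
  left_inv := by
    intro e
    apply Subtype.ext
    simp [Sym2.map_map]
  right_inv := by
    intro e
    apply Subtype.ext
    simp [Sym2.map_map]

theorem graphOf_adj {n : ℕ} (x : EdgeSlot n → Bool) (i j : Fin n) :
    (graphOf x).Adj i j ↔ ∃ h : ¬ (s(i, j)).IsDiag, x ⟨s(i, j), h⟩ = true := by
  unfold graphOf
  rw [SimpleGraph.fromEdgeSet_adj]
  constructor
  · rintro ⟨h, _⟩; exact h
  · rintro ⟨h, h2⟩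
    refine ⟨⟨h, h2⟩, ?_⟩
    intro hij; apply h; rw [Sym2.mk_isDiag_iff]; exact hij

theorem graphOf_gperm {n : ℕ} (σ : Equiv.Perm (Fin n)) (x : EdgeSlot n → Bool) :
    graphOf (x ∘ gperm n σ) = (graphOf x).map σ.symm.toEmbedding := by
  ext i j
  rw [graphOf_adj, SimpleGraph.map_adj]
  constructor
  · rintro ⟨h, h2⟩
    refine ⟨σ i, σ j, ?_, by simp, by simp⟩
    rw [graphOf_adj]
    exact ⟨by
      intro hd; apply h
      rw [Sym2.mk_isDiag_iff] at hd ⊢
      exact σ.injective hd, h2⟩
  · rintro ⟨a, b, hab, rfl, rfl⟩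
    rw [graphOf_adj] at hab
    obtain ⟨h, h2⟩ := hab
    have hne : ¬ (s(σ.symm.toEmbedding a, σ.symm.toEmbedding b)).IsDiag := by
      intro hd; apply h
      rw [Sym2.mk_isDiag_iff] at hd ⊢
      exact σ.symm.injective hd
    refine ⟨hne, ?_⟩
    simp only [Function.comp]
    have : gperm n σ ⟨s(σ.symm.toEmbedding a, σ.symm.toEmbedding b), hne⟩ = ⟨s(a, b), h⟩ := by
      apply Subtype.ext
      simp [gperm]
    rw [this]; exact h2

end M5

theorem symStar_hyper (n r : ℕ)
    (f : (Crest.CombinatoricsR.HypergraphCube.HyperedgeSlot n r → Bool) → Bool)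
    (hf : Crest.CombinatoricsR.HypergraphCube.IsSymmetric f) : SymStar (hst n r) f := by
  intro u w huw
  refine ⟨M5.hperm n r (Equiv.swap u w), fun x => hf (Equiv.swap u w) x, ?_, ?_, ?_⟩
  · intro e
    unfold hst
    simp only [Finset.mem_filter, Finset.mem_univ, true_and]
    exact (M5.mem_relabelSlot _ e u).trans (by simp)
  · intro e
    unfold hst
    simp only [Finset.mem_filter, Finset.mem_univ, true_and]
    exact (M5.mem_relabelSlot _ e w).trans (by simp)
  · intro e h1 h2
    unfold hst at h1 h2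
    simp only [Finset.mem_filter, Finset.mem_univ, true_and] at h1 h2
    apply Subtype.ext
    ext v
    refine (M5.mem_relabelSlot _ e v).trans ?_
    rw [Equiv.symm_swap]
    by_cases hu : v = u
    · subst hu; rw [Equiv.swap_apply_left]; tauto
    · by_cases hw : v = w
      · subst hw; rw [Equiv.swap_apply_right]; tauto
      · rw [Equiv.swap_apply_of_ne_of_ne hu hw]

namespace M5

open Crest.CombinatoricsR.HypergraphCube Crest.CombinatoricsR.RandomGraph

theorem mem_gperm {n : ℕ} (σ : Equiv.Perm (Fin n)) (e : EdgeSlot n) (v : Fin n) :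
    v ∈ (gperm n σ e).1 ↔ σ.symm v ∈ e.1 := by
  show v ∈ Sym2.map σ e.1 ↔ σ.symm v ∈ e.1
  rw [Sym2.mem_map]
  constructor
  · rintro ⟨a, ha, rfl⟩; simpa using ha
  · intro h; exact ⟨σ.symm v, h, by simp⟩

end M5

open Classical in
theorem symStar_graph (n : ℕ) (P : Set (SimpleGraph (Fin n)))
    (hsymm : ∀ σ : Equiv.Perm (Fin n), ∀ G : SimpleGraph (Fin n), G ∈ P → G.map σ.toEmbedding ∈ P) :
    SymStar (gst n) (fun ω => decide (Crest.CombinatoricsR.RandomGraph.graphOf ω ∈ P)) := by
  intro u w huw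
  have key : ∀ (σ : Equiv.Perm (Fin n)) (x : Crest.CombinatoricsR.RandomGraph.EdgeSlot n → Bool),
      Crest.CombinatoricsR.RandomGraph.graphOf x ∈ P →
      Crest.CombinatoricsR.RandomGraph.graphOf (x ∘ M5.gperm n σ) ∈ P := by
    intro σ x hx
    rw [M5.graphOf_gperm]
    exact hsymm _ _ hx
  refine ⟨M5.gperm n (Equiv.swap u w), ?_, ?_, ?_, ?_⟩
  · intro x
    have hiff : Crest.CombinatoricsR.RandomGraph.graphOf (x ∘ M5.gperm n (Equiv.swap u w)) ∈ P ↔
        Crest.CombinatoricsR.RandomGraph.graphOf x ∈ P := by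
      constructor
      · intro h
        have h2 := key (Equiv.swap u w) _ h
        have h3 : (x ∘ M5.gperm n (Equiv.swap u w)) ∘ M5.gperm n (Equiv.swap u w) = x := by
          ext e
          simp only [Function.comp]
          congr 1
          apply Subtype.ext
          simp [M5.gperm, Sym2.map_map]
        rw [h3] at h2; exact h2
      · exact key _ _
    simp only [hiff]
  · intro e
    unfold gst
    simp only [Finset.mem_filter, Finset.mem_univ, true_and]
    rw [M5.mem_gperm]; simp
  · intro e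
    unfold gst
    simp only [Finset.mem_filter, Finset.mem_univ, true_and]
    rw [M5.mem_gperm]; simp
  · intro e h1 h2
    unfold gst at h1 h2
    simp only [Finset.mem_filter, Finset.mem_univ, true_and] at h1 h2
    apply Subtype.ext
    apply Sym2.ext
    intro v
    rw [M5.mem_gperm, Equiv.symm_swap]
    by_cases hu : v = u
    · subst hu; rw [Equiv.swap_apply_left]; tauto
    · by_cases hw : v = w
      · subst hw; rw [Equiv.swap_apply_right]; tauto
      · rw [Equiv.swap_apply_of_ne_of_ne hu hw]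

/-- every slot lies in exactly r stars -/
theorem hst_card (n r : ℕ) (e : Crest.CombinatoricsR.HypergraphCube.HyperedgeSlot n r) :
    (Finset.univ.filter (fun u : Fin n => e ∈ hst n r u)).card = r := by
  have : (Finset.univ.filter (fun u : Fin n => e ∈ hst n r u)) = e.1 := by
    ext u
    simp [hst]
  rw [this]; exact e.2

theorem gst_card (n : ℕ) (e : Crest.CombinatoricsR.RandomGraph.EdgeSlot n) :
    (Finset.univ.filter (fun u : Fin n => e ∈ gst n u)).card = 2 := by
  obtain ⟨z, hz⟩ := e
  induction z using Sym2.ind with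
  | _ a b =>
    have hab : a ≠ b := by
      intro h; apply hz; rw [Sym2.mk_isDiag_iff]; exact h
    have : (Finset.univ.filter (fun u : Fin n =>
        (⟨s(a, b), hz⟩ : Crest.CombinatoricsR.RandomGraph.EdgeSlot n) ∈ gst n u)) = {a, b} := by
      ext u
      simp [gst]
    rw [this, Finset.card_pair hab]

namespace M5

/-- double counting -/
theorem sum_deg {V : Type*} [Fintype V] [DecidableEq V] (st : V → Finset E) (r : ℕ)
    (hr : ∀ e, (Finset.univ.filter (fun u : V => e ∈ st u)).card = r) (S : Finset E) :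
    ∑ u, (S ∩ st u).card = r * S.card := by
  have h1 : ∀ u : V, (S ∩ st u).card = ∑ e ∈ S, if e ∈ st u then 1 else 0 := by
    intro u
    rw [← Finset.card_filter]
    congr 1
  rw [Finset.sum_congr rfl fun u _ => h1 u, Finset.sum_comm]
  have h2 : ∀ e ∈ S, (∑ u : V, if e ∈ st u then 1 else 0) = r := by
    intro e _
    rw [← Finset.card_filter]; exact hr e
  rw [Finset.sum_congr rfl h2, Finset.sum_const, smul_eq_mul, mul_comm]

theorem touched_le {V : Type*} [Fintype V] [DecidableEq V] (st : V → Finset E) (r k : ℕ)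
    (hr : ∀ e, (Finset.univ.filter (fun u : V => e ∈ st u)).card = r) (S : Finset E)
    (hdeg : ∀ u, (S ∩ st u).card = 0 ∨ k < (S ∩ st u).card) :
    (k + 1) * (Finset.univ.filter (fun u : V => (S ∩ st u).card ≠ 0)).card ≤ r * S.card := by
  rw [← sum_deg st r hr S, mul_comm]
  have h1 : (Finset.univ.filter (fun u : V => (S ∩ st u).card ≠ 0)).card * (k + 1)
      = ∑ u ∈ Finset.univ.filter (fun u : V => (S ∩ st u).card ≠ 0), (k + 1) := by
    rw [Finset.sum_const, smul_eq_mul]
  rw [h1]
  refine (Finset.sum_le_sum (fun u hu => ?_)).trans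
    (Finset.sum_le_sum_of_subset (Finset.filter_subset _ _))
  have := hdeg u
  simp only [Finset.mem_filter, Finset.mem_univ, true_and] at hu
  omega

end M5

/-- if all non-zero degrees exceed k then |S| ≥ ((k+1)/r)^(r/(r-1)) -/
theorem card_lower_hyper (n r k : ℕ) (hr : 2 ≤ r)
    (S : Finset (Crest.CombinatoricsR.HypergraphCube.HyperedgeSlot n r)) (hS : S.Nonempty)
    (hdeg : ∀ u, (S ∩ hst n r u).card = 0 ∨ k < (S ∩ hst n r u).card) :
    (((k : ℝ) + 1) / r) ^ ((r : ℝ) / ((r : ℝ) - 1)) ≤ (S.card : ℝ) := by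
  obtain ⟨T, hT⟩ : ∃ T, T = Finset.univ.filter (fun u : Fin n => (S ∩ hst n r u).card ≠ 0) :=
    ⟨_, rfl⟩
  have h1 : (k + 1) * T.card ≤ r * S.card := by
    rw [hT]; exact M5.touched_le (hst n r) r k (hst_card n r) S hdeg
  have h2 : S.card ≤ T.card ^ r := by
    refine le_trans ?_ (Nat.choose_le_pow T.card r)
    rw [← Finset.card_powersetCard]
    rw [← Finset.card_map (Function.Embedding.subtype (fun s : Finset (Fin n) => s.card = r))]
    refine Finset.card_le_card ?_
    intro s hs
    simp only [Finset.mem_map, Function.Embedding.coe_subtype] at hs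
    obtain ⟨e, he, rfl⟩ := hs
    rw [Finset.mem_powersetCard]
    refine ⟨?_, e.2⟩
    intro u hu
    rw [hT, Finset.mem_filter]
    refine ⟨Finset.mem_univ _, ?_⟩
    rw [Finset.card_ne_zero]
    refine ⟨e, ?_⟩
    rw [Finset.mem_inter]
    refine ⟨he, ?_⟩
    simp [hst, hu]
  have hm : 0 < S.card := hS.card_pos
  obtain ⟨q, rfl⟩ : ∃ q, r = q + 1 := ⟨r - 1, by omega⟩
  -- (k+1)^r ≤ r^r m^(r-1)
  have h3 : (k + 1) ^ (q + 1) ≤ (q + 1) ^ (q + 1) * S.card ^ q := by
    have h4 : (k + 1) ^ (q + 1) * S.card ≤ ((q + 1) ^ (q + 1) * S.card ^ q) * S.card := by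
      calc (k + 1) ^ (q + 1) * S.card ≤ (k + 1) ^ (q + 1) * T.card ^ (q + 1) :=
            Nat.mul_le_mul_left _ h2
        _ = ((k + 1) * T.card) ^ (q + 1) := by rw [mul_pow]
        _ ≤ ((q + 1) * S.card) ^ (q + 1) := Nat.pow_le_pow_left h1 _
        _ = _ := by rw [mul_pow, pow_succ S.card]; ring
    exact Nat.le_of_mul_le_mul_right h4 hm
  have hq : 1 ≤ q := by omega
  have hqR : (0:ℝ) < (q : ℝ) := by exact_mod_cast hq
  have h5 : (((k : ℝ) + 1) / ((q + 1 : ℕ) : ℝ)) ^ (q + 1) ≤ (S.card : ℝ) ^ q := by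
    rw [div_pow, div_le_iff₀ (by positivity)]
    have : (((k + 1) ^ (q + 1) : ℕ) : ℝ) ≤ (((q + 1) ^ (q + 1) * S.card ^ q : ℕ) : ℝ) := by
      exact_mod_cast h3
    push_cast at this ⊢
    linarith
  have h6 : (((q + 1 : ℕ) : ℝ) / (((q + 1 : ℕ) : ℝ) - 1)) = ((q + 1 : ℕ) : ℝ) * (1 / (q:ℝ)) := by
    have : (((q + 1 : ℕ) : ℝ) - 1) = (q:ℝ) := by push_cast; ring
    rw [this, mul_one_div]
  have h0 : (0:ℝ) ≤ ((k : ℝ) + 1) / ((q + 1 : ℕ) : ℝ) := by positivity
  rw [h6, Real.rpow_mul h0, Real.rpow_natCast]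
  calc ((((k : ℝ) + 1) / ((q + 1 : ℕ) : ℝ)) ^ (q + 1)) ^ (1 / (q:ℝ))
      ≤ ((S.card : ℝ) ^ q) ^ (1 / (q:ℝ)) :=
        Real.rpow_le_rpow (by positivity) h5 (by positivity)
    _ = (S.card : ℝ) := by
        rw [← Real.rpow_natCast, ← Real.rpow_mul (by positivity), mul_one_div_cancel hqR.ne',
          Real.rpow_one]

/-- graph case: |S| ≥ (k+1)²/2 -/
theorem card_lower_graph (n k : ℕ)
    (S : Finset (Crest.CombinatoricsR.RandomGraph.EdgeSlot n)) (hS : S.Nonempty)
    (hdeg : ∀ u, (S ∩ gst n u).card = 0 ∨ k < (S ∩ gst n u).card) :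
    ((k : ℝ) + 1) ^ 2 / 2 ≤ (S.card : ℝ) := by
  obtain ⟨T, hT⟩ : ∃ T, T = Finset.univ.filter (fun u : Fin n => (S ∩ gst n u).card ≠ 0) :=
    ⟨_, rfl⟩
  have h1 : (k + 1) * T.card ≤ 2 * S.card := by
    rw [hT]; exact M5.touched_le (gst n) 2 k (gst_card n) S hdeg
  have h2 : S.card ≤ T.card.choose 2 := by
    rw [← Sym2.card_image_offDiag]
    rw [← Finset.card_map (Function.Embedding.subtype (fun z : Sym2 (Fin n) => ¬ z.IsDiag))]
    refine Finset.card_le_card ?_
    intro z hz
    simp only [Finset.mem_map, Function.Embedding.coe_subtype] at hz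
    obtain ⟨e, he, rfl⟩ := hz
    have hmem : ∀ u, u ∈ e.1 → u ∈ T := by
      intro u hu
      rw [hT, Finset.mem_filter]
      refine ⟨Finset.mem_univ _, ?_⟩
      rw [Finset.card_ne_zero]
      refine ⟨e, ?_⟩
      rw [Finset.mem_inter]
      refine ⟨he, ?_⟩
      simp [gst, hu]
    obtain ⟨z, hz⟩ := e
    induction z using Sym2.ind with
    | _ a b =>
      have hab : a ≠ b := by
        intro h; apply hz; rw [Sym2.mk_isDiag_iff]; exact h
      rw [Finset.mem_image]
      refine ⟨(a, b), ?_, rfl⟩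
      rw [Finset.mem_offDiag]
      exact ⟨hmem a (by simp), hmem b (by simp), hab⟩
  have hm : 0 < S.card := hS.card_pos
  have h3 : 2 * S.card ≤ T.card ^ 2 := by
    rw [Nat.choose_two_right] at h2
    have : 2 * (T.card * (T.card - 1) / 2) ≤ T.card * (T.card - 1) := Nat.mul_div_le _ _
    have h4 : T.card * (T.card - 1) ≤ T.card ^ 2 := by
      rw [sq]; exact Nat.mul_le_mul_left _ (Nat.sub_le _ _)
    omega
  have h4 : (k + 1) ^ 2 * (2 * S.card) ≤ (2 * S.card) * (2 * S.card) := by
    calc (k + 1) ^ 2 * (2 * S.card) ≤ (k + 1) ^ 2 * T.card ^ 2 := Nat.mul_le_mul_left _ h3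
      _ = ((k + 1) * T.card) ^ 2 := by rw [mul_pow]
      _ ≤ (2 * S.card) ^ 2 := Nat.pow_le_pow_left h1 _
      _ = _ := by ring
  have h5 : (k + 1) ^ 2 ≤ 2 * S.card := Nat.le_of_mul_le_mul_right h4 (by omega)
  have h6 : (((k + 1) ^ 2 : ℕ) : ℝ) ≤ ((2 * S.card : ℕ) : ℝ) := by exact_mod_cast h5
  push_cast at h6
  linarith

end Crest.Agent.VN
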