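/-
Row 56 (S0077, S0078).  Choice of parameters.
-/
import Mathlib

set_option autoImplicit false

namespace Crest.Agent.VN

open Finset

theorem param_aux (n : ℕ) (hn : 2 ≤ n) (L : ℝ) (hL : L = Real.log n) (hL1 : 30 ≤ L) (K : ℝ)
    (hK : 1 < K) (k : ℕ) (hk : (k : ℝ) * Real.log K ≤ 3 / 16 * L) (t β τ : ℝ)
    (ht : t = Real.exp (-(L / 4))) (hβ : β = Real.exp (-(9 * L / 32)))
    (hτ : τ = Real.exp (-(L / 32))) :
    Real.exp (-(τ * (n - 1) / 4)) ≤ β / 2 ∧
    16 / (t * τ ^ 2 * n * β) + 256 / (t * τ ^ 5 * n * β ^ 2)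
      + 3 * K ^ ((k : ℝ) / 2) * Real.sqrt t + 2 * β / t ≤ 277 * Real.exp (-(L / 32)) := by
  have hn0 : (0:ℝ) < n := by
    have : (2:ℝ) ≤ n := by exact_mod_cast hn
    linarith
  have hn2 : (2:ℝ) ≤ n := by exact_mod_cast hn
  have hnL : (n : ℝ) = Real.exp L := by rw [hL, Real.exp_log hn0]
  constructor
  · have h1 : τ * n = Real.exp (31 * L / 32) := by
      rw [hτ, hnL, ← Real.exp_add]; ring_nf
    have h2 : Real.exp (31 * L / 32) / 8 ≤ τ * (n - 1) / 4 := by
      have hτ0 : 0 < τ := by rw [hτ]; exact Real.exp_pos _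
      rw [← h1]
      nlinarith
    have h3 : 1 + 31 * L / 32 + (31 * L / 32) ^ 2 / 2 ≤ Real.exp (31 * L / 32) :=
      Real.quadratic_le_exp_of_nonneg (by linarith)
    have h4 : 1 + 9 * L / 32 ≤ τ * (n - 1) / 4 := by nlinarith
    have h5 : Real.exp (-(τ * (n - 1) / 4)) ≤ Real.exp (-(1 + 9 * L / 32)) :=
      Real.exp_le_exp.mpr (by linarith)
    have h6 : Real.exp (-(1 + 9 * L / 32)) = Real.exp (-1) * β := by
      rw [hβ, ← Real.exp_add]; ring_nf
    have h7 : Real.exp (-1) ≤ 1 / 2 := by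
      have := Real.exp_neg_one_lt_half
      linarith
    have hβ0 : 0 < β := by rw [hβ]; exact Real.exp_pos _
    calc Real.exp (-(τ * (n - 1) / 4)) ≤ Real.exp (-1) * β := by rw [← h6]; exact h5
      _ ≤ 1 / 2 * β := mul_le_mul_of_nonneg_right h7 hβ0.le
      _ = β / 2 := by ring
  · have e1 : t * τ ^ 2 * n * β = Real.exp (13 * L / 32) := by
      rw [ht, hτ, hβ, hnL, ← Real.exp_nat_mul, ← Real.exp_add, ← Real.exp_add, ← Real.exp_add]
      congr 1; push_cast; ring
    have e2 : t * τ ^ 5 * n * β ^ 2 = Real.exp (L / 32) := by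
      rw [ht, hτ, hβ, hnL, ← Real.exp_nat_mul, ← Real.exp_nat_mul, ← Real.exp_add, ← Real.exp_add,
        ← Real.exp_add]
      congr 1; push_cast; ring
    have e3 : Real.sqrt t = Real.exp (-(L / 8)) := by
      rw [ht, show -(L / 4) = -(L / 8) + -(L / 8) by ring, Real.exp_add,
        Real.sqrt_mul_self (Real.exp_pos _).le]
    have e4 : 2 * β / t = 2 * Real.exp (-(L / 32)) := by
      rw [ht, hβ, mul_div_assoc, ← Real.exp_sub]; ring_nf
    have e5 : K ^ ((k : ℝ) / 2) ≤ Real.exp (3 * L / 32) := by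
      rw [Real.rpow_def_of_pos (by linarith)]
      exact Real.exp_le_exp.mpr (by linarith)
    rw [e1, e2, e3, e4]
    have e6 : 16 / Real.exp (13 * L / 32) ≤ 16 * Real.exp (-(L / 32)) := by
      rw [div_eq_mul_inv, ← Real.exp_neg]
      exact mul_le_mul_of_nonneg_left (Real.exp_le_exp.mpr (by linarith)) (by norm_num)
    have e7 : 256 / Real.exp (L / 32) = 256 * Real.exp (-(L / 32)) := by
      rw [div_eq_mul_inv, ← Real.exp_neg]
    have e8 : 3 * K ^ ((k : ℝ) / 2) * Real.exp (-(L / 8)) ≤ 3 * Real.exp (-(L / 32)) := by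
      calc 3 * K ^ ((k : ℝ) / 2) * Real.exp (-(L / 8))
          ≤ 3 * Real.exp (3 * L / 32) * Real.exp (-(L / 8)) := by
            refine mul_le_mul_of_nonneg_right ?_ (Real.exp_pos _).le
            exact mul_le_mul_of_nonneg_left e5 (by norm_num)
        _ = 3 * Real.exp (-(L / 32)) := by
            rw [mul_assoc, ← Real.exp_add]; ring_nf
    rw [e7]
    linarith

theorem exp_small (L : ℝ) (hL : 0 < L) : Real.exp (-(L / 32)) ≤ 25165824 / L ^ 4 := by
  have h := Real.pow_div_factorial_le_exp (L / 32) (by positivity) 4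
  have h2 : (L / 32) ^ 4 / (Nat.factorial 4 : ℝ) = L ^ 4 / 25165824 := by
    norm_num [Nat.factorial]; ring
  rw [h2] at h
  rw [Real.exp_neg, inv_eq_one_div, div_le_div_iff₀ (Real.exp_pos _) (by positivity)]
  rw [div_le_iff₀ (by norm_num)] at h
  linarith

theorem log_sq_le (B : ℝ) (hB : 4 ≤ B) : Real.log (4 * B) ^ 2 ≤ 16 * B ∧ 1 ≤ Real.log (4 * B) := by
  have hB0 : 0 < B := by linarith
  constructor
  · have h1 : Real.log (4 * B) = 2 * Real.log (2 * Real.sqrt B) := by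
      have : 4 * B = (2 * Real.sqrt B) ^ 2 := by
        rw [mul_pow, Real.sq_sqrt hB0.le]; ring
      rw [this, Real.log_pow]; norm_num
    have h2 : 0 < 2 * Real.sqrt B := by positivity
    have h3 : Real.log (2 * Real.sqrt B) ≤ 2 * Real.sqrt B := by
      have := Real.log_le_sub_one_of_pos h2; linarith
    have h4 : 1 ≤ 2 * Real.sqrt B := by
      have : (2:ℝ) ≤ Real.sqrt B := by
        rw [show (2:ℝ) = Real.sqrt 4 by rw [show (4:ℝ) = 2 ^ 2 by norm_num]; exact (Real.sqrt_sq (by norm_num)).symm]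
        exact Real.sqrt_le_sqrt hB
      linarith
    have h5 : 0 ≤ Real.log (2 * Real.sqrt B) := Real.log_nonneg h4
    rw [h1]
    have h6 : Real.sqrt B ^ 2 = B := Real.sq_sqrt hB0.le
    nlinarith
  · rw [Real.le_log_iff_exp_le (by positivity)]
    have := Real.exp_one_lt_d9
    linarith

/-- graph case, explicit constant -/
theorem param_graph (n : ℕ) (hn : 2 ≤ n) (p : ℝ) (hp0 : 0 < p) (hp1 : p < 1) (v I : ℝ) (hI : 0 ≤ I)
    (hpoin : v ≤ I)
    (hcore : ∀ (k : ℕ) (t β τ : ℝ), 0 < t → 0 < β → 0 < τ → τ ≤ 1 →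
      Real.exp (-(τ * (n - 1) / 4)) ≤ β / 2 →
      v ≤ I * (1 / (((k : ℝ) + 1) ^ 2 / 2) + 2 * (2:ℝ) * τ +
          4 * (2:ℝ) * (16 / (t * τ ^ 2 * n * β) + 256 / (t * τ ^ 5 * n * β ^ 2)
            + 3 * (4 / (p * (1 - p))) ^ ((k : ℝ) / 2) * Real.sqrt t + 2 * β / t))) :
    v ≤ 2 ^ 17 / Real.log n ^ 2 * (I / (p * (1 - p))) := by
  set L := Real.log n with hL
  have hL0 : 0 < L := Real.log_pos (by exact_mod_cast hn)
  have hpp : 0 < p * (1 - p) := mul_pos hp0 (by linarith)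
  set B := 1 / (p * (1 - p)) with hB
  have hB4 : 4 ≤ B := by
    rw [hB, le_div_iff₀ hpp]; nlinarith [sq_nonneg (p - 1 / 2)]
  have hgoal : 2 ^ 17 / L ^ 2 * (I / (p * (1 - p))) = I * (2 ^ 17 * B / L ^ 2) := by
    rw [hB]; field_simp
  rw [hgoal]
  by_cases hc : L ^ 2 ≤ 2 ^ 17 * B
  · have : 1 ≤ 2 ^ 17 * B / L ^ 2 := by rw [le_div_iff₀ (by positivity)]; linarith
    nlinarith
  · push Not at hc
    have hL2 : (2:ℝ) ^ 19 < L ^ 2 := by nlinarith
    have hL724 : 724 ≤ L := by nlinarith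
    set K := 4 / (p * (1 - p)) with hK
    have hKB : K = 4 * B := by rw [hK, hB]; ring
    obtain ⟨hlog1, hlog2⟩ := log_sq_le B hB4
    rw [← hKB] at hlog1 hlog2
    have hlogK : 0 < Real.log K := by linarith
    set k := ⌊3 / 16 * L / Real.log K⌋₊ with hk
    have hk1 : (k : ℝ) * Real.log K ≤ 3 / 16 * L := by
      have := Nat.floor_le (a := 3 / 16 * L / Real.log K) (by positivity)
      rw [← hk] at this
      rwa [le_div_iff₀ hlogK] at this
    have hk2 : 3 / 16 * L / Real.log K < (k : ℝ) + 1 := Nat.lt_floor_add_one _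
    have hK1 : 1 < K := by rw [hKB]; linarith
    obtain ⟨c1, c2⟩ := param_aux n hn L hL (by linarith) K hK1 k hk1 _ _ _ rfl rfl rfl
    have hmain := hcore k _ _ _ (Real.exp_pos (-(L / 4))) (Real.exp_pos (-(9 * L / 32)))
      (Real.exp_pos (-(L / 32))) (Real.exp_le_one_iff.mpr (by linarith)) c1
    have hsm := exp_small L hL0
    -- emin term
    have hem : 1 / (((k : ℝ) + 1) ^ 2 / 2) ≤ 911 * B / L ^ 2 := by
      have h1 : (0:ℝ) < 3 / 16 * L / Real.log K := by positivity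
      have h2 : (3 / 16 * L / Real.log K) ^ 2 ≤ ((k : ℝ) + 1) ^ 2 :=
        pow_le_pow_left₀ h1.le hk2.le 2
      have h3 : 1 / (((k : ℝ) + 1) ^ 2 / 2) ≤ 1 / ((3 / 16 * L / Real.log K) ^ 2 / 2) := by
        apply one_div_le_one_div_of_le (by positivity)
        linarith
      refine h3.trans ?_
      have h4 : 1 / ((3 / 16 * L / Real.log K) ^ 2 / 2) = 512 / 9 * Real.log K ^ 2 / L ^ 2 := by
        field_simp; ring
      rw [h4]
      apply div_le_div_of_nonneg_right _ (by positivity)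
      nlinarith
    have herr : 2 * (2:ℝ) * Real.exp (-(L / 32)) + 4 * 2 * (277 * Real.exp (-(L / 32)))
        ≤ 120000 * B / L ^ 2 := by
      have h1 : 2 * (2:ℝ) * Real.exp (-(L / 32)) + 4 * 2 * (277 * Real.exp (-(L / 32)))
          = 2220 * Real.exp (-(L / 32)) := by ring
      rw [h1]
      calc 2220 * Real.exp (-(L / 32)) ≤ 2220 * (25165824 / L ^ 4) :=
            mul_le_mul_of_nonneg_left hsm (by norm_num)
        _ ≤ 120000 * B / L ^ 2 := by
            rw [mul_div_assoc', div_le_div_iff₀ (by positivity) (by positivity)]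
            have h5 : (2220 * 25165824 : ℝ) ≤ 120000 * B * L ^ 2 := by nlinarith
            calc (2220 * 25165824 : ℝ) * L ^ 2 ≤ (120000 * B * L ^ 2) * L ^ 2 :=
                  mul_le_mul_of_nonneg_right h5 (by positivity)
              _ = _ := by ring
    have hfin : 911 * B / L ^ 2 + 120000 * B / L ^ 2 ≤ 2 ^ 17 * B / L ^ 2 := by
      rw [← add_div]
      apply div_le_div_of_nonneg_right _ (by positivity)
      nlinarith
    refine hmain.trans (mul_le_mul_of_nonneg_left ?_ hI)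
    linarith

/-- hypergraph case -/
theorem param_hyper (r : ℕ) (hr : 3 ≤ r) : ∃ C : ℝ, 0 < C ∧ ∀ n : ℕ, r ≤ n → ∀ p : ℝ, 0 < p → p < 1 →
    ∀ v I : ℝ, 0 ≤ I → v ≤ I →
    (∀ (k : ℕ) (t β τ : ℝ), 0 < t → 0 < β → 0 < τ → τ ≤ 1 →
      Real.exp (-(τ * (n - 1) / 4)) ≤ β / 2 →
      v ≤ I * (1 / ((((k : ℝ) + 1) / r) ^ ((r : ℝ) / ((r : ℝ) - 1))) + 2 * r * τ +
          4 * r * (16 / (t * τ ^ 2 * n * β) + 256 / (t * τ ^ 5 * n * β ^ 2)
            + 3 * (4 / (p * (1 - p))) ^ ((k : ℝ) / 2) * Real.sqrt t + 2 * β / t))) →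
    v ≤ C / Real.log n ^ ((r : ℝ) / ((r : ℝ) - 1)) * (I / (p * (1 - p))) := by
  have hr0 : (3:ℝ) ≤ r := by exact_mod_cast hr
  set ρ : ℝ := (r : ℝ) / ((r : ℝ) - 1) with hρ
  have hρ1 : 1 ≤ ρ := by rw [hρ, le_div_iff₀ (by linarith)]; linarith
  have hρ2 : ρ ≤ 2 := by rw [hρ, div_le_iff₀ (by linarith)]; linarith
  refine ⟨(16 * r / 3) ^ ρ * 16 + 1110 * r * 25165824 + 900, by positivity, ?_⟩
  intro n hn p hp0 hp1 v I hI hpoin hcore
  have hn3 : 3 ≤ n := hr.trans hn
  set L := Real.log n with hL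
  have hL0 : 0 < L := Real.log_pos (by exact_mod_cast (by omega : 1 < n))
  have hpp : 0 < p * (1 - p) := mul_pos hp0 (by linarith)
  set B := 1 / (p * (1 - p)) with hB
  have hB4 : 4 ≤ B := by
    rw [hB, le_div_iff₀ hpp]; nlinarith [sq_nonneg (p - 1 / 2)]
  have hLρ : 0 < L ^ ρ := Real.rpow_pos_of_pos hL0 _
  set C := (16 * (r:ℝ) / 3) ^ ρ * 16 + 1110 * r * 25165824 + 900 with hC
  have hgoal : C / L ^ ρ * (I / (p * (1 - p))) = I * (C * B / L ^ ρ) := by
    rw [hB]; field_simp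
  rw [hgoal]
  have hC1 : 0 ≤ (16 * (r:ℝ) / 3) ^ ρ * 16 := by positivity
  have hC2 : 0 ≤ 1110 * (r:ℝ) * 25165824 := by positivity
  by_cases hc : L < 30
  · have h1 : L ^ ρ ≤ 900 := by
      calc L ^ ρ ≤ (30:ℝ) ^ ρ := Real.rpow_le_rpow hL0.le hc.le (by linarith)
        _ ≤ (30:ℝ) ^ (2:ℝ) := Real.rpow_le_rpow_of_exponent_le (by norm_num) hρ2
        _ = 900 := by norm_num
    have h2 : 1 ≤ C * B / L ^ ρ := by
      rw [le_div_iff₀ hLρ]
      have : 900 ≤ C := by rw [hC]; linarith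
      nlinarith
    nlinarith
  · push Not at hc
    set K := 4 / (p * (1 - p)) with hK
    have hKB : K = 4 * B := by rw [hK, hB]; ring
    obtain ⟨hlog1, hlog2⟩ := log_sq_le B hB4
    rw [← hKB] at hlog1 hlog2
    have hlogK : 0 < Real.log K := by linarith
    set k := ⌊3 / 16 * L / Real.log K⌋₊ with hk
    have hk1 : (k : ℝ) * Real.log K ≤ 3 / 16 * L := by
      have := Nat.floor_le (a := 3 / 16 * L / Real.log K) (by positivity)
      rw [← hk] at this
      rwa [le_div_iff₀ hlogK] at this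
    have hk2 : 3 / 16 * L / Real.log K < (k : ℝ) + 1 := Nat.lt_floor_add_one _
    have hK1 : 1 < K := by rw [hKB]; linarith
    obtain ⟨c1, c2⟩ := param_aux n (by omega) L hL hc K hK1 k hk1 _ _ _ rfl rfl rfl
    have hmain := hcore k _ _ _ (Real.exp_pos (-(L / 4))) (Real.exp_pos (-(9 * L / 32)))
      (Real.exp_pos (-(L / 32))) (Real.exp_le_one_iff.mpr (by linarith)) c1
    have hsm := exp_small L hL0
    have hr00 : (0:ℝ) < r := by linarith
    have hem : 1 / ((((k : ℝ) + 1) / r) ^ ρ) ≤ (16 * (r:ℝ) / 3) ^ ρ * 16 * B / L ^ ρ := by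
      have h1 : (0:ℝ) < 3 / 16 * L / Real.log K / r := by positivity
      have h2 : (3 / 16 * L / Real.log K / r) ^ ρ ≤ (((k : ℝ) + 1) / r) ^ ρ := by
        refine Real.rpow_le_rpow h1.le ?_ (by linarith)
        exact div_le_div_of_nonneg_right hk2.le hr00.le
      have h3 : 1 / ((((k : ℝ) + 1) / r) ^ ρ) ≤ 1 / ((3 / 16 * L / Real.log K / r) ^ ρ) :=
        one_div_le_one_div_of_le (Real.rpow_pos_of_pos h1 _) h2
      refine h3.trans ?_
      have h4 : 1 / ((3 / 16 * L / Real.log K / r) ^ ρ)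
          = (16 * (r:ℝ) / 3) ^ ρ * Real.log K ^ ρ / L ^ ρ := by
        rw [one_div, ← Real.inv_rpow h1.le, ← Real.mul_rpow (by positivity) hlogK.le,
          ← Real.div_rpow (by positivity) hL0.le]
        congr 1
        field_simp
      rw [h4]
      apply div_le_div_of_nonneg_right _ hLρ.le
      rw [mul_assoc]
      refine mul_le_mul_of_nonneg_left ?_ (by positivity)
      calc Real.log K ^ ρ ≤ Real.log K ^ (2:ℝ) := Real.rpow_le_rpow_of_exponent_le hlog2 hρ2
        _ = Real.log K ^ 2 := by norm_num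
        _ ≤ 16 * B := hlog1
    have herr : 2 * (r:ℝ) * Real.exp (-(L / 32)) + 4 * r * (277 * Real.exp (-(L / 32)))
        ≤ 1110 * r * 25165824 * B / L ^ ρ := by
      have h1 : 2 * (r:ℝ) * Real.exp (-(L / 32)) + 4 * r * (277 * Real.exp (-(L / 32)))
          = 1110 * r * Real.exp (-(L / 32)) := by ring
      rw [h1]
      have h2 : L ^ ρ ≤ L ^ 4 := by
        calc L ^ ρ ≤ L ^ (4:ℝ) := Real.rpow_le_rpow_of_exponent_le (by linarith) (by linarith)
          _ = L ^ 4 := by norm_num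
      have h3 : 25165824 / L ^ 4 ≤ 25165824 * B / L ^ ρ := by
        apply div_le_div₀ (by positivity) (by nlinarith) hLρ h2
      calc 1110 * r * Real.exp (-(L / 32)) ≤ 1110 * r * (25165824 * B / L ^ ρ) :=
            mul_le_mul_of_nonneg_left (hsm.trans h3) (by positivity)
        _ = _ := by ring
    have hfin : (16 * (r:ℝ) / 3) ^ ρ * 16 * B / L ^ ρ + 1110 * r * 25165824 * B / L ^ ρ
        ≤ C * B / L ^ ρ := by
      rw [← add_div]
      apply div_le_div_of_nonneg_right _ hLρ.le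
      have h900 : 0 ≤ 900 * B := by positivity
      have hCB : C * B = (16 * (r:ℝ) / 3) ^ ρ * 16 * B + 1110 * r * 25165824 * B + 900 * B := by
        rw [hC]; ring
      rw [hCB]
      exact le_add_of_nonneg_right h900
    refine hmain.trans (mul_le_mul_of_nonneg_left ?_ hI)
    have hr4 : 4 * (r:ℝ) * (16 / (Real.exp (-(L / 4)) * Real.exp (-(L / 32)) ^ 2 * ↑n * Real.exp (-(9 * L / 32))) +
              256 / (Real.exp (-(L / 4)) * Real.exp (-(L / 32)) ^ 5 * ↑n * Real.exp (-(9 * L / 32)) ^ 2) +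
            3 * K ^ ((k:ℝ) / 2) * Real.sqrt (Real.exp (-(L / 4))) +
          2 * Real.exp (-(9 * L / 32)) / Real.exp (-(L / 4))) ≤ 4 * r * (277 * Real.exp (-(L / 32))) :=
      mul_le_mul_of_nonneg_left c2 (by positivity)
    exact (add_le_add (add_le_add hem le_rfl) hr4).trans (by
      rw [add_assoc]
      exact (add_le_add le_rfl herr).trans hfin)

end Crest.Agent.VN
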