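/-
Row 56 (S0077, S0078).  Assembly.
-/
import Crest.Agent.VN.Core
import Crest.Agent.VN.Inst
import Crest.Agent.VN.Param

set_option autoImplicit false

namespace Crest.Agent.VN

open Finset

theorem poincare {E : Type*} [Fintype E] [DecidableEq E] {p : ℝ} (hp0 : 0 < p) (hp1 : p < 1)
    (f : (E → Bool) → Bool) : ex p (rl f) * (1 - ex p (rl f)) ≤ infl p (rl f) := by
  have hvar : ex p (rl f) * (1 - ex p (rl f))
      = ∑ S ∈ Finset.univ.erase (∅ : Finset E), fc p (rl f) S ^ 2 := by
    rw [← var_eq hp0 hp1]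
    have : (fun x => rl f x ^ 2) = rl f := by ext x; exact rl_sq f x
    rw [this]; ring
  rw [hvar]
  unfold infl
  refine le_trans (Finset.sum_le_sum fun S hS => ?_)
    (Finset.sum_le_sum_of_subset_of_nonneg (Finset.erase_subset _ _) fun S _ _ => by positivity)
  have hSne : S.Nonempty := Finset.nonempty_iff_ne_empty.mpr (Finset.mem_erase.mp hS).1
  have : (1:ℝ) ≤ S.card := by exact_mod_cast Finset.card_pos.mpr hSne
  nlinarith [sq_nonneg (fc p (rl f) S)]

theorem infl_nonneg {E : Type*} [Fintype E] [DecidableEq E] {p : ℝ} (g : (E → Bool) → ℝ) :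
    0 ≤ infl p g := Finset.sum_nonneg fun S _ => by positivity

theorem ex_rl {E : Type*} [Fintype E] [DecidableEq E] (p : ℝ) (f : (E → Bool) → Bool) :
    ex p (rl f) = Crest.FinProb.bernoulliProb p {x | f x = true} := by
  apply M5.ex_indicator
  · intro x hx
    have : f x = true := hx
    simp [rl, this]
  · intro x hx
    have : ¬ f x = true := hx
    simp [rl, this]

theorem infl_rl {E : Type*} [Fintype E] [DecidableEq E] (p : ℝ) (hp0 : 0 < p) (hp1 : p < 1)
    (f : (E → Bool) → Bool) :
    infl p (rl f) / (p * (1 - p)) = ∑ e, Crest.FinProb.bernoulliProb p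
        {x | f (Function.update x e true) ≠ f (Function.update x e false)} := by
  have hpp : p * (1 - p) ≠ 0 := (mul_pos hp0 (by linarith)).ne'
  have := infl_eq p hp0 hp1 f
  have h2 : infl p (rl f) = infl p (fun x => if f x then (1:ℝ) else 0) := rfl
  rw [h2, this, mul_div_cancel_left₀ _ hpp]

theorem final_hyper (r : ℕ) (hr : 3 ≤ r) :
    ∃ C : ℝ, ∀ n : ℕ, r ≤ n → ∀ p : ℝ, 0 < p → p < 1 →
      ∀ f : (Crest.CombinatoricsR.HypergraphCube.HyperedgeSlot n r → Bool) → Bool,
        Crest.CombinatoricsR.HypergraphCube.IsSymmetric f →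
          Crest.CombinatoricsR.HypergraphCube.probTrue p f *
              (1 - Crest.CombinatoricsR.HypergraphCube.probTrue p f) ≤
            C / Real.log n ^ ((r : ℝ) / ((r : ℝ) - 1)) *
              Crest.CombinatoricsR.HypergraphCube.totalInfluence p f := by
  obtain ⟨C, hC0, hC⟩ := param_hyper r hr
  refine ⟨C, fun n hn p hp0 hp1 f hf => ?_⟩
  have hprob : Crest.CombinatoricsR.HypergraphCube.probTrue p f = ex p (rl f) := (ex_rl p f).symm
  have hinf : Crest.CombinatoricsR.HypergraphCube.totalInfluence p f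
      = infl p (rl f) / (p * (1 - p)) := (infl_rl p hp0 hp1 f).symm
  rw [hprob, hinf]
  refine hC n hn p hp0 hp1 _ _ (infl_nonneg _) (poincare hp0 hp1 f) ?_
  intro k t β τ ht hβ hτ hτ1 hch
  have hr0 : (0:ℝ) < r := by
    have : (3:ℝ) ≤ r := by exact_mod_cast hr
    linarith
  have h := core (p := p) (hst n r) r (fun e => (hst_card n r e).le) hp0 hp1 f
    (symStar_hyper n r f hf) (by rw [Fintype.card_fin]; omega) k
    ((((k : ℝ) + 1) / r) ^ ((r : ℝ) / ((r : ℝ) - 1)))
    (Real.rpow_pos_of_pos (by positivity) _)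
    (fun S hS hdeg => card_lower_hyper n r k (by omega) S hS hdeg)
    t β τ ht hβ hτ hτ1 (by rw [Fintype.card_fin]; exact hch)
  rw [Fintype.card_fin] at h
  exact h

open Classical in
theorem final_graph (n : ℕ) (hn : 2 ≤ n) (P : Set (SimpleGraph (Fin n)))
    (hsymm : ∀ σ : Equiv.Perm (Fin n), ∀ G : SimpleGraph (Fin n), G ∈ P → G.map σ.toEmbedding ∈ P)
    (p : ℝ) (hp0 : 0 < p) (hp1 : p < 1) :
    Crest.CombinatoricsR.RandomGraph.gnpProb n p P * (1 - Crest.CombinatoricsR.RandomGraph.gnpProb n p P)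
        ≤ 2 ^ 17 / Real.log n ^ 2 *
          ∑ e : Crest.CombinatoricsR.RandomGraph.EdgeSlot n, Crest.FinProb.bernoulliProb p
            {x | decide (Crest.CombinatoricsR.RandomGraph.graphOf (Function.update x e true) ∈ P) ≠
                 decide (Crest.CombinatoricsR.RandomGraph.graphOf (Function.update x e false) ∈ P)} := by
  set f : (Crest.CombinatoricsR.RandomGraph.EdgeSlot n → Bool) → Bool :=
    fun ω => decide (Crest.CombinatoricsR.RandomGraph.graphOf ω ∈ P) with hf
  have hprob : Crest.CombinatoricsR.RandomGraph.gnpProb n p P = ex p (rl f) := by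
    rw [ex_rl]
    unfold Crest.CombinatoricsR.RandomGraph.gnpProb
    congr 1
    ext x
    simp [hf]
  have hinf := infl_rl p hp0 hp1 f
  rw [hprob]
  have hgoal : ∑ e : Crest.CombinatoricsR.RandomGraph.EdgeSlot n, Crest.FinProb.bernoulliProb p
            {x | decide (Crest.CombinatoricsR.RandomGraph.graphOf (Function.update x e true) ∈ P) ≠
                 decide (Crest.CombinatoricsR.RandomGraph.graphOf (Function.update x e false) ∈ P)}
      = infl p (rl f) / (p * (1 - p)) := by rw [hinf]
  rw [hgoal]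
  refine param_graph n hn p hp0 hp1 _ _ (infl_nonneg _) (poincare hp0 hp1 f) ?_
  intro k t β τ ht hβ hτ hτ1 hch
  have h := core (p := p) (gst n) 2 (fun e => (gst_card n e).le) hp0 hp1 f
    (symStar_graph n P hsymm) (by rw [Fintype.card_fin]; omega) k
    (((k : ℝ) + 1) ^ 2 / 2) (by positivity)
    (fun S hS hdeg => card_lower_graph n k S hS hdeg)
    t β τ ht hβ hτ hτ1 (by rw [Fintype.card_fin]; exact hch)
  rw [Fintype.card_fin] at h
  simpa using h

end Crest.Agent.VN
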