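/-
Row 56 (S0077).  M3: Russo's formula and integration of the differential inequality.
-/
import Crest.Agent.VN.Inst

set_option autoImplicit false
set_option linter.unusedSectionVars false
set_option linter.unusedVariables false

namespace Crest.Agent.VN

open Finset

variable {E : Type*} [Fintype E] [DecidableEq E]

namespace M3

theorem hasDerivAt_wt (p : ℝ) (x : E → Bool) :
    HasDerivAt (fun p => wt p x)
      (∑ e, (∏ e' ∈ Finset.univ.erase e, (if x e' then p else 1 - p)) *
        (if x e then (1:ℝ) else -1)) p := by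
  have h := HasDerivAt.fun_finsetProd (u := (Finset.univ : Finset E))
    (f := fun e (q : ℝ) => if x e then q else 1 - q)
    (f' := fun e => if x e then (1:ℝ) else -1) (x := p) (by
      intro e _
      cases hx : x e
      · simp only [Bool.false_eq_true, if_false]
        exact (hasDerivAt_id p).const_sub 1
      · simp only [if_true]
        exact hasDerivAt_id p)
  simpa [wt, smul_eq_mul] using h

/-- Russo's formula, no monotonicity. -/
theorem hasDerivAt_ex {p : ℝ} (hp0 : 0 < p) (hp1 : p < 1) (F : (E → Bool) → ℝ) :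
    HasDerivAt (fun p => ex p F)
      (∑ e, ex p (fun x => F (Function.update x e true) - F (Function.update x e false))) p := by
  have h : HasDerivAt (fun p => ex p F) (∑ x : E → Bool,
      (∑ e, (∏ e' ∈ Finset.univ.erase e, (if x e' then p else 1 - p)) *
        (if x e then (1:ℝ) else -1)) * F x) p := by
    unfold ex
    exact HasDerivAt.fun_sum fun x _ => (hasDerivAt_wt p x).mul_const (F x)
  convert h using 1
  simp_rw [Finset.sum_mul]
  rw [Finset.sum_comm]
  refine Finset.sum_congr rfl fun e _ => ?_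
  have h1 : ∀ x : E → Bool, (∏ e' ∈ Finset.univ.erase e, (if x e' then p else 1 - p)) *
        (if x e then (1:ℝ) else -1) * F x
      = wt p x * ((if x e then 1 / p else -(1 / (1 - p))) * F x) := by
    intro x
    unfold wt
    rw [← Finset.mul_prod_erase Finset.univ _ (Finset.mem_univ e)]
    have hp : p ≠ 0 := hp0.ne'
    have hp' : 1 - p ≠ 0 := by linarith
    cases hx : x e
    · simp only [Bool.false_eq_true, if_false]
      field_simp
    · simp only [if_true]
      field_simp
  rw [Finset.sum_congr rfl fun x _ => h1 x]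
  have h2 : ∑ x : E → Bool, wt p x * ((if x e then 1 / p else -(1 / (1 - p))) * F x)
      = ex p (fun x => (if x e then 1 / p else -(1 / (1 - p))) * F x) := rfl
  rw [h2, ← ex_av hp0 hp1 {e} (fun x : E → Bool => (if x e then 1 / p else -(1 / (1 - p))) * F x)]
  congr 1
  ext x
  rw [M5.av_singleton]
  simp only [Function.update_self, if_true, Bool.false_eq_true, if_false]
  have hp : p ≠ 0 := hp0.ne'
  have hp' : 1 - p ≠ 0 := by linarith
  field_simp
  ring

theorem ex_one_indicator (p : ℝ) (A : Set (E → Bool)) [DecidablePred (· ∈ A)] :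
    ex p (fun x => if x ∈ A then (1:ℝ) else 0) = Crest.FinProb.bernoulliProb p A :=
  M5.ex_indicator p A _ (fun x hx => by simp [hx]) (fun x hx => by simp [hx])

/-- Russo's formula for increasing events -/
theorem russo {p : ℝ} (hp0 : 0 < p) (hp1 : p < 1) (A : Set (E → Bool))
    (hA : ∀ x : E → Bool, ∀ e, Function.update x e false ∈ A → Function.update x e true ∈ A) :
    HasDerivAt (fun p => Crest.FinProb.bernoulliProb p A)
      (∑ e, Crest.FinProb.bernoulliProb p
        {x | Function.update x e true ∈ A ∧ Function.update x e false ∉ A}) p := by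
  classical
  have h := hasDerivAt_ex hp0 hp1 (fun x : E → Bool => if x ∈ A then (1:ℝ) else 0)
  have h1 : (fun p : ℝ => ex p (fun x : E → Bool => if x ∈ A then (1:ℝ) else 0))
      = fun p => Crest.FinProb.bernoulliProb p A := by
    ext q; exact ex_one_indicator q A
  rw [h1] at h
  convert h using 1
  refine Finset.sum_congr rfl fun e _ => ?_
  symm
  refine M5.ex_indicator p _ _ (fun x hx => ?_) (fun x hx => ?_)
  · simp only [Set.mem_ofPred_eq] at hx
    simp [hx.1, hx.2]
  · simp only [Set.mem_ofPred_eq, not_and, not_not] at hx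
    by_cases h1 : Function.update x e true ∈ A
    · simp [h1, hx h1]
    · have h2 : Function.update x e false ∉ A := fun h2 => h1 (hA x e h2)
      simp [h1, h2]

theorem prob_pos {p : ℝ} (hp0 : 0 < p) (hp1 : p < 1) (A : Set (E → Bool)) (x : E → Bool)
    (hx : x ∈ A) : 0 < Crest.FinProb.bernoulliProb p A := by
  classical
  rw [← ex_one_indicator]
  unfold ex
  beta_reduce
  refine Finset.sum_pos' (fun y _ => ?_) ⟨x, Finset.mem_univ x, ?_⟩
  · exact mul_nonneg (wt_pos hp0 hp1 y).le (by split_ifs <;> norm_num)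
  · rw [if_pos hx, mul_one]; exact wt_pos hp0 hp1 x

theorem prob_lt_one {p : ℝ} (hp0 : 0 < p) (hp1 : p < 1) (A : Set (E → Bool)) (x : E → Bool)
    (hx : x ∉ A) : Crest.FinProb.bernoulliProb p A < 1 := by
  classical
  have h1 : ex p (fun _ : E → Bool => (1:ℝ)) = 1 := ex_const 1
  rw [← ex_one_indicator]
  refine lt_of_lt_of_eq ?_ h1
  unfold ex
  beta_reduce
  refine Finset.sum_lt_sum (fun y _ => ?_) ⟨x, Finset.mem_univ x, ?_⟩
  · exact mul_le_mul_of_nonneg_left (by split_ifs <;> norm_num) (wt_pos hp0 hp1 y).le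
  · rw [if_neg hx, mul_zero, mul_one]; exact wt_pos hp0 hp1 x

theorem prob_zero (A : Set (E → Bool)) (hA : (fun _ => false) ∉ A) :
    Crest.FinProb.bernoulliProb (0:ℝ) A = 0 := by
  classical
  rw [← ex_one_indicator]
  unfold ex
  beta_reduce
  refine Finset.sum_eq_zero fun x _ => ?_
  split_ifs with hx
  · rw [mul_one]
    have : ∃ e, x e = true := by
      by_contra hcon
      push Not at hcon
      apply hA
      have : x = fun _ => false := by
        ext e; simpa using hcon e
      rw [← this]; exact hx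
    obtain ⟨e, he⟩ := this
    unfold wt
    exact Finset.prod_eq_zero (Finset.mem_univ e) (by simp [he])
  · rw [mul_zero]

theorem prob_one (A : Set (E → Bool)) (hA : (fun _ => true) ∈ A) :
    1 ≤ Crest.FinProb.bernoulliProb (1:ℝ) A := by
  classical
  rw [← ex_one_indicator]
  unfold ex
  have h := Finset.single_le_sum (f := fun x : E → Bool => wt (1:ℝ) x * (if x ∈ A then (1:ℝ) else 0))
    (s := Finset.univ) (fun y _ => mul_nonneg (wt_nonneg (by norm_num) (by norm_num) y)
      (by split_ifs <;> norm_num)) (Finset.mem_univ (fun _ => true))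
  refine le_trans ?_ h
  simp only [hA, if_true, mul_one]
  unfold wt
  simp

/-- integration of the logistic differential inequality -/
theorem logistic {g g' : ℝ → ℝ} {c : ℝ} (hc : 0 < c)
    (hg : ∀ x, 0 < x → x < 1 → HasDerivAt g (g' x) x)
    (hpos : ∀ x, 0 < x → x < 1 → 0 < g x) (hlt : ∀ x, 0 < x → x < 1 → g x < 1)
    (hI : ∀ x, 0 < x → x < 1 → c * (g x * (1 - g x)) ≤ g' x)
    {ε p q : ℝ} (hε0 : 0 < ε) (hε : ε < 1 / 2) (hp0 : 0 < p) (hq1 : q < 1)
    (hp : ε ≤ g p) (hq : p + 4 / c * Real.log (1 / (2 * ε)) ≤ q) : 1 - ε ≤ g q := by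
  have hlog0 : 0 < Real.log (1 / (2 * ε)) := by
    apply Real.log_pos
    rw [lt_div_iff₀ (by linarith)]; linarith
  have hpq : p < q := by
    have : 0 < 4 / c * Real.log (1 / (2 * ε)) := by positivity
    linarith
  have hp1 : p < 1 := by linarith
  have hq0 : 0 < q := by linarith
  -- the logit
  have hder : ∀ x, 0 < x → x < 1 →
      HasDerivAt (fun x => Real.log (g x) - Real.log (1 - g x)) (g' x / g x - (-g' x) / (1 - g x)) x := by
    intro x h0 h1
    have e1 := (hg x h0 h1).log (hpos x h0 h1).ne'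
    have e2 := ((hg x h0 h1).const_sub 1).log (by have := hlt x h0 h1; linarith)
    exact e1.sub e2
  have hmv := Convex.mul_sub_le_image_sub_of_le_deriv (convex_Ioo (0:ℝ) 1)
    (f := fun x => Real.log (g x) - Real.log (1 - g x)) (C := c)
    (fun x hx => (hder x hx.1 hx.2).continuousAt.continuousWithinAt)
    (by
      rw [isOpen_Ioo.interior_eq]
      exact fun x hx => (hder x hx.1 hx.2).differentiableAt.differentiableWithinAt)
    (by
      rw [isOpen_Ioo.interior_eq]
      intro x hx
      rw [(hder x hx.1 hx.2).deriv]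
      have h1 := hpos x hx.1 hx.2
      have h2 : 0 < 1 - g x := by have := hlt x hx.1 hx.2; linarith
      have h3 : g' x / g x - (-g' x) / (1 - g x) = g' x / (g x * (1 - g x)) := by
        field_simp; ring
      rw [h3, le_div_iff₀ (by positivity)]
      exact hI x hx.1 hx.2) p ⟨hp0, hp1⟩ q ⟨hq0, hq1⟩ hpq.le
  by_contra hcon
  push Not at hcon
  have hgp0 := hpos p hp0 hp1
  have hgp1 := hlt p hp0 hp1
  have hgq0 := hpos q hq0 hq1
  have hgq1 := hlt q hq0 hq1
  have h1 : Real.log (g q) - Real.log (1 - g q) < Real.log (1 - ε) - Real.log ε := by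
    have a1 : Real.log (g q) < Real.log (1 - ε) := Real.log_lt_log hgq0 hcon
    have a2 : Real.log ε < Real.log (1 - g q) := Real.log_lt_log hε0 (by linarith)
    linarith
  have h2 : Real.log ε - Real.log (1 - ε) ≤ Real.log (g p) - Real.log (1 - g p) := by
    have a1 : Real.log ε ≤ Real.log (g p) := Real.log_le_log hε0 hp
    have a2 : Real.log (1 - g p) ≤ Real.log (1 - ε) := Real.log_le_log (by linarith) (by linarith)
    linarith
  have h3 : 4 * Real.log (1 / (2 * ε)) ≤ c * (q - p) := by
    have : 4 / c * Real.log (1 / (2 * ε)) ≤ q - p := by linarith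
    have := mul_le_mul_of_nonneg_left this hc.le
    calc 4 * Real.log (1 / (2 * ε)) = c * (4 / c * Real.log (1 / (2 * ε))) := by field_simp
      _ ≤ _ := this
  have h4 : Real.log (1 - ε) - Real.log ε ≤ 2 * Real.log (1 / (2 * ε)) := by
    have e1 : 2 * Real.log (1 / (2 * ε)) = Real.log ((1 / (2 * ε)) ^ 2) := by
      rw [Real.log_pow]; norm_num
    rw [e1, ← Real.log_div (by linarith) hε0.ne']
    apply Real.log_le_log (div_pos (by linarith) hε0)
    rw [div_pow, one_pow, div_le_div_iff₀ hε0 (by positivity)]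
    nlinarith [sq_nonneg (1 - 2 * ε)]
  linarith

end M3

theorem window (n : ℕ) (hn : 2 ≤ n) (P : Set (SimpleGraph (Fin n)))
    (hmono : ∀ G G' : SimpleGraph (Fin n), G ≤ G' → G ∈ P → G' ∈ P)
    (hne : P.Nonempty) (hnu : P ≠ Set.univ)
    (hI : ∀ p : ℝ, 0 < p → p < 1 →
      Crest.CombinatoricsR.RandomGraph.gnpProb n p P * (1 - Crest.CombinatoricsR.RandomGraph.gnpProb n p P)
        ≤ 2 ^ 17 / Real.log n ^ 2 *
          ∑ e : Crest.CombinatoricsR.RandomGraph.EdgeSlot n, Crest.FinProb.bernoulliProb p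
            {ω | (Crest.CombinatoricsR.RandomGraph.graphOf (Function.update ω e true) ∈ P) ∧
                 (Crest.CombinatoricsR.RandomGraph.graphOf (Function.update ω e false) ∉ P)})
    (ε : ℝ) (hε0 : 0 < ε) (hε : ε < 1 / 2)
    (p q : ℝ) (hp0 : 0 ≤ p) (hp1 : p ≤ 1) (hq0 : 0 ≤ q) (hq1 : q ≤ 1)
    (hp : ε ≤ Crest.CombinatoricsR.RandomGraph.gnpProb n p P)
    (hq : p + 2 ^ 19 / Real.log n ^ 2 * Real.log (1 / (2 * ε)) ≤ q) :
    1 - ε ≤ Crest.CombinatoricsR.RandomGraph.gnpProb n q P := by
  obtain ⟨A, hAdef⟩ : ∃ A : Set (Crest.CombinatoricsR.RandomGraph.EdgeSlot n → Bool),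
    A = {ω | Crest.CombinatoricsR.RandomGraph.graphOf ω ∈ P} := ⟨_, rfl⟩
  have hmem : ∀ ω, ω ∈ A ↔ Crest.CombinatoricsR.RandomGraph.graphOf ω ∈ P := by
    intro ω; rw [hAdef]; rfl
  have htop : (fun _ => true) ∈ A := by
    rw [hmem]
    obtain ⟨G, hG⟩ := hne
    refine hmono G _ ?_ hG
    intro i j hij
    rw [M5.graphOf_adj]
    exact ⟨by rw [Sym2.mk_isDiag_iff]; exact hij.ne, rfl⟩
  have hbot : (fun _ => false) ∉ A := by
    rw [hmem]
    intro h
    apply hnu
    ext G
    simp only [Set.mem_univ, iff_true]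
    refine hmono _ G ?_ h
    intro i j hij
    rw [M5.graphOf_adj] at hij
    obtain ⟨_, h2⟩ := hij
    simp at h2
  have hinc : ∀ x : Crest.CombinatoricsR.RandomGraph.EdgeSlot n → Bool, ∀ e,
      Function.update x e false ∈ A → Function.update x e true ∈ A := by
    intro x e h
    rw [hmem] at h ⊢
    refine hmono _ _ ?_ h
    intro i j hij
    rw [M5.graphOf_adj] at hij ⊢
    obtain ⟨h1, h2⟩ := hij
    refine ⟨h1, ?_⟩
    by_cases he : (⟨s(i, j), h1⟩ : Crest.CombinatoricsR.RandomGraph.EdgeSlot n) = e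
    · rw [he]; simp
    · rw [Function.update_of_ne he] at h2 ⊢; exact h2
  have hg : ∀ x : ℝ, Crest.CombinatoricsR.RandomGraph.gnpProb n x P = Crest.FinProb.bernoulliProb x A := by
    intro x; rw [hAdef]; rfl
  simp_rw [hg] at hI hp ⊢
  have hL : 0 < Real.log n := Real.log_pos (by exact_mod_cast (by omega : 1 < n))
  have hlog0 : 0 < Real.log (1 / (2 * ε)) := by
    apply Real.log_pos
    rw [lt_div_iff₀ (by linarith)]; linarith
  rcases hp0.eq_or_lt with h0 | h0
  · rw [← h0, M3.prob_zero A hbot] at hp; linarith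
  rcases hq1.eq_or_lt with h1 | h1
  · rw [h1]
    have := M3.prob_one A htop
    linarith
  refine M3.logistic (c := Real.log n ^ 2 / 2 ^ 17) (by positivity)
    (fun x hx0 hx1 => M3.russo hx0 hx1 A hinc)
    (fun x hx0 hx1 => M3.prob_pos hx0 hx1 A _ htop)
    (fun x hx0 hx1 => M3.prob_lt_one hx0 hx1 A _ hbot)
    (fun x hx0 hx1 => ?_) hε0 hε h0 h1 hp ?_
  · have h := hI x hx0 hx1
    have h2 : ∀ e, {ω : Crest.CombinatoricsR.RandomGraph.EdgeSlot n → Bool |
        (Crest.CombinatoricsR.RandomGraph.graphOf (Function.update ω e true) ∈ P) ∧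
                 (Crest.CombinatoricsR.RandomGraph.graphOf (Function.update ω e false) ∉ P)}
        = {ω | Function.update ω e true ∈ A ∧ Function.update ω e false ∉ A} := by
      intro e; rw [hAdef]; rfl
    simp_rw [h2] at h
    rw [div_mul_eq_mul_div, div_le_iff₀ (by norm_num)]
    rw [div_mul_eq_mul_div, le_div_iff₀ (by positivity)] at h
    linarith
  · have : (4:ℝ) / (Real.log n ^ 2 / 2 ^ 17) = 2 ^ 19 / Real.log n ^ 2 := by
      field_simp; norm_num
    rw [this]; exact hq

end Crest.Agent.VN
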